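import Crest.Agent.R057.Cg3_765

/-!
# R057 (S0079): the board part of the proof of Seymour's second neighbourhood conjecture

The board is `V × V` with the product measure `w × w`.  Both families of a pair `(P, S)` are kept in
"own row" form: `(b, y) ∈ P` means `y ∈ P_b`, `(y, b) ∈ S` means `b ∈ S_y`.
* `J0 A P S`: the admissible pairs, `E` the energy;
* (CG) makes `E` drop along `Hc` (helper203);
* erosion `Er` maps admissible pairs to pairs whose closure is admissible (helper280, helper427, helper170);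
* the energy comparison reduces to the abstract inequality `RIneq` (helper221's Theorem 0).
-/

set_option autoImplicit false
set_option linter.unusedSectionVars false

namespace Crest.Agent.R057.Bd172

open Finset Crest.Agent.R057.Cg765

variable {V : Type} [Fintype V] [DecidableEq V]

/-- closed out-neighbourhood -/
def Nc (A : V → Finset V) (x : V) : Finset V := insert x (A x)

/-- product measure -/
def mu (w : V → ℝ) (X : Finset (V × V)) : ℝ := ∑ c ∈ X, w c.1 * w c.2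

/-- horizontal closed out-neighbourhood -/
def Hc (A : V → Finset V) (X : Finset (V × V)) : Finset (V × V) :=
  univ.filter fun c => ∃ z, c.2 ∈ Nc A z ∧ (c.1, z) ∈ X

/-- transposition -/
def tr (X : Finset (V × V)) : Finset (V × V) := univ.filter fun c => (c.2, c.1) ∈ X

/-- the diagonal -/
def Dg : Finset (V × V) := univ.filter fun c => c.1 = c.2

/-- vertical erosion -/
def Er (A : V → Finset V) (X : Finset (V × V)) : Finset (V × V) :=
  univ.filter fun c => ∀ m, c.1 ∈ Nc A m → (m, c.2) ∈ X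

/-- neutral cells -/
def Ntr (P S : Finset (V × V)) : Finset (V × V) :=
  univ.filter fun c => (c.1, c.2) ∉ P ∧ (c.2, c.1) ∉ S

/-- a row -/
def rw' (X : Finset (V × V)) (b : V) : Finset V := univ.filter fun y => (b, y) ∈ X

variable {A : V → Finset V} {w : V → ℝ}

lemma self_Nc (x : V) : x ∈ Nc A x := Finset.mem_insert_self _ _

lemma mem_Hc {X : Finset (V × V)} {b y : V} : (b, y) ∈ Hc A X ↔ ∃ z, y ∈ Nc A z ∧ (b, z) ∈ X := by
  simp [Hc]

lemma mem_tr {X : Finset (V × V)} {b y : V} : (b, y) ∈ tr X ↔ (y, b) ∈ X := by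
  simp [tr]

lemma mem_Dg {b y : V} : (b, y) ∈ (Dg : Finset (V × V)) ↔ b = y := by
  simp [Dg]

lemma mem_Er {X : Finset (V × V)} {b y : V} :
    (b, y) ∈ Er A X ↔ ∀ m, b ∈ Nc A m → (m, y) ∈ X := by
  simp [Er]

lemma mem_Ntr {P S : Finset (V × V)} {b y : V} :
    (b, y) ∈ Ntr P S ↔ (b, y) ∉ P ∧ (y, b) ∉ S := by
  simp [Ntr]

lemma mem_rw' {X : Finset (V × V)} {b y : V} : y ∈ rw' X b ↔ (b, y) ∈ X := by
  simp [rw']

lemma mu_mono (hw : ∀ x, 0 ≤ w x) {X Y : Finset (V × V)} (h : X ⊆ Y) : mu w X ≤ mu w Y :=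
  Finset.sum_le_sum_of_subset_of_nonneg h fun _ _ _ => mul_nonneg (hw _) (hw _)

lemma mu_nonneg (hw : ∀ x, 0 ≤ w x) (X : Finset (V × V)) : 0 ≤ mu w X :=
  Finset.sum_nonneg fun _ _ => mul_nonneg (hw _) (hw _)

lemma mu_union_inter (X Y : Finset (V × V)) :
    mu w (X ∪ Y) + mu w (X ∩ Y) = mu w X + mu w Y :=
  Finset.sum_union_inter

lemma mu_sdiff {X Y : Finset (V × V)} (h : Y ⊆ X) : mu w (X \ Y) = mu w X - mu w Y := by
  have := Finset.sum_sdiff (f := fun c : V × V => w c.1 * w c.2) h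
  simp only [mu]; linarith

lemma mu_compl (X : Finset (V × V)) : mu w Xᶜ = mu w univ - mu w X := by
  rw [← mu_sdiff (Finset.subset_univ X), Finset.compl_eq_univ_sdiff]

lemma mu_union_le (hw : ∀ x, 0 ≤ w x) (X Y : Finset (V × V)) :
    mu w (X ∪ Y) ≤ mu w X + mu w Y := by
  have := mu_union_inter (w := w) X Y
  have := mu_nonneg hw (X ∩ Y)
  linarith

lemma mu_tr (X : Finset (V × V)) : mu w (tr X) = mu w X := by
  refine Finset.sum_nbij' Prod.swap Prod.swap ?_ ?_ ?_ ?_ ?_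
  · rintro ⟨b, y⟩ h; exact mem_tr.mp h
  · rintro ⟨b, y⟩ h; exact mem_tr.mpr h
  · rintro ⟨b, y⟩ _; rfl
  · rintro ⟨b, y⟩ _; rfl
  · rintro ⟨b, y⟩ _; simp [mul_comm]

lemma mu_rows (X : Finset (V × V)) : mu w X = ∑ b, w b * wt w (rw' X b) := by
  have h1 : mu w X = ∑ c : V × V, if c ∈ X then w c.1 * w c.2 else 0 := by
    rw [mu, ← Finset.sum_filter]; congr 1; ext c; simp
  rw [h1, Fintype.sum_prod_type]
  refine Finset.sum_congr rfl fun b _ => ?_
  rw [wt, rw', Finset.sum_filter, Finset.mul_sum]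
  refine Finset.sum_congr rfl fun y _ => ?_
  split_ifs <;> simp

lemma sub_Hc (X : Finset (V × V)) : X ⊆ Hc A X := by
  rintro ⟨b, y⟩ h
  exact mem_Hc.mpr ⟨y, self_Nc y, h⟩

lemma Hc_mono {X Y : Finset (V × V)} (h : X ⊆ Y) : Hc A X ⊆ Hc A Y := by
  rintro ⟨b, y⟩ hX
  obtain ⟨z, hz, hX⟩ := mem_Hc.mp hX
  exact mem_Hc.mpr ⟨z, hz, h hX⟩

lemma rw_Hc (X : Finset (V × V)) (b : V) : rw' (Hc A X) b = rw' X b ∪ An A (rw' X b) := by
  ext y
  simp only [mem_rw', mem_Hc, Finset.mem_union, mem_An, Nc, Finset.mem_insert]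
  constructor
  · rintro ⟨z, hz | hz, hX⟩
    · subst hz; exact Or.inl hX
    · exact Or.inr ⟨z, hX, hz⟩
  · rintro (h | ⟨z, hX, hz⟩)
    · exact ⟨y, Or.inl rfl, h⟩
    · exact ⟨z, Or.inr hz, hX⟩

/-- half-energy -/
def en (A : V → Finset V) (w : V → ℝ) (X : Finset (V × V)) : ℝ := mu w (Hc A X) - mu w X

lemma en_rows (X : Finset (V × V)) :
    en A w X = ∑ b, w b * wt w (An A (rw' X b) \ rw' X b) := by
  rw [en, mu_rows, mu_rows (w := w) X, ← Finset.sum_sub_distrib]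
  refine Finset.sum_congr rfl fun b _ => ?_
  rw [rw_Hc, wt_union]; ring

/-- **CG on the board** -/
lemma en_Hc_lt (H : World A) (hw : Good A w) {X : Finset (V × V)} (hD : Dg ⊆ X)
    (hX : ∀ b, ∃ c, (b, c) ∉ X) : en A w (Hc A X) < en A w X := by
  rw [en_rows, en_rows (w := w) X]
  have := H.ne
  refine Finset.sum_lt_sum_of_nonempty Finset.univ_nonempty fun b _ => ?_
  have h1 : (rw' X b).Nonempty := ⟨b, mem_rw'.mpr (hD (mem_Dg.mpr rfl))⟩
  have h2 : rw' X b ≠ Finset.univ := by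
    intro h
    obtain ⟨c, hc⟩ := hX b
    exact hc (mem_rw'.mp (h ▸ Finset.mem_univ c))
  have h3 := H.cg hw (rw' X b) (H.not_sub h1 h2)
  rw [← rw_Hc] at h3
  exact mul_lt_mul_of_pos_left h3 (H.pos hw b)

/-- the admissible pairs -/
structure J0 (A : V → Finset V) (P S : Finset (V × V)) : Prop where
  hP : Hc A Dg ⊆ P
  hS : Hc A Dg ⊆ S
  ind : ∀ b y, (b, y) ∈ P → (y, b) ∈ S → b = y

lemma J0.symm {P S : Finset (V × V)} (h : J0 A P S) : J0 A S P :=
  ⟨h.hS, h.hP, fun b y h1 h2 => (h.ind y b h2 h1).symm⟩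

lemma mem_HcDg {b y : V} : (b, y) ∈ Hc A Dg ↔ y ∈ Nc A b := by
  rw [mem_Hc]
  constructor
  · rintro ⟨z, hz, h⟩
    rw [mem_Dg] at h; subst h; exact hz
  · intro h; exact ⟨b, h, mem_Dg.mpr rfl⟩

lemma J0.base (hA : Ori A) : J0 A (Hc A Dg) (Hc A Dg) := by
  refine ⟨le_refl _, le_refl _, fun b y h1 h2 => ?_⟩
  rw [mem_HcDg, Nc, Finset.mem_insert] at h1 h2
  rcases h1 with h1 | h1
  · exact h1.symm
  · rcases h2 with h2 | h2
    · exact h2
    · exact absurd h2 (hA b y h1)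

/-- a minimiser of the energy -/
structure Mn (A : V → Finset V) (w : V → ℝ) (P S : Finset (V × V)) : Prop where
  adm : J0 A P S
  le : ∀ P' S', J0 A P' S' → en A w P + en A w S ≤ en A w P' + en A w S'

lemma Mn.symm {P S : Finset (V × V)} (h : Mn A w P S) : Mn A w S P :=
  ⟨h.adm.symm, fun P' S' h' => by have := h.le S' P' h'.symm; linarith⟩

lemma exists_min (hA : Ori A) (w : V → ℝ) : ∃ P S, Mn A w P S := by
  classical
  obtain ⟨p, hp, hmin⟩ := Finset.exists_min_image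
    (Finset.univ.filter fun p : Finset (V × V) × Finset (V × V) => J0 A p.1 p.2)
    (fun p => en A w p.1 + en A w p.2) ⟨(Hc A Dg, Hc A Dg), by simpa using J0.base hA⟩
  refine ⟨p.1, p.2, (Finset.mem_filter.mp hp).2, fun P' S' h => ?_⟩
  exact hmin (P', S') (Finset.mem_filter.mpr ⟨Finset.mem_univ _, h⟩)

/-- 3a: the erosion of an admissible pair has admissible closure -/
lemma J0.erode {P S : Finset (V × V)} (h : J0 A P S) :
    J0 A (Hc A (Er A P)) (Hc A (Er A S)) := by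
  have hd : ∀ {X : Finset (V × V)}, Hc A Dg ⊆ X → Dg ⊆ Er A X := by
    rintro X hX ⟨b, y⟩ hb
    rw [mem_Dg] at hb; subst hb
    exact mem_Er.mpr fun m hm => hX (mem_HcDg.mpr hm)
  refine ⟨Hc_mono (hd h.hP), Hc_mono (hd h.hS), fun b u h1 h2 => ?_⟩
  obtain ⟨y, hy, h1⟩ := mem_Hc.mp h1
  obtain ⟨m, hm, h2⟩ := mem_Hc.mp h2
  rw [mem_Er] at h1 h2
  have h3 : m = y := h.ind m y (h1 m hm) (h2 y hy)
  subst h3
  have h4 : b = m := h.ind b m (h1 b (self_Nc b)) (h.hS (mem_HcDg.mpr hm))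
  have h5 : m = u := h.ind m u (h.hP (mem_HcDg.mpr hy)) (h2 u (self_Nc u))
  rw [h4, h5]

lemma Dg_sub_Er {X : Finset (V × V)} (hX : Hc A Dg ⊆ X) : Dg ⊆ Er A X := by
  rintro ⟨b, y⟩ hb
  rw [mem_Dg] at hb; subst hb
  exact mem_Er.mpr fun m hm => hX (mem_HcDg.mpr hm)

/-- admissible pairs have proper rows -/
lemma J0.proper {P S : Finset (V × V)} (H : World A) (h : J0 A P S) (b : V) :
    ∃ c, (b, c) ∉ P := by
  obtain ⟨c, hc⟩ := H.nonempty_in b
  refine ⟨c, fun hP => ?_⟩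
  have h1 : (c, b) ∈ S := h.hS (mem_HcDg.mpr (Finset.mem_insert_of_mem hc))
  have h2 := h.ind b c hP h1
  subst h2
  exact H.ori.irrefl _ hc

/-- CG at the eroded pair -/
lemma erode_lt (H : World A) (hw : Good A w) {P S : Finset (V × V)} (h : J0 A P S) :
    en A w (Hc A (Er A P)) < en A w (Er A P) := by
  refine en_Hc_lt H hw (Dg_sub_Er h.hP) fun b => ?_
  obtain ⟨c, hc⟩ := h.erode.proper H b
  exact ⟨c, fun h' => hc (sub_Hc _ h')⟩

/-- 3b, one half -/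
lemma er_compl (hw : ∀ x, 0 ≤ w x) {P S : Finset (V × V)} (h : J0 A P S) :
    mu w (Er A P)ᶜ ≤ mu w (Hc A S) - mu w Dg + mu w (Hc A (Ntr S P) \ Hc A S) := by
  have h1 : tr ((Er A P)ᶜ) ⊆ (Hc A S \ Dg) ∪ (Hc A (Ntr S P) \ Hc A S) := by
    rintro ⟨y, b⟩ hb
    rw [mem_tr, Finset.mem_compl, mem_Er] at hb
    push Not at hb
    obtain ⟨m, hm, hmP⟩ := hb
    have hne : y ≠ b := by
      rintro rfl
      exact hmP (h.hP (mem_HcDg.mpr hm))
    rw [Finset.mem_union, Finset.mem_sdiff, Finset.mem_sdiff, mem_Dg]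
    by_cases hS : (y, b) ∈ Hc A S
    · exact Or.inl ⟨hS, hne⟩
    · refine Or.inr ⟨mem_Hc.mpr ⟨m, hm, mem_Ntr.mpr ⟨fun h' => ?_, hmP⟩⟩, hS⟩
      exact hS (mem_Hc.mpr ⟨m, hm, h'⟩)
  have h2 : Dg ⊆ Hc A S := (sub_Hc Dg).trans (h.hS.trans (sub_Hc S))
  rw [← mu_tr, ← mu_sdiff h2]
  exact (mu_mono hw h1).trans (mu_union_le hw _ _)

/-- 3b: the energy comparison -/
lemma energy (hw : ∀ x, 0 ≤ w x) {P S : Finset (V × V)} (h : J0 A P S) :
    en A w (Er A P) + en A w (Er A S) ≤ en A w P + en A w S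
      + mu w (Hc A (Ntr S P) \ Hc A S) + mu w (Hc A (Ntr P S) \ Hc A P) - mu w (Ntr P S)
      - mu w ((Hc A (Er A P)) ∪ tr (Hc A (Er A S)))ᶜ := by
  have h1 := er_compl hw h
  have h2 := er_compl hw h.symm
  rw [mu_compl] at h1 h2
  have h3 := mu_union_inter (w := w) (Hc A (Er A P)) (tr (Hc A (Er A S)))
  have h4 : mu w (Hc A (Er A P) ∩ tr (Hc A (Er A S))) ≤ mu w Dg := by
    refine mu_mono hw ?_
    rintro ⟨b, y⟩ hb
    rw [Finset.mem_inter, mem_tr] at hb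
    exact mem_Dg.mpr (h.erode.ind b y hb.1 hb.2)
  have h5 := mu_union_inter (w := w) P (tr S)
  have h6 : mu w (P ∩ tr S) ≤ mu w Dg := by
    refine mu_mono hw ?_
    rintro ⟨b, y⟩ hb
    rw [Finset.mem_inter, mem_tr] at hb
    exact mem_Dg.mpr (h.ind b y hb.1 hb.2)
  have h7 : (P ∪ tr S)ᶜ = Ntr P S := by
    ext ⟨b, y⟩
    rw [Finset.mem_compl, Finset.mem_union, mem_tr, mem_Ntr]; tauto
  have h8 := mu_compl (w := w) (P ∪ tr S)
  rw [h7] at h8
  have h9 := mu_compl (w := w) ((Hc A (Er A P)) ∪ tr (Hc A (Er A S)))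
  rw [mu_tr] at h3 h5
  simp only [en]
  linarith

/-- Hall condition at a minimiser -/
lemma Mn.hall (H : World A) (hw : Good A w) {P S : Finset (V × V)} (h : Mn A w P S) (a : V)
    (U : Finset V) (hU : ∀ x ∈ U, (a, x) ∈ Ntr P S) :
    wt w U ≤ wt w (Finset.univ.filter fun y =>
      (a, y) ∈ Hc A (Ntr P S) \ Hc A P ∧ ∃ x ∈ U, y ∈ Nc A x) := by
  classical
  set R : Finset (V × V) := U.image fun x => (a, x) with hR
  have memR : ∀ {b y}, (b, y) ∈ R ↔ b = a ∧ y ∈ U := by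
    intro b y
    simp only [hR, Finset.mem_image, Prod.mk.injEq]
    constructor
    · rintro ⟨x, hx, h1, h2⟩; subst h1; subst h2; exact ⟨rfl, hx⟩
    · rintro ⟨h1, h2⟩; exact ⟨y, h2, h1.symm, rfl⟩
  have hadm : J0 A (P ∪ R) S := by
    refine ⟨h.adm.hP.trans Finset.subset_union_left, h.adm.hS, fun b y h1 h2 => ?_⟩
    rcases Finset.mem_union.mp h1 with h1 | h1
    · exact h.adm.ind b y h1 h2
    · obtain ⟨h3, h4⟩ := memR.mp h1
      subst h3
      exact absurd h2 (mem_Ntr.mp (hU y h4)).2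
  have hle := h.le _ _ hadm
  have hdisj : Disjoint P R := by
    rw [Finset.disjoint_left]
    rintro ⟨b, y⟩ h1 h2
    obtain ⟨h3, h4⟩ := memR.mp h2
    subst h3
    exact (mem_Ntr.mp (hU y h4)).1 h1
  have h1 : mu w (P ∪ R) = mu w P + mu w R := Finset.sum_union hdisj
  have h2 : mu w R = w a * wt w U := by
    rw [mu, hR, Finset.sum_image (fun x _ y _ hxy => (Prod.mk.inj hxy).2), wt, Finset.mul_sum]
  set F : Finset V := Finset.univ.filter fun y =>
      (a, y) ∈ Hc A (Ntr P S) \ Hc A P ∧ ∃ x ∈ U, y ∈ Nc A x with hF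
  have h3 : Hc A (P ∪ R) ⊆ Hc A P ∪ F.image fun x => (a, x) := by
    rintro ⟨b, y⟩ hb
    obtain ⟨z, hz, hb⟩ := mem_Hc.mp hb
    by_cases hyP : (b, y) ∈ Hc A P
    · exact Finset.mem_union_left _ hyP
    rcases Finset.mem_union.mp hb with hb | hb
    · exact absurd (mem_Hc.mpr ⟨z, hz, hb⟩) hyP
    · obtain ⟨h3', hzU⟩ := memR.mp hb
      subst h3'
      refine Finset.mem_union_right _ (Finset.mem_image.mpr ⟨y, ?_, rfl⟩)
      rw [hF, Finset.mem_filter]
      refine ⟨Finset.mem_univ _, Finset.mem_sdiff.mpr ⟨mem_Hc.mpr ⟨z, hz, hU z hzU⟩, hyP⟩, z, hzU, hz⟩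
  have h4 : mu w (Hc A (P ∪ R)) ≤ mu w (Hc A P) + w a * wt w F := by
    refine (mu_mono hw.nonneg h3).trans ((mu_union_le hw.nonneg _ _).trans ?_)
    have : mu w (F.image fun x => (a, x)) = w a * wt w F := by
      rw [mu, Finset.sum_image (fun x _ y _ hxy => (Prod.mk.inj hxy).2), wt, Finset.mul_sum]
    rw [this]
  simp only [en] at hle
  have h5 : w a * wt w U ≤ w a * wt w F := by linarith
  exact le_of_mul_le_mul_left h5 (H.pos hw a)

/-- **the abstract inequality (R)** = helper221's Theorem 0 (bipartite case) on `V × V` -/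
def RIneq (V : Type) [Fintype V] [DecidableEq V] : Prop :=
  ∀ (w : V → ℝ) (_ : ∀ x, 0 ≤ w x) (N : V → Finset V) (Nt QQ TT : Finset (V × V))
    (_ : ∀ b y, (b, y) ∈ TT → ∃ z, y ∈ N z ∧ (b, z) ∈ Nt)
    (_ : ∀ b y, (b, y) ∈ QQ → ∃ m, b ∈ N m ∧ (m, y) ∈ Nt)
    (_ : ∀ b b' y y', (b', y) ∈ TT → (b, y') ∈ QQ → b ∈ N b' → y ∈ N y' → (b', y') ∈ Nt)
    (_ : ∀ a (U : Finset V), (∀ x ∈ U, (a, x) ∈ Nt) →
      wt w U ≤ wt w (Finset.univ.filter fun y => (a, y) ∈ TT ∧ ∃ x ∈ U, y ∈ N x))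
    (_ : ∀ y (U : Finset V), (∀ x ∈ U, (x, y) ∈ Nt) →
      wt w U ≤ wt w (Finset.univ.filter fun b => (b, y) ∈ QQ ∧ ∃ x ∈ U, b ∈ N x)),
    mu w QQ + mu w TT ≤ mu w Nt + mu w (Finset.univ.filter fun c : V × V =>
      (∃ y', c.2 ∈ N y' ∧ (c.1, y') ∈ QQ) ∧ ∃ b', c.1 ∈ N b' ∧ (b', c.2) ∈ TT)

/-- **end of the proof**: no world. -/
theorem world_false (HR : RIneq V) (H : World A) : False := by
  obtain ⟨w, hw⟩ := H.exists_good
  obtain ⟨P, S, hm⟩ := exists_min H.ori w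
  have e1 := erode_lt H hw hm.adm
  have e2 := erode_lt H hw hm.adm.symm
  have e3 := hm.le _ _ hm.adm.erode
  have e4 := energy hw.nonneg hm.adm
  -- the abstract inequality
  have hR := HR w hw.nonneg (Nc A) (Ntr P S) (tr (Hc A (Ntr S P) \ Hc A S))
    (Hc A (Ntr P S) \ Hc A P) ?_ ?_ ?_ ?_ ?_
  · rw [mu_tr] at hR
    have h5 : mu w (Finset.univ.filter fun c : V × V =>
        (∃ y', c.2 ∈ Nc A y' ∧ (c.1, y') ∈ tr (Hc A (Ntr S P) \ Hc A S)) ∧
          ∃ b', c.1 ∈ Nc A b' ∧ (b', c.2) ∈ Hc A (Ntr P S) \ Hc A P)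
        ≤ mu w ((Hc A (Er A P)) ∪ tr (Hc A (Er A S)))ᶜ := by
      refine mu_mono hw.nonneg ?_
      rintro ⟨b, y⟩ hb
      obtain ⟨⟨y', hy', hQ⟩, b', hb', hT⟩ := (Finset.mem_filter.mp hb).2
      simp only at hy' hQ hb' hT
      rw [mem_tr, Finset.mem_sdiff] at hQ
      rw [Finset.mem_sdiff] at hT
      rw [Finset.mem_compl, Finset.mem_union, mem_tr]
      rintro (h | h)
      · obtain ⟨z, hz, h⟩ := mem_Hc.mp h
        exact hT.2 (mem_Hc.mpr ⟨z, hz, mem_Er.mp h b' hb'⟩)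
      · obtain ⟨z, hz, h⟩ := mem_Hc.mp h
        exact hQ.2 (mem_Hc.mpr ⟨z, hz, mem_Er.mp h y' hy'⟩)
    linarith
  · intro b y h
    rw [Finset.mem_sdiff] at h
    exact mem_Hc.mp h.1
  · intro b y h
    rw [mem_tr, Finset.mem_sdiff] at h
    obtain ⟨m, hm', h'⟩ := mem_Hc.mp h.1
    refine ⟨m, hm', ?_⟩
    rw [mem_Ntr] at h' ⊢
    exact ⟨h'.2, h'.1⟩
  · intro b b' y y' hT hQ hb hy
    rw [mem_tr, Finset.mem_sdiff] at hQ
    rw [Finset.mem_sdiff] at hT
    rw [mem_Ntr]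
    exact ⟨fun h => hT.2 (mem_Hc.mpr ⟨y', hy, h⟩), fun h => hQ.2 (mem_Hc.mpr ⟨b', hb, h⟩)⟩
  · intro a U hU
    exact hm.hall H hw a U hU
  · intro y U hU
    have hU' : ∀ x ∈ U, (y, x) ∈ Ntr S P := by
      intro x hx
      have := mem_Ntr.mp (hU x hx)
      exact mem_Ntr.mpr ⟨this.2, this.1⟩
    have := hm.symm.hall H hw y U hU'
    refine this.trans (le_of_eq ?_)
    congr 1
    ext b
    simp only [Finset.mem_filter, Finset.mem_univ, true_and, mem_tr]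

end Crest.Agent.R057.Bd172
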