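import Crest.Agent.R057.Cg2_765

/-!
# R057 (S0079): consequences of minimality: `OptT`, positivity, strong connectivity,
CG, the rows `K_Z`, HALL.
-/

set_option autoImplicit false
set_option linter.unusedSectionVars false

namespace Crest.Agent.R057.Cg765

open Finset

variable {V : Type} [Fintype V] [DecidableEq V] {A : V → Finset V} {w : V → ℝ}

/-- the weights considered in a world: nonnegative with all rows positive -/
structure Good (A : V → Finset V) (w : V → ℝ) : Prop where
  nonneg : ∀ x, 0 ≤ w x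
  row_pos : ∀ x, 0 < row A w x

lemma World.exists_good (H : World A) : ∃ w, Good A w :=
  let ⟨w, h1, h2⟩ := H.exw; ⟨w, h1, h2⟩

lemma An_le {A0 : V → Finset V} (h0 : ∀ x, A0 x ⊆ A x) (S : Finset V) : An A0 S ⊆ An A S := by
  intro y hy
  obtain ⟨x, hx, hyx⟩ := mem_An.mp hy
  exact mem_An.mpr ⟨x, hx, h0 x hyx⟩

lemma Re_le {A0 : V → Finset V} (h0 : ∀ x, A0 x ⊆ A x) (x : V) : Re A0 x ⊆ Re A x := by
  apply Finset.union_subset_union (h0 x)
  exact (An_mono (h0 x)).trans (An_le h0 _)

/-- **(Opt)**: after deleting arcs some tail has row `≤ 0`. -/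
lemma World.opt (H : World A) (hw : Good A w) {A0 : V → Finset V} (h0 : ∀ x, A0 x ⊆ A x)
    (hne : A0 ≠ A) : ∃ x, A0 x ≠ A x ∧ row A0 w x ≤ 0 := by
  obtain ⟨x, hx⟩ := H.amin A0 h0 hne w hw.nonneg
  refine ⟨x, fun h => ?_, hx⟩
  have h1 : row A w x ≤ row A0 w x := by
    rw [row, row, h]
    have := wt_mono hw.nonneg (Re_le h0 x)
    linarith
  have := hw.row_pos x
  linarith

/-- deletion of all arcs from `T` leaving `U` -/
def del (A : V → Finset V) (T U : Finset V) : V → Finset V :=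
  fun x => if x ∈ T then A x ∩ U else A x

lemma World.optT (H : World A) (hw : Good A w) : OptT A w := by
  intro T U hTU
  have h0 : ∀ x, del A T U x ⊆ A x := by
    intro x; unfold del; split_ifs
    · exact Finset.inter_subset_left
    · exact le_refl _
  have hne : del A T U ≠ A := by
    intro h
    apply hTU
    intro y hy
    obtain ⟨x, hx, hyx⟩ := mem_An.mp hy
    have h1 := congrFun h x
    simp only [del, if_pos hx] at h1
    rw [← h1] at hyx
    exact (Finset.mem_inter.mp hyx).2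
  obtain ⟨x, hx, hrow⟩ := H.opt hw h0 hne
  have hxT : x ∈ T := by
    by_contra hc; exact hx (by simp [del, hc])
  have hdx : del A T U x = A x ∩ U := by simp [del, hxT]
  refine ⟨x, hxT, ?_, ?_⟩
  · intro hc; exact hx (by rw [hdx]; exact Finset.inter_eq_left.mpr hc)
  · have hRe : Re (del A T U) x ⊆ Re A x ∩ (U ∪ An A (U \ T)) := by
      apply Finset.subset_inter (Re_le h0 x)
      intro y hy
      simp only [Re, hdx, Finset.mem_union, Finset.mem_inter, mem_An, Finset.mem_sdiff] at hy ⊢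
      rcases hy with h1 | ⟨z, ⟨_, hzU⟩, hyz⟩
      · exact Or.inl h1.2
      · by_cases hzT : z ∈ T
        · simp only [del, if_pos hzT, Finset.mem_inter] at hyz
          exact Or.inl hyz.2
        · simp only [del, if_neg hzT] at hyz
          exact Or.inr ⟨z, ⟨hzU, hzT⟩, hyz⟩
    have h1 := wt_mono hw.nonneg hRe
    have h2 := wt_sdiff_add (w := w) (A x) U
    have h3 := wt_sdiff_add (w := w) (Re A x) (U ∪ An A (U \ T))
    rw [row, hdx] at hrow
    rw [row]
    linarith

/-- `GCG` in a world, strict. -/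
theorem World.gcg (H : World A) (hw : Good A w) (T U : Finset V) (hTU : ¬ An A T ⊆ U) :
    wt w ((U ∪ An A T) ∪ An A (U ∪ An A T)) - wt w (U ∪ An A (U \ T))
      < 2 * wt w ((U ∪ An A T) \ U) := by
  obtain ⟨S, _, hS, h⟩ := Cg765.gcg hw.nonneg (H.optT hw) T U
  have : 0 < ∑ x ∈ S, row A w x := Finset.sum_pos (fun x _ => hw.row_pos x) (hS hTU)
  linarith

/-- helper203's `GCG` in boundary form. -/
theorem World.gcg' (H : World A) (hw : Good A w) (T U : Finset V) (hTU : ¬ An A T ⊆ U) :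
    wt w (An A (U ∪ An A T) \ (U ∪ An A T)) <
      wt w (An A T \ U) + wt w (An A (U \ T) \ U) := by
  have h := H.gcg hw T U hTU
  have h1 := wt_union (w := w) (U ∪ An A T) (An A (U ∪ An A T))
  have h2 := wt_union (w := w) U (An A (U \ T))
  have h3 := wt_union (w := w) U (An A T)
  have h4 : (U ∪ An A T) \ U = An A T \ U := by
    ext y; simp only [Finset.mem_sdiff, Finset.mem_union]; tauto
  rw [h4] at h
  linarith

/-- **CG**: `h(Q) > 0`. -/
theorem World.cg (H : World A) (hw : Good A w) (Q : Finset V) (hQ : ¬ An A Q ⊆ Q) :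
    wt w (An A (Q ∪ An A Q) \ (Q ∪ An A Q)) < wt w (An A Q \ Q) := by
  have h := H.gcg' hw Q Q hQ
  simp only [Finset.sdiff_self, An_empty, Finset.empty_sdiff, wt_empty, add_zero] at h
  exact h

/-- **K_Z**: `F(Z) = w(A(Z) \ Z)` strictly decreases under `Z ↦ A(Z)`. -/
theorem World.kz (H : World A) (hw : Good A w) (Z : Finset V) (hZ : ¬ An A Z ⊆ Z) :
    wt w (An A (An A Z) \ An A Z) < wt w (An A Z \ Z) := by
  have hU : ¬ An A Z ⊆ Z ∩ An A Z := fun h => hZ (h.trans Finset.inter_subset_left)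
  have h := H.gcg' hw Z (Z ∩ An A Z) hU
  have h1 : Z ∩ An A Z ∪ An A Z = An A Z := Finset.union_eq_right.mpr Finset.inter_subset_right
  have h2 : (Z ∩ An A Z) \ Z = ∅ := Finset.sdiff_eq_empty_iff_subset.mpr Finset.inter_subset_left
  have h3 : An A Z \ (Z ∩ An A Z) = An A Z \ Z := by
    ext y; simp only [Finset.mem_sdiff, Finset.mem_inter]; tauto
  rw [h1, h2, h3] at h
  simpa using h

/-- general `U ⊆ T`. -/
theorem World.gcg_sub (H : World A) (hw : Good A w) (T U : Finset V) (hUT : U ⊆ T)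
    (hTU : ¬ An A T ⊆ U) :
    wt w (An A (U ∪ An A T) \ (U ∪ An A T)) < wt w (An A T \ U) := by
  have h := H.gcg' hw T U hTU
  rw [Finset.sdiff_eq_empty_iff_subset.mpr hUT] at h
  simpa using h

/-- vertex `x` : `w(N⁺⁺(x)) < w(N⁺(x))`, restated. -/
lemma Good.row' (hw : Good A w) (x : V) : wt w (An A (A x) \ A x) < wt w (A x) := by
  have := hw.row_pos x
  rw [row_eq] at this; linarith

/-- **HALL**: for a proper subset `Y` of `A x`. -/
theorem World.hall (H : World A) (hw : Good A w) (x : V) (Y : Finset V) (hY : Y ⊂ A x) :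
    wt w Y ≤ wt w (An A Y \ Y) := by
  classical
  let A0 : V → Finset V := fun z => if z = x then Y else A z
  have h0 : ∀ z, A0 z ⊆ A z := by
    intro z; by_cases hz : z = x
    · subst hz; simpa [A0] using hY.1
    · simp [A0, hz]
  have hA0x : A0 x = Y := by simp [A0]
  have hne : A0 ≠ A := fun h => hY.ne (by rw [← hA0x, h])
  obtain ⟨z, hz, hrow⟩ := H.opt hw h0 hne
  have hzx : z = x := by
    by_contra hc; exact hz (by simp [A0, hc])
  subst hzx
  have h1 : An A0 (A0 z) = An A Y := by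
    rw [hA0x]; ext y; simp only [mem_An]
    constructor
    · rintro ⟨u, hu, hy⟩; exact ⟨u, hu, h0 u hy⟩
    · rintro ⟨u, hu, hy⟩
      refine ⟨u, hu, ?_⟩
      have : u ≠ z := fun h => H.ori.irrefl z (hY.1 (h ▸ hu))
      simpa [A0, this] using hy
  rw [row_eq, h1, hA0x] at hrow
  linarith

/-- restriction to a set of vertices -/
def res (A : V → Finset V) (Z : Finset V) : {x // x ∈ Z} → Finset {x // x ∈ Z} :=
  fun x => (A x.1).subtype (· ∈ Z)

lemma mem_res {Z : Finset V} {x y : {x // x ∈ Z}} : y ∈ res A Z x ↔ y.1 ∈ A x.1 := by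
  simp [res]

lemma Ori.res (h : Ori A) (Z : Finset V) : Ori (res A Z) := by
  intro x y hy
  rw [mem_res] at hy ⊢
  exact h _ _ hy

lemma wt_res (w : V → ℝ) (Z : Finset V) (S : Finset {x // x ∈ Z}) :
    wt (fun x : {x // x ∈ Z} => w x.1) S = wt w (S.map (Function.Embedding.subtype _)) := by
  simp [wt]

lemma map_res {Z : Finset V} (x : {x // x ∈ Z}) :
    (res A Z x).map (Function.Embedding.subtype _) = A x.1 ∩ Z := by
  ext y
  simp only [Finset.mem_map, mem_res, Finset.mem_inter, Function.Embedding.subtype_apply]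
  constructor
  · rintro ⟨a, h1, rfl⟩; exact ⟨h1, a.2⟩
  · rintro ⟨h1, h2⟩; exact ⟨⟨y, h2⟩, h1, rfl⟩

lemma map_An_res {Z : Finset V} (S : Finset {x // x ∈ Z}) :
    (An (res A Z) S).map (Function.Embedding.subtype _)
      = An A (S.map (Function.Embedding.subtype _)) ∩ Z := by
  ext y
  simp only [Finset.mem_map, mem_An, mem_res, Finset.mem_inter, Function.Embedding.subtype_apply]
  constructor
  · rintro ⟨a, ⟨b, hb, h1⟩, rfl⟩; exact ⟨⟨b.1, ⟨b, hb, rfl⟩, h1⟩, a.2⟩
  · rintro ⟨⟨b', ⟨b, hb, rfl⟩, h1⟩, h2⟩; exact ⟨⟨y, h2⟩, ⟨b, hb, h1⟩, rfl⟩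

/-- the row of an induced subgraph -/
lemma row_res {Z : Finset V} (x : {x // x ∈ Z}) :
    row (res A Z) (fun x => w x.1) x
      = 2 * wt w (A x.1 ∩ Z) - wt w ((A x.1 ∩ Z) ∪ (An A (A x.1 ∩ Z) ∩ Z)) := by
  rw [row, Re, wt_res, wt_res, Finset.map_union, map_An_res, map_res]

/-- **induction hypothesis** for induced subgraphs: every nonempty proper set `Z` and every weight
has a vertex `x ∈ Z` which is Seymour in `D[Z]`. -/
lemma World.ind (H : World A) (Z : Finset V) (hZ : Z.Nonempty) (hZ' : Z ≠ Finset.univ)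
    (u : V → ℝ) (hu : ∀ x, 0 ≤ u x) :
    ∃ x ∈ Z, 2 * wt u (A x ∩ Z) ≤ wt u ((A x ∩ Z) ∪ (An A (A x ∩ Z) ∩ Z)) := by
  obtain ⟨z, hz⟩ := hZ
  have hc : Fintype.card {x // x ∈ Z} < Fintype.card V := by
    rw [Fintype.card_coe, ← Finset.card_univ]
    exact Finset.card_lt_card (Finset.ssubset_univ_iff.mpr hZ')
  obtain ⟨x, hx⟩ := H.vmin {x // x ∈ Z} (res A Z) ⟨⟨z, hz⟩⟩ (H.ori.res Z) hc (fun x => u x.1)
    (fun x => hu x.1)
  rw [row_res] at hx
  exact ⟨x.1, x.2, by linarith⟩

/-- strongly connected -/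
lemma World.closed (H : World A) (Z : Finset V) (hZ : Z.Nonempty) (hc : An A Z ⊆ Z) :
    Z = Finset.univ := by
  by_contra hne
  obtain ⟨w, hw⟩ := H.exists_good
  obtain ⟨x, hx, h⟩ := H.ind Z hZ hne w hw.nonneg
  have h1 : A x ∩ Z = A x := Finset.inter_eq_left.mpr
    (fun y hy => hc (mem_An.mpr ⟨x, hx, hy⟩))
  have h2 : An A (A x) ∩ Z = An A (A x) := Finset.inter_eq_left.mpr
    ((An_mono (fun y hy => hc (mem_An.mpr ⟨x, hx, hy⟩))).trans hc)
  rw [h1, h2] at h
  have := hw.row_pos x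
  rw [row, Re] at this
  linarith

lemma World.not_sub (H : World A) {Z : Finset V} (hZ : Z.Nonempty) (hZ' : Z ≠ Finset.univ) :
    ¬ An A Z ⊆ Z := fun h => hZ' (H.closed Z hZ h)

lemma World.A_ne (H : World A) (x : V) : (A x).Nonempty := by
  obtain ⟨w, hw⟩ := H.exists_good
  by_contra h
  rw [Finset.not_nonempty_iff_eq_empty] at h
  have := hw.row_pos x
  rw [row, Re, h] at this
  simp at this

/-- all weights of a world are positive -/
lemma World.pos (H : World A) (hw : Good A w) (v : V) : 0 < w v := by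
  rcases (hw.nonneg v).lt_or_eq with h | h
  · exact h
  exfalso
  obtain ⟨y, hy⟩ := H.A_ne v
  have hyv : y ≠ v := fun h' => H.ori.irrefl v (h' ▸ hy)
  obtain ⟨x, hx, hle⟩ := H.ind (Finset.univ.erase v) ⟨y, Finset.mem_erase.mpr ⟨hyv, Finset.mem_univ _⟩⟩
    (fun h' => by
      have := Finset.mem_univ v; rw [← h'] at this; exact Finset.notMem_erase _ _ this) w hw.nonneg
  have hZ : ∀ S : Finset V, wt w (S ∩ Finset.univ.erase v) = wt w S := by
    intro S
    have h1 : S ∩ Finset.univ.erase v = S.erase v := by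
      ext z; simp only [Finset.mem_inter, Finset.mem_erase, Finset.mem_univ, and_true]; tauto
    rw [h1]
    by_cases hv : v ∈ S
    · have := Finset.add_sum_erase S w hv
      rw [← h] at this
      simp only [wt]; linarith
    · rw [Finset.erase_eq_of_notMem hv]
  rw [hZ] at hle
  have hsub : (A x ∩ Finset.univ.erase v) ∪ (An A (A x ∩ Finset.univ.erase v) ∩ Finset.univ.erase v)
      ⊆ Re A x := by
    apply Finset.union_subset_union Finset.inter_subset_left
    exact Finset.inter_subset_left.trans (An_mono Finset.inter_subset_left)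
  have := wt_mono hw.nonneg hsub
  have h2 := hw.row_pos x
  rw [row] at h2
  linarith

lemma World.nonempty_in (H : World A) (v : V) : ∃ u, v ∈ A u := by
  obtain ⟨y, hy⟩ := H.A_ne v
  have hyv : y ≠ v := fun h' => H.ori.irrefl v (h' ▸ hy)
  by_contra hc; push Not at hc
  have h1 : An A (Finset.univ.erase v) ⊆ Finset.univ.erase v := by
    intro z hz
    obtain ⟨u, _, hu⟩ := mem_An.mp hz
    exact Finset.mem_erase.mpr ⟨fun h => hc u (h ▸ hu), Finset.mem_univ _⟩
  have h2 := H.closed _ ⟨y, Finset.mem_erase.mpr ⟨hyv, Finset.mem_univ _⟩⟩ h1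
  have := Finset.mem_univ v
  rw [← h2] at this
  exact Finset.notMem_erase _ _ this

end Crest.Agent.R057.Cg765
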