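import Crest.Agent.R057.Rgen_208
import Crest.Agent.R057.Cg3_765

/-!
# R057 (S0079): the board and the final contradiction (helper208)
-/

set_option autoImplicit false
set_option linter.unusedSectionVars false

namespace Crest.Agent.R057.Board208

open Finset Crest.Agent.R057.Cg765 Crest.Agent.R057.Rgen208

section board

variable {V : Type*} [Fintype V] [DecidableEq V]

/-- product measure -/
def mw (w : V → ℝ) : V × V → ℝ := fun p => w p.1 * w p.2

lemma mu_rows (w : V → ℝ) (F : V → Finset V) :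
    wt (mw w) (univ.filter fun p : V × V => p.2 ∈ F p.1) = ∑ b, w b * wt w (F b) := by
  unfold wt mw
  rw [Finset.sum_filter, ← Finset.univ_product_univ, Finset.sum_product]
  apply Finset.sum_congr rfl; intro b _
  dsimp only
  rw [Finset.mul_sum, Finset.sum_ite_mem, Finset.univ_inter]

lemma mu_cols (w : V → ℝ) (F : V → Finset V) :
    wt (mw w) (univ.filter fun p : V × V => p.1 ∈ F p.2) = ∑ y, w y * wt w (F y) := by
  unfold wt mw
  rw [Finset.sum_filter, ← Finset.univ_product_univ, Finset.sum_product_right]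
  apply Finset.sum_congr rfl; intro b _
  dsimp only
  rw [Finset.mul_sum, Finset.sum_ite_mem, Finset.univ_inter]
  apply Finset.sum_congr rfl; intro x _; ring

/-- `J0`: rows of `P`, columns of `S` -/
structure J0 (N : V → Finset V) (P S : V → Finset V) : Prop where
  p : ∀ b, N b ⊆ P b
  s : ∀ y, N y ⊆ S y
  i : ∀ b y, y ∈ P b → b ∈ S y → b = y

/-- energy -/
def En (N : V → Finset V) (w : V → ℝ) (P S : V → Finset V) : ℝ :=
  ∑ b, w b * wt w (An N (P b) \ P b) + ∑ y, w y * wt w (An N (S y) \ S y)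

/-- rows of the erosion of `P` -/
def er (N : V → Finset V) (P : V → Finset V) : V → Finset V :=
  fun c => univ.filter fun y => ∀ b, c ∈ N b → y ∈ P b

lemma mem_er {N P : V → Finset V} {c y : V} : y ∈ er N P c ↔ ∀ b, c ∈ N b → y ∈ P b := by
  simp [er]

variable {N : V → Finset V} {w : V → ℝ} {P S : V → Finset V}

lemma sub_An (hN : ∀ x, x ∈ N x) (X : Finset V) : X ⊆ An N X :=
  fun x hx => mem_An.mpr ⟨x, hx, hN x⟩

/-- the erosions form an independent pair (J1) -/
lemma er_indep (hN : ∀ x, x ∈ N x) (h : J0 N P S) {c r : V} (hr : r ∈ An N (er N P c))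
    (hc : c ∈ An N (er N S r)) : c = r := by
  obtain ⟨y, hy, hry⟩ := mem_An.mp hr
  obtain ⟨b, hb, hcb⟩ := mem_An.mp hc
  rw [mem_er] at hy hb
  have h1 : b = y := h.i b y (hy b hcb) (hb y hry)
  subst h1
  have h2 : c = b := h.i c b (hy c (hN c)) (h.s b hcb)
  have h3 : b = r := h.i b r (h.p b hry) (hb r (hN r))
  exact h2.trans h3

lemma er_diag_p (h : J0 N P S) (c : V) : c ∈ er N P c := mem_er.mpr fun b hb => h.p b hb

lemma er_diag_s (h : J0 N P S) (c : V) : c ∈ er N S c := mem_er.mpr fun b hb => h.s b hb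

/-- Hall from one-row competitors -/
lemma hall_of_min {F : V → Finset V} (hN : ∀ x, x ∈ N x) (hw : ∀ x, 0 < w x) (b : V) (U : Finset V)
    (hU : Disjoint U (F b))
    (hmin : ∑ x, w x * wt w (An N (F x) \ F x)
      ≤ ∑ x, w x * wt w (An N (Function.update F b (F b ∪ U) x)
          \ Function.update F b (F b ∪ U) x)) :
    wt w U ≤ wt w (An N U \ An N (F b)) := by
  have hw0 : ∀ x, 0 ≤ w x := fun x => (hw x).le
  rw [← Finset.add_sum_erase _ _ (Finset.mem_univ b),
    ← Finset.add_sum_erase _ (fun x => w x * wt w (An N (Function.update F b (F b ∪ U) x)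
          \ Function.update F b (F b ∪ U) x)) (Finset.mem_univ b)] at hmin
  have e : ∑ x ∈ univ.erase b, w x * wt w (An N (Function.update F b (F b ∪ U) x)
          \ Function.update F b (F b ∪ U) x) = ∑ x ∈ univ.erase b, w x * wt w (An N (F x) \ F x) := by
    apply Finset.sum_congr rfl; intro x hx
    rw [Function.update_of_ne (Finset.mem_erase.mp hx).1]
  rw [e, Function.update_self] at hmin
  have h1 : w b * wt w (An N (F b) \ F b) ≤ w b * wt w (An N (F b ∪ U) \ (F b ∪ U)) := by linarith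
  have h2 := le_of_mul_le_mul_left h1 (hw b)
  rw [wt_sdiff_of_subset (sub_An hN _), wt_sdiff_of_subset (sub_An hN _), An_union, wt_union,
    wt_union_disj hU.symm] at h2
  linarith

/-- **(STAR)** at a minimiser of the energy over `J0`. -/
theorem star (hN : ∀ x, x ∈ N x) (hw : ∀ x, 0 < w x) (h : J0 N P S)
    (hmin : ∀ P' S', J0 N P' S' → En N w P S ≤ En N w P' S') :
    En N w (er N P) (er N S) ≤ En N w P S := by
  classical
  have hw0 : ∀ x, 0 ≤ w x := fun x => (hw x).le
  have hm0 : ∀ p, 0 ≤ mw w p := fun p => mul_nonneg (hw0 _) (hw0 _)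
  set Q := er N P with hQ
  set T := er N S with hT
  let Nt : V → Finset V := fun b => univ.filter fun y => y ∉ P b ∧ b ∉ S y
  let Tt : V → Finset V := fun b => univ.filter fun r => r ∉ An N (P b)
  let It : V → Finset V := fun c => univ.filter fun y => c ∉ An N (S y)
  let Om : V → Finset V := fun c => univ.filter fun r => r ∉ An N (Q c) ∧ c ∉ An N (T r)
  have mNt : ∀ b y, y ∈ Nt b ↔ y ∉ P b ∧ b ∉ S y := fun b y => by simp [Nt]
  have mTt : ∀ b y, y ∈ Tt b ↔ y ∉ An N (P b) := fun b y => by simp [Tt]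
  have mIt : ∀ b y, y ∈ It b ↔ b ∉ An N (S y) := fun b y => by simp [It]
  have mOm : ∀ b y, y ∈ Om b ↔ y ∉ An N (Q b) ∧ b ∉ An N (T y) := fun b y => by simp [Om]
  have hX : ∀ m c y r, c ∈ N m → y ∈ It c → r ∈ N y → r ∈ Tt m → y ∈ Nt m := by
    intro m c y r h1 h2 h3 h4
    rw [mIt] at h2; rw [mTt] at h4; rw [mNt]
    exact ⟨fun h5 => h4 (mem_An.mpr ⟨y, h5, h3⟩), fun h5 => h2 (mem_An.mpr ⟨m, h5, h1⟩)⟩
  have hOm : ∀ m c y r, c ∈ N m → y ∈ It c → r ∈ N y → r ∈ Tt m → r ∈ Om c := by
    intro m c y r h1 h2 h3 h4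
    rw [mIt] at h2; rw [mTt] at h4; rw [mOm]
    constructor
    · intro h5
      obtain ⟨z, hz, hrz⟩ := mem_An.mp h5
      exact h4 (mem_An.mpr ⟨z, mem_er.mp hz m h1, hrz⟩)
    · intro h5
      obtain ⟨z, hz, hcz⟩ := mem_An.mp h5
      exact h2 (mem_An.mpr ⟨z, mem_er.mp hz y h3, hcz⟩)
  have H1 : ∀ b, ∀ U ⊆ Nt b, wt w U ≤ wt w (An N U ∩ Tt b) := by
    intro b U hU
    have hd : Disjoint U (P b) := by
      rw [Finset.disjoint_left]; intro y hy; exact ((mNt b y).mp (hU hy)).1
    have hJ : J0 N (Function.update P b (P b ∪ U)) S := by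
      refine ⟨?_, h.s, ?_⟩
      · intro x
        by_cases hx : x = b
        · subst hx; rw [Function.update_self]
          exact (h.p x).trans Finset.subset_union_left
        · rw [Function.update_of_ne hx]; exact h.p x
      · intro x y hy hxS
        by_cases hx : x = b
        · subst hx; rw [Function.update_self] at hy
          rcases Finset.mem_union.mp hy with hy | hy
          · exact h.i _ _ hy hxS
          · exact absurd hxS ((mNt _ _).mp (hU hy)).2
        · rw [Function.update_of_ne hx] at hy; exact h.i _ _ hy hxS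
    have hm := hmin _ _ hJ
    simp only [En] at hm
    have h3 := hall_of_min (F := P) hN hw b U hd (by linarith)
    have h4 : An N U ∩ Tt b = An N U \ An N (P b) := by
      ext y; simp only [Finset.mem_inter, Finset.mem_sdiff, mTt]
    rw [h4]; exact h3
  have H2 : ∀ y, ∀ U ⊆ (univ.filter fun b => y ∈ Nt b),
      wt w U ≤ wt w ((An N U).filter fun c => y ∈ It c) := by
    intro y U hU
    have hU' : ∀ b ∈ U, y ∈ Nt b := fun b hb => (Finset.mem_filter.mp (hU hb)).2
    have hd : Disjoint U (S y) := by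
      rw [Finset.disjoint_left]; intro b hb; exact ((mNt b y).mp (hU' b hb)).2
    have hJ : J0 N P (Function.update S y (S y ∪ U)) := by
      refine ⟨h.p, ?_, ?_⟩
      · intro x
        by_cases hx : x = y
        · subst hx; rw [Function.update_self]
          exact (h.s x).trans Finset.subset_union_left
        · rw [Function.update_of_ne hx]; exact h.s x
      · intro b x hxP hbS
        by_cases hx : x = y
        · subst hx; rw [Function.update_self] at hbS
          rcases Finset.mem_union.mp hbS with hb | hb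
          · exact h.i _ _ hxP hb
          · exact absurd hxP ((mNt _ _).mp (hU' b hb)).1
        · rw [Function.update_of_ne hx] at hbS; exact h.i _ _ hxP hbS
    have hm := hmin _ _ hJ
    simp only [En] at hm
    have h3 := hall_of_min (F := S) hN hw y U hd (by linarith)
    have h4 : ((An N U).filter fun c => y ∈ It c) = An N U \ An N (S y) := by
      ext c; simp only [Finset.mem_filter, Finset.mem_sdiff, mIt]
    rw [h4]; exact h3
  have R := rgen N w hw0 Nt Tt It Om hX hOm H1 H2
  rw [← mu_rows w (fun b => An N (Nt b) ∩ Tt b),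
    ← mu_rows w (fun c => (It c).filter fun y => ∃ b, c ∈ N b ∧ y ∈ Nt b),
    ← mu_rows w Nt, ← mu_rows w Om] at R
  -- energies
  have eE : ∀ F G : V → Finset V, En N w F G =
      (wt (mw w) (univ.filter fun p : V × V => p.2 ∈ An N (F p.1))
        - wt (mw w) (univ.filter fun p : V × V => p.2 ∈ F p.1))
      + (wt (mw w) (univ.filter fun p : V × V => p.1 ∈ An N (G p.2))
        - wt (mw w) (univ.filter fun p : V × V => p.1 ∈ G p.2)) := by
    intro F G
    rw [mu_rows w (fun b => An N (F b)), mu_rows w F, mu_cols w (fun b => An N (G b)),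
      mu_cols w G, En, ← Finset.sum_sub_distrib, ← Finset.sum_sub_distrib]
    congr 1
    · apply Finset.sum_congr rfl; intro b _
      rw [wt_sdiff_of_subset (sub_An hN _)]; ring
    · apply Finset.sum_congr rfl; intro b _
      rw [wt_sdiff_of_subset (sub_An hN _)]; ring
  rw [eE Q T, eE P S]
  set β := univ.filter fun p : V × V => p.2 ∈ An N (Nt p.1) ∩ Tt p.1 with hβ
  set γ := univ.filter fun p : V × V =>
    p.2 ∈ (It p.1).filter fun y => ∃ b, p.1 ∈ N b ∧ y ∈ Nt b with hγ
  set cN := univ.filter fun p : V × V => p.2 ∈ Nt p.1 with hcN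
  set cO := univ.filter fun p : V × V => p.2 ∈ Om p.1 with hcO
  set cHQ := univ.filter fun p : V × V => p.2 ∈ An N (Q p.1) with hcHQ
  set cQ := univ.filter fun p : V × V => p.2 ∈ Q p.1 with hcQ
  set cVT := univ.filter fun p : V × V => p.1 ∈ An N (T p.2) with hcVT
  set cT := univ.filter fun p : V × V => p.1 ∈ T p.2 with hcT
  set cHP := univ.filter fun p : V × V => p.2 ∈ An N (P p.1) with hcHP
  set cP := univ.filter fun p : V × V => p.2 ∈ P p.1 with hcP
  set cVS := univ.filter fun p : V × V => p.1 ∈ An N (S p.2) with hcVS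
  set cS := univ.filter fun p : V × V => p.1 ∈ S p.2 with hcS
  set dg := univ.filter fun p : V × V => p.1 = p.2 with hdg
  have cap : ∀ C D : Finset (V × V),
      wt (mw w) C + wt (mw w) D = wt (mw w) (C ∪ D) + wt (mw w) (C ∩ D) := by
    intro C D
    have h1 := wt_union (w := mw w) C D
    have h2 := wt_sdiff_add (w := mw w) D C
    rw [Finset.inter_comm] at h2
    linarith
  -- (1)
  have k1 : wt (mw w) cHQ + wt (mw w) cVT + wt (mw w) cO ≤ wt (mw w) univ + wt (mw w) dg := by
    rw [cap]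
    have h1 : wt (mw w) (cHQ ∩ cVT) ≤ wt (mw w) dg := by
      apply wt_mono hm0
      rintro ⟨c, r⟩ hp
      simp only [hcHQ, hcVT, hdg, Finset.mem_inter, Finset.mem_filter, Finset.mem_univ,
        true_and] at hp ⊢
      exact er_indep hN h hp.1 hp.2
    have h2 : wt (mw w) (cHQ ∪ cVT) + wt (mw w) cO ≤ wt (mw w) univ := by
      rw [← wt_union_disj]
      · exact wt_mono hm0 (Finset.subset_univ _)
      · rw [Finset.disjoint_left]
        rintro ⟨c, r⟩ hp hp'
        simp only [hcHQ, hcVT, hcO, Finset.mem_union, Finset.mem_filter, Finset.mem_univ,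
          true_and, mOm] at hp hp'
        exact hp.elim hp'.1 hp'.2
    linarith
  -- (2)
  have k2 : wt (mw w) cP + wt (mw w) cS + wt (mw w) cN ≤ wt (mw w) univ + wt (mw w) dg := by
    rw [cap]
    have h1 : wt (mw w) (cP ∩ cS) ≤ wt (mw w) dg := by
      apply wt_mono hm0
      rintro ⟨c, r⟩ hp
      simp only [hcP, hcS, hdg, Finset.mem_inter, Finset.mem_filter, Finset.mem_univ,
        true_and] at hp ⊢
      exact h.i _ _ hp.1 hp.2
    have h2 : wt (mw w) (cP ∪ cS) + wt (mw w) cN ≤ wt (mw w) univ := by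
      rw [← wt_union_disj]
      · exact wt_mono hm0 (Finset.subset_univ _)
      · rw [Finset.disjoint_left]
        rintro ⟨c, r⟩ hp hp'
        simp only [hcP, hcS, hcN, Finset.mem_union, Finset.mem_filter, Finset.mem_univ,
          true_and, mNt] at hp hp'
        exact hp.elim hp'.1 hp'.2
    linarith
  -- (3)
  have k3 : wt (mw w) univ + wt (mw w) dg ≤ wt (mw w) cQ + wt (mw w) cVS + wt (mw w) γ := by
    rw [cap cQ cVS]
    have h1 : wt (mw w) dg ≤ wt (mw w) (cQ ∩ cVS) := by
      apply wt_mono hm0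
      rintro ⟨c, r⟩ hp
      simp only [hcQ, hcVS, hdg, Finset.mem_inter, Finset.mem_filter, Finset.mem_univ,
        true_and] at hp ⊢
      subst hp
      exact ⟨er_diag_p h c, mem_An.mpr ⟨c, h.s c (hN c), hN c⟩⟩
    have h2 : wt (mw w) univ ≤ wt (mw w) (cQ ∪ cVS) + wt (mw w) γ := by
      have h3 : (univ : Finset (V × V)) ⊆ (cQ ∪ cVS) ∪ γ := by
        rintro ⟨c, y⟩ -
        simp only [hcQ, hcVS, hγ, Finset.mem_union, Finset.mem_filter, Finset.mem_univ, true_and,
          mIt, mNt]
        by_contra hc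
        push Not at hc
        obtain ⟨⟨h4, h5⟩, h6⟩ := hc
        rw [hQ, mem_er] at h4
        push Not at h4
        obtain ⟨b, hb, hyb⟩ := h4
        exact h5 (mem_An.mpr ⟨b, h6 h5 b hb hyb, hb⟩)
      have h7 := wt_mono hm0 h3
      have h8 := cap (cQ ∪ cVS) γ
      have h9 := wt_nonneg hm0 ((cQ ∪ cVS) ∩ γ)
      linarith
    linarith
  -- (4)
  have k4 : wt (mw w) univ + wt (mw w) dg ≤ wt (mw w) cT + wt (mw w) cHP + wt (mw w) β := by
    rw [cap cT cHP]
    have h1 : wt (mw w) dg ≤ wt (mw w) (cT ∩ cHP) := by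
      apply wt_mono hm0
      rintro ⟨c, r⟩ hp
      simp only [hcT, hcHP, hdg, Finset.mem_inter, Finset.mem_filter, Finset.mem_univ,
        true_and] at hp ⊢
      subst hp
      exact ⟨er_diag_s h c, mem_An.mpr ⟨c, h.p c (hN c), hN c⟩⟩
    have h2 : wt (mw w) univ ≤ wt (mw w) (cT ∪ cHP) + wt (mw w) β := by
      have h3 : (univ : Finset (V × V)) ⊆ (cT ∪ cHP) ∪ β := by
        rintro ⟨b, r⟩ -
        simp only [hcT, hcHP, hβ, Finset.mem_union, Finset.mem_filter, Finset.mem_univ, true_and,
          Finset.mem_inter, mTt]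
        by_contra hc
        push Not at hc
        obtain ⟨⟨h4, h5⟩, h6⟩ := hc
        rw [hT, mem_er] at h4
        push Not at h4
        obtain ⟨y, hy, hyb⟩ := h4
        refine h5 (h6 (mem_An.mpr ⟨y, (mNt b y).mpr ⟨fun hyP => h5 ?_, hyb⟩, hy⟩))
        exact mem_An.mpr ⟨y, hyP, hy⟩
      have h7 := wt_mono hm0 h3
      have h8 := cap (cT ∪ cHP) β
      have h9 := wt_nonneg hm0 ((cT ∪ cHP) ∩ β)
      linarith
    linarith
  linarith

end board

section final

variable {V : Type} [Fintype V] [DecidableEq V] {A : V → Finset V} {w : V → ℝ}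

/-- closed out-neighbourhood -/
def Nc (A : V → Finset V) : V → Finset V := fun x => insert x (A x)

lemma An_Nc (X : Finset V) : An (Nc A) X = X ∪ An A X := by
  ext y
  simp only [mem_An, Nc, Finset.mem_insert, Finset.mem_union]
  constructor
  · rintro ⟨x, hx, rfl | hy⟩
    · exact Or.inl hx
    · exact Or.inr ⟨x, hx, hy⟩
  · rintro (hy | ⟨x, hx, hy⟩)
    · exact ⟨y, hy, Or.inl rfl⟩
    · exact ⟨x, hx, Or.inr hy⟩

theorem false_of_world (H : World A) : False := by
  classical
  obtain ⟨w, hw⟩ := H.exists_good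
  have hne := H.ne
  have hpos : ∀ x, 0 < w x := H.pos hw
  have hN : ∀ x, x ∈ Nc A x := fun x => Finset.mem_insert_self _ _
  -- `J0` is nonempty
  have hJ0 : J0 (Nc A) (Nc A) (Nc A) := by
    refine ⟨fun _ => le_refl _, fun _ => le_refl _, ?_⟩
    intro b y h1 h2
    rcases Finset.mem_insert.mp h1 with h1 | h1
    · exact h1.symm
    rcases Finset.mem_insert.mp h2 with h2 | h2
    · exact h2
    exact absurd h2 (H.ori _ _ h1)
  have : Nonempty {p : (V → Finset V) × (V → Finset V) // J0 (Nc A) p.1 p.2} :=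
    ⟨⟨(Nc A, Nc A), hJ0⟩⟩
  obtain ⟨⟨⟨P, S⟩, hPS⟩, hmin⟩ := Finite.exists_min
    (fun p : {p : (V → Finset V) × (V → Finset V) // J0 (Nc A) p.1 p.2} =>
      En (Nc A) w p.1.1 p.1.2)
  simp only at hPS
  have hmin' : ∀ P' S', J0 (Nc A) P' S' → En (Nc A) w P S ≤ En (Nc A) w P' S' :=
    fun P' S' h => hmin ⟨(P', S'), h⟩
  have hstar := star hN hpos hPS hmin'
  set Q := er (Nc A) P with hQ
  set T := er (Nc A) S with hT
  have hind : ∀ c r, r ∈ An (Nc A) (Q c) → c ∈ An (Nc A) (T r) → c = r :=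
    fun c r h1 h2 => er_indep hN hPS h1 h2
  have hQd : ∀ c, c ∈ Q c := er_diag_p hPS
  have hTd : ∀ c, c ∈ T c := er_diag_s hPS
  have hJ1 : J0 (Nc A) (fun b => An (Nc A) (Q b)) (fun y => An (Nc A) (T y)) := by
    refine ⟨?_, ?_, hind⟩
    · intro b y hy; exact mem_An.mpr ⟨b, hQd b, hy⟩
    · intro b y hy; exact mem_An.mpr ⟨b, hTd b, hy⟩
  have hQu : ∀ b, Q b ≠ Finset.univ := by
    intro b hb
    obtain ⟨u, hu⟩ := H.nonempty_in b
    have h1 : b = u := hind b u (by rw [hb]; exact sub_An hN _ (Finset.mem_univ _))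
      (mem_An.mpr ⟨u, hTd u, Finset.mem_insert_of_mem hu⟩)
    subst h1
    exact H.ori.irrefl _ hu
  have hTu : ∀ b, T b ≠ Finset.univ := by
    intro y hy
    obtain ⟨u, hu⟩ := H.nonempty_in y
    have h1 : u = y := hind u y (mem_An.mpr ⟨u, hQd u, Finset.mem_insert_of_mem hu⟩)
      (by rw [hy]; exact sub_An hN _ (Finset.mem_univ _))
    subst h1
    exact H.ori.irrefl _ hu
  have hcg : ∀ X : Finset V, X.Nonempty → X ≠ Finset.univ →
      wt w (An (Nc A) (An (Nc A) X) \ An (Nc A) X) < wt w (An (Nc A) X \ X) := by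
    intro X h1 h2
    have h3 := H.cg hw X (H.not_sub h1 h2)
    have e1 : An (Nc A) X \ X = An A X \ X := by
      rw [An_Nc]; ext z; simp only [Finset.mem_sdiff, Finset.mem_union]; tauto
    have e2 : An (Nc A) (An (Nc A) X) \ An (Nc A) X
        = An A (X ∪ An A X) \ (X ∪ An A X) := by
      rw [An_Nc (A := A) (An (Nc A) X), An_Nc]
      ext z; simp only [Finset.mem_sdiff, Finset.mem_union]; tauto
    rw [e1, e2]; exact h3
  have hlt : En (Nc A) w (fun b => An (Nc A) (Q b)) (fun y => An (Nc A) (T y))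
      < En (Nc A) w Q T := by
    unfold En
    apply add_lt_add
    · exact Finset.sum_lt_sum_of_nonempty Finset.univ_nonempty fun b _ =>
        mul_lt_mul_of_pos_left (hcg _ ⟨b, hQd b⟩ (hQu b)) (hpos b)
    · exact Finset.sum_lt_sum_of_nonempty Finset.univ_nonempty fun b _ =>
        mul_lt_mul_of_pos_left (hcg _ ⟨b, hTd b⟩ (hTu b)) (hpos b)
  have h5 := hmin' _ _ hJ1
  linarith

/-- **Seymour's second neighbourhood conjecture** (literal form of S0079). -/
theorem snc (V : Type*) [Fintype V] [Nonempty V] (G : Digraph V)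
    (hloop : ∀ v, ¬ G.Adj v v) (hopp : ∀ u v, G.Adj u v → ¬ G.Adj v u) :
    ∃ v : V, Set.ncard {u | G.Adj v u} ≤
      Set.ncard {w | w ≠ v ∧ ¬ G.Adj v w ∧ ∃ u, G.Adj v u ∧ G.Adj u w} :=
  S0079_of (fun _ _ hA => false_of_world hA) V G hloop hopp

end final

end Crest.Agent.R057.Board208
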