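import Mathlib

/-!
# R057 (S0079): the deletion inequality (GCG) of helper203, in the form of helper765

`A x` = out-neighbourhood of `x`; `An A S` = out-neighbourhood of a set; `Re A x` = vertices reached
from `x` in one or two steps; `row A w x = w(N⁺(x)) - w(N⁺⁺(x))`.
-/

set_option autoImplicit false
set_option linter.unusedSectionVars false

namespace Crest.Agent.R057.Cg765

open Finset

section basics

variable {V : Type*} [DecidableEq V]

/-- weight of a set -/
def wt (w : V → ℝ) (S : Finset V) : ℝ := ∑ x ∈ S, w x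

/-- out-neighbourhood of a set -/
def An (A : V → Finset V) (S : Finset V) : Finset V := S.biUnion A

/-- oriented graph: no loops, no digons -/
def Ori (A : V → Finset V) : Prop := ∀ x y, y ∈ A x → x ∉ A y

/-- vertices reached from `x` in one or two steps -/
def Re (A : V → Finset V) (x : V) : Finset V := A x ∪ An A (A x)

/-- first minus second out-neighbourhood -/
def row (A : V → Finset V) (w : V → ℝ) (x : V) : ℝ := 2 * wt w (A x) - wt w (Re A x)

variable {A : V → Finset V} {w : V → ℝ}

lemma mem_An {S : Finset V} {y : V} : y ∈ An A S ↔ ∃ x ∈ S, y ∈ A x := by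
  simp [An]

lemma An_mono {S T : Finset V} (h : S ⊆ T) : An A S ⊆ An A T :=
  Finset.biUnion_subset_biUnion_of_subset_left A h

lemma An_union (S T : Finset V) : An A (S ∪ T) = An A S ∪ An A T := by
  ext y; simp only [mem_An, mem_union]; constructor
  · rintro ⟨x, hx | hx, hy⟩
    · exact Or.inl ⟨x, hx, hy⟩
    · exact Or.inr ⟨x, hx, hy⟩
  · rintro (⟨x, hx, hy⟩ | ⟨x, hx, hy⟩)
    · exact ⟨x, Or.inl hx, hy⟩
    · exact ⟨x, Or.inr hx, hy⟩

@[simp] lemma An_empty : An A ∅ = ∅ := by simp [An]

lemma An_singleton (x : V) : An A {x} = A x := by simp [An]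

lemma Ori.irrefl (h : Ori A) (x : V) : x ∉ A x := fun hx => h x x hx hx

lemma Ori.not_mem_two (h : Ori A) (x : V) : x ∉ An A (A x) := by
  rw [mem_An]; rintro ⟨y, hy, hx⟩; exact h x y hy hx

lemma Ori.sub (h : Ori A) {A0 : V → Finset V} (h0 : ∀ x, A0 x ⊆ A x) : Ori A0 :=
  fun x y hy hx => h x y (h0 x hy) (h0 y hx)

lemma wt_nonneg (hw : ∀ x, 0 ≤ w x) (S : Finset V) : 0 ≤ wt w S :=
  Finset.sum_nonneg fun x _ => hw x

lemma wt_mono (hw : ∀ x, 0 ≤ w x) {S T : Finset V} (h : S ⊆ T) : wt w S ≤ wt w T :=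
  Finset.sum_le_sum_of_subset_of_nonneg h fun x _ _ => hw x

lemma wt_union_disj {S T : Finset V} (h : Disjoint S T) : wt w (S ∪ T) = wt w S + wt w T :=
  Finset.sum_union h

lemma wt_sdiff_add (S T : Finset V) : wt w (S \ T) + wt w (S ∩ T) = wt w S := by
  have h : Disjoint (S \ T) (S ∩ T) := by
    rw [Finset.disjoint_left]; intro y hy hy'
    exact (Finset.mem_sdiff.mp hy).2 (Finset.mem_inter.mp hy').2
  rw [← wt_union_disj h, Finset.sdiff_union_inter]

lemma wt_union (S T : Finset V) : wt w (S ∪ T) = wt w S + wt w (T \ S) := by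
  have h : S ∪ T = S ∪ T \ S := by simp
  rw [h, wt_union_disj Finset.disjoint_sdiff]

lemma wt_sdiff_of_subset {S T : Finset V} (h : T ⊆ S) : wt w (S \ T) = wt w S - wt w T := by
  have h1 := wt_sdiff_add (w := w) S T
  rw [Finset.inter_eq_right.mpr h] at h1; linarith

@[simp] lemma wt_empty : wt w ∅ = 0 := by simp [wt]

lemma wt_singleton (x : V) : wt w {x} = w x := by simp [wt]

lemma row_eq (x : V) : row A w x = wt w (A x) - wt w (An A (A x) \ A x) := by
  rw [row, Re, wt_union]; ring

/-- the property `(Opt)` in its usable form -/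
def OptT (A : V → Finset V) (w : V → ℝ) : Prop :=
  ∀ T U : Finset V, ¬ An A T ⊆ U → ∃ x ∈ T, ¬ A x ⊆ U ∧
    row A w x ≤ 2 * wt w (A x \ U) - wt w (Re A x \ (U ∪ An A (U \ T)))

/-- **GCG** (helper203).  For all `T, U`, with `O = U ∪ A(T)`. -/
theorem gcg (hw : ∀ x, 0 ≤ w x) (h : OptT A w) (T U : Finset V) :
    ∃ S ⊆ T, (¬ An A T ⊆ U → S.Nonempty) ∧
      ∑ x ∈ S, row A w x + wt w ((U ∪ An A T) ∪ An A (U ∪ An A T))
        - wt w (U ∪ An A (U \ T)) ≤ 2 * wt w ((U ∪ An A T) \ U) := by
  classical
  induction hn : T.card generalizing T U with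
  | zero =>
    have hT : T = ∅ := Finset.card_eq_zero.mp hn
    subst hT
    exact ⟨∅, le_refl _, by simp, by simp⟩
  | succ n ih =>
    by_cases hTU : An A T ⊆ U
    · refine ⟨∅, Finset.empty_subset _, fun h' => absurd hTU h', ?_⟩
      have hO : U ∪ An A T = U := Finset.union_eq_left.mpr hTU
      rw [hO]
      have hsub : U ∪ An A U ⊆ U ∪ An A (U \ T) := by
        apply Finset.union_subset Finset.subset_union_left
        intro y hy
        obtain ⟨x, hx, hyx⟩ := mem_An.mp hy
        by_cases hxT : x ∈ T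
        · exact Finset.mem_union_left _ (hTU (mem_An.mpr ⟨x, hxT, hyx⟩))
        · exact Finset.mem_union_right _ (mem_An.mpr ⟨x, Finset.mem_sdiff.mpr ⟨hx, hxT⟩, hyx⟩)
      have := wt_mono hw hsub
      simp only [Finset.sum_empty, Finset.sdiff_self, wt_empty]
      linarith
    · obtain ⟨x, hxT, hxU, hrow⟩ := h T U hTU
      have hcard : (T.erase x).card = n := by
        rw [Finset.card_erase_of_mem hxT, hn]; rfl
      obtain ⟨S, hST, -, hS⟩ := ih (T.erase x) (U ∪ A x) hcard
      have hxS : x ∉ S := fun hx => Finset.notMem_erase x T (hST hx)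
      refine ⟨insert x S, ?_, fun _ => ⟨x, Finset.mem_insert_self _ _⟩, ?_⟩
      · intro y hy
        rcases Finset.mem_insert.mp hy with rfl | hy
        · exact hxT
        · exact Finset.mem_of_mem_erase (hST hy)
      · have hO : (U ∪ A x) ∪ An A (T.erase x) = U ∪ An A T := by
          ext y
          simp only [Finset.mem_union, mem_An, Finset.mem_erase]
          constructor
          · rintro ((h1 | h1) | ⟨z, ⟨_, hz⟩, hy⟩)
            · exact Or.inl h1
            · exact Or.inr ⟨x, hxT, h1⟩
            · exact Or.inr ⟨z, hz, hy⟩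
          · rintro (h1 | ⟨z, hz, hy⟩)
            · exact Or.inl (Or.inl h1)
            · by_cases hzx : z = x
              · subst hzx; exact Or.inl (Or.inr hy)
              · exact Or.inr ⟨z, ⟨hzx, hz⟩, hy⟩
        rw [hO] at hS
        rw [Finset.sum_insert hxS]
        -- W' ⊆ W ∪ Re x
        have hW : (U ∪ A x) ∪ An A ((U ∪ A x) \ T.erase x)
            ⊆ (U ∪ An A (U \ T)) ∪ Re A x := by
          intro y hy
          simp only [Finset.mem_union, mem_An, Finset.mem_sdiff, Finset.mem_erase, Re] at hy ⊢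
          rcases hy with (h1 | h1) | ⟨z, ⟨hz, hzT⟩, hyz⟩
          · exact Or.inl (Or.inl h1)
          · exact Or.inr (Or.inl h1)
          · by_cases hzx : z = x
            · subst hzx; exact Or.inr (Or.inl hyz)
            · have hzT' : z ∉ T := fun h' => hzT ⟨hzx, h'⟩
              rcases hz with hz | hz
              · exact Or.inl (Or.inr ⟨z, ⟨hz, hzT'⟩, hyz⟩)
              · exact Or.inr (Or.inr ⟨z, hz, hyz⟩)
        have hWw := wt_mono hw hW
        rw [wt_union (U ∪ An A (U \ T)) (Re A x)] at hWw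
        -- O \ U
        have hOU : wt w ((U ∪ An A T) \ U) = wt w ((U ∪ An A T) \ (U ∪ A x)) + wt w (A x \ U) := by
          have h1 : (U ∪ An A T) \ U = ((U ∪ An A T) \ (U ∪ A x)) ∪ (A x \ U) := by
            ext y
            simp only [Finset.mem_union, mem_An, Finset.mem_sdiff]
            constructor
            · rintro ⟨h2, h3⟩
              by_cases h4 : y ∈ A x
              · exact Or.inr ⟨h4, h3⟩
              · exact Or.inl ⟨h2, fun h5 => h5.elim h3 h4⟩
            · rintro (⟨h2, h3⟩ | ⟨h2, h3⟩)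
              · exact ⟨h2, fun h4 => h3 (Or.inl h4)⟩
              · exact ⟨Or.inr ⟨x, hxT, h2⟩, h3⟩
          rw [h1, wt_union_disj]
          rw [Finset.disjoint_left]
          intro y hy hy'
          simp only [Finset.mem_sdiff, Finset.mem_union] at hy hy'
          exact hy.2 (Or.inr hy'.1)
        rw [hOU]
        linarith

end basics

end Crest.Agent.R057.Cg765
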