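import Crest.Agent.R057.Cg1_765

/-!
# R057 (S0079): minimal world, transport to `Fin n`, reduction of the literal statement
-/

set_option autoImplicit false
set_option linter.unusedSectionVars false

namespace Crest.Agent.R057.Cg765

open Finset

section transport

variable {V W : Type*} [DecidableEq V] [DecidableEq W]

/-- transport of a digraph along an equivalence -/
def tr (e : V ≃ W) (A : V → Finset V) : W → Finset W := fun y => (A (e.symm y)).map e.toEmbedding

lemma mem_tr {e : V ≃ W} {A : V → Finset V} {x y : V} : e y ∈ tr e A (e x) ↔ y ∈ A x := by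
  simp [tr]

lemma tr_apply (e : V ≃ W) (A : V → Finset V) (x : V) : tr e A (e x) = (A x).map e.toEmbedding := by
  simp [tr]

lemma Ori.tr {e : V ≃ W} {A : V → Finset V} (h : Ori A) : Ori (tr e A) := by
  intro x y hy
  obtain ⟨x, rfl⟩ := e.surjective x
  obtain ⟨y, rfl⟩ := e.surjective y
  rw [mem_tr] at hy ⊢
  exact h x y hy

lemma An_tr (e : V ≃ W) (A : V → Finset V) (S : Finset V) :
    An (tr e A) (S.map e.toEmbedding) = (An A S).map e.toEmbedding := by
  ext y
  obtain ⟨y, rfl⟩ := e.surjective y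
  simp only [mem_An, Finset.mem_map, Equiv.coe_toEmbedding]
  constructor
  · rintro ⟨_, ⟨x, hx, rfl⟩, hy⟩
    exact ⟨y, ⟨x, hx, mem_tr.mp hy⟩, rfl⟩
  · rintro ⟨y', ⟨x, hx, hy⟩, h⟩
    obtain rfl := e.injective h
    exact ⟨e x, ⟨x, hx, rfl⟩, mem_tr.mpr hy⟩

lemma wt_map (e : V ≃ W) (w : V → ℝ) (S : Finset V) :
    wt (w ∘ e.symm) (S.map e.toEmbedding) = wt w S := by
  simp [wt]

lemma row_tr (e : V ≃ W) (A : V → Finset V) (w : V → ℝ) (x : V) :
    row (tr e A) (w ∘ e.symm) (e x) = row A w x := by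
  rw [row, row, Re, Re, tr_apply, An_tr, ← Finset.map_union, wt_map, wt_map]

end transport

/-- there is a weighted counterexample on `Fin n` with `m` arcs -/
def HasCE (n m : ℕ) : Prop :=
  ∃ A : Fin n → Finset (Fin n), Ori A ∧ ∑ x, (A x).card = m ∧ 0 < n ∧
    ∃ w : Fin n → ℝ, (∀ x, 0 ≤ w x) ∧ ∀ x, 0 < row A w x

/-- a minimal counterexample: fewest vertices, then fewest arcs -/
structure World {V : Type} [Fintype V] [DecidableEq V] (A : V → Finset V) : Prop where
  ne : Nonempty V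
  ori : Ori A
  exw : ∃ w : V → ℝ, (∀ x, 0 ≤ w x) ∧ ∀ x, 0 < row A w x
  vmin : ∀ (W : Type) [Fintype W] [DecidableEq W] (A' : W → Finset W), Nonempty W → Ori A' →
    Fintype.card W < Fintype.card V → ∀ w : W → ℝ, (∀ x, 0 ≤ w x) → ∃ x, row A' w x ≤ 0
  amin : ∀ A0 : V → Finset V, (∀ x, A0 x ⊆ A x) → A0 ≠ A → ∀ w : V → ℝ, (∀ x, 0 ≤ w x) →
    ∃ x, row A0 w x ≤ 0

lemma hasCE_of {V : Type*} [Fintype V] [DecidableEq V] [Nonempty V] (A : V → Finset V)
    (hA : Ori A) (w : V → ℝ) (hw : ∀ x, 0 ≤ w x) (hr : ∀ x, 0 < row A w x) :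
    ∃ m, HasCE (Fintype.card V) m := by
  classical
  let e : V ≃ Fin (Fintype.card V) := Fintype.equivFin V
  refine ⟨_, tr e A, hA.tr, rfl, Fintype.card_pos, w ∘ e.symm, fun x => hw _, fun x => ?_⟩
  obtain ⟨x, rfl⟩ := e.surjective x
  rw [row_tr]; exact hr x

theorem exists_world (h : ∃ n m, HasCE n m) :
    ∃ (n : ℕ) (A : Fin n → Finset (Fin n)), World A := by
  classical
  let n := Nat.find h
  have hn : ∃ m, HasCE n m := Nat.find_spec h
  have hnmin : ∀ k, k < n → ∀ m, ¬ HasCE k m := fun k hk m hm => Nat.find_min h hk ⟨m, hm⟩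
  let m := Nat.find hn
  have hm : HasCE n m := Nat.find_spec hn
  have hmmin : ∀ k, k < m → ¬ HasCE n k := fun k hk => Nat.find_min hn hk
  obtain ⟨A, hA, hcard, hpos, w, hw, hr⟩ := hm
  refine ⟨n, A, ⟨⟨0, hpos⟩⟩, hA, ⟨w, hw, hr⟩, ?_, ?_⟩
  · intro W _ _ A' hW hA' hlt w' hw'
    by_contra hcon
    push Not at hcon
    haveI := hW
    obtain ⟨m', hm'⟩ := hasCE_of A' hA' w' hw' hcon
    rw [Fintype.card_fin] at hlt
    exact hnmin _ hlt m' hm'
  · intro A0 h0 hne w' hw'
    by_contra hcon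
    push Not at hcon
    have hlt : ∑ x, (A0 x).card < m := by
      rw [← hcard]
      have : ∃ x, A0 x ≠ A x := by
        by_contra hc; push Not at hc; exact hne (funext hc)
      obtain ⟨x, hx⟩ := this
      refine Finset.sum_lt_sum (fun y _ => Finset.card_le_card (h0 y)) ⟨x, Finset.mem_univ x, ?_⟩
      exact Finset.card_lt_card ((h0 x).ssubset_of_ne hx)
    exact hmmin _ hlt ⟨A0, hA.sub h0, rfl, hpos, w', hw', hcon⟩

/-- **Reduction of the literal statement S0079.** -/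
theorem S0079_of (H : ∀ (n : ℕ) (A : Fin n → Finset (Fin n)), World A → False)
    (V : Type*) [Fintype V] [Nonempty V] (G : Digraph V)
    (hloop : ∀ v, ¬ G.Adj v v) (hopp : ∀ u v, G.Adj u v → ¬ G.Adj v u) :
    ∃ v : V, Set.ncard {u | G.Adj v u} ≤
      Set.ncard {w | w ≠ v ∧ ¬ G.Adj v w ∧ ∃ u, G.Adj v u ∧ G.Adj u w} := by
  classical
  by_contra hcon
  push Not at hcon
  let A : V → Finset V := fun x => Finset.univ.filter fun y => G.Adj x y
  have hmem : ∀ x y, y ∈ A x ↔ G.Adj x y := fun x y => by simp [A]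
  have hA : Ori A := by
    intro x y hy hx
    rw [hmem] at hy hx
    exact hopp x y hy hx
  have hr : ∀ x, 0 < row A (fun _ => (1 : ℝ)) x := by
    intro x
    have h1 : {u | G.Adj x u} = ((A x : Finset V) : Set V) := by
      ext y; simp [A]
    have h2 : {w | w ≠ x ∧ ¬ G.Adj x w ∧ ∃ u, G.Adj x u ∧ G.Adj u w}
        = ((An A (A x) \ A x : Finset V) : Set V) := by
      ext y
      simp only [Set.mem_setOf_eq, Finset.coe_sdiff, Set.mem_diff, Finset.mem_coe, mem_An, hmem]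
      constructor
      · rintro ⟨_, h3, h4⟩; exact ⟨h4, h3⟩
      · rintro ⟨⟨u, h4, h5⟩, h3⟩
        refine ⟨?_, h3, u, h4, h5⟩
        rintro rfl
        exact hopp _ _ h4 h5
    have h3 := hcon x
    rw [h1, h2, Set.ncard_coe_finset, Set.ncard_coe_finset] at h3
    rw [row_eq]
    have h4 : ∀ S : Finset V, wt (fun _ => (1 : ℝ)) S = S.card := by
      intro S; simp [wt]
    rw [h4, h4]
    have : ((An A (A x) \ A x).card : ℝ) < (A x).card := by exact_mod_cast h3
    linarith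
  obtain ⟨m, hm⟩ := hasCE_of A hA (fun _ => (1 : ℝ)) (fun _ => zero_le_one) hr
  obtain ⟨n, A', hA'⟩ := exists_world ⟨_, m, hm⟩
  exact H n A' hA'

end Crest.Agent.R057.Cg765
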