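import Crest.Agent.R057.Cg3_765

/-!
# R057 (S0079): facts which only use vertex-minimality (for every digraph on the same vertex set):
positivity, nonsingularity of `L`, `L z ≥ 0 → z ≥ 0`, the exchange lemma (helper213), and
`no far pair → False`.
-/

set_option autoImplicit false
set_option linter.unusedSectionVars false

namespace Crest.Agent.R057.Cg765

open Finset

variable {V : Type} [Fintype V] [DecidableEq V] {A : V → Finset V} {w : V → ℝ}

/-- SNC (weighted) holds below `card V`. -/
def NMin (V : Type) [Fintype V] : Prop :=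
  ∀ (W : Type) [Fintype W] [DecidableEq W] (A' : W → Finset W), Nonempty W → Ori A' →
    Fintype.card W < Fintype.card V → ∀ w : W → ℝ, (∀ x, 0 ≤ w x) → ∃ x, row A' w x ≤ 0

lemma World.nmin (H : World A) : NMin V := H.vmin

lemma NMin.ind (H : NMin V) (hA : Ori A) (Z : Finset V) (hZ : Z.Nonempty)
    (hZ' : Z ≠ Finset.univ) (u : V → ℝ) (hu : ∀ x, 0 ≤ u x) :
    ∃ x ∈ Z, 2 * wt u (A x ∩ Z) ≤ wt u ((A x ∩ Z) ∪ (An A (A x ∩ Z) ∩ Z)) := by
  obtain ⟨z, hz⟩ := hZ
  have hc : Fintype.card {x // x ∈ Z} < Fintype.card V := by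
    rw [Fintype.card_coe, ← Finset.card_univ]
    exact Finset.card_lt_card (Finset.ssubset_univ_iff.mpr hZ')
  obtain ⟨x, hx⟩ := H {x // x ∈ Z} (res A Z) ⟨⟨z, hz⟩⟩ (hA.res Z) hc (fun x => u x.1)
    (fun x => hu x.1)
  rw [row_res] at hx
  exact ⟨x.1, x.2, by linarith⟩

lemma Good.A_ne (hw : Good A w) (x : V) : (A x).Nonempty := by
  by_contra h
  rw [Finset.not_nonempty_iff_eq_empty] at h
  have := hw.row_pos x
  rw [row, Re, h] at this
  simp at this

lemma NMin.pos (H : NMin V) (hA : Ori A) (hw : Good A w) (v : V) : 0 < w v := by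
  rcases (hw.nonneg v).lt_or_eq with h | h
  · exact h
  exfalso
  obtain ⟨y, hy⟩ := hw.A_ne v
  have hyv : y ≠ v := fun h' => hA.irrefl v (h' ▸ hy)
  obtain ⟨x, hx, hle⟩ := H.ind hA (Finset.univ.erase v)
    ⟨y, Finset.mem_erase.mpr ⟨hyv, Finset.mem_univ _⟩⟩
    (fun h' => by
      have := Finset.mem_univ v; rw [← h'] at this; exact Finset.notMem_erase _ _ this) w hw.nonneg
  have hZ : ∀ S : Finset V, wt w (S ∩ Finset.univ.erase v) = wt w S := by
    intro S
    have h1 : S ∩ Finset.univ.erase v = S.erase v := by
      ext z; simp only [Finset.mem_inter, Finset.mem_erase, Finset.mem_univ, and_true]; tauto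
    rw [h1]
    by_cases hv : v ∈ S
    · have := Finset.add_sum_erase S w hv
      rw [← h] at this
      simp only [wt]; linarith
    · rw [Finset.erase_eq_of_notMem hv]
  rw [hZ] at hle
  have hsub : (A x ∩ Finset.univ.erase v) ∪ (An A (A x ∩ Finset.univ.erase v) ∩ Finset.univ.erase v)
      ⊆ Re A x := by
    apply Finset.union_subset_union Finset.inter_subset_left
    exact Finset.inter_subset_left.trans (An_mono Finset.inter_subset_left)
  have := wt_mono hw.nonneg hsub
  have h2 := hw.row_pos x
  rw [row] at h2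
  linarith

/-! ### linearity of the row -/

lemma wt_add (u v : V → ℝ) (S : Finset V) : wt (u + v) S = wt u S + wt v S := by
  simp [wt, Finset.sum_add_distrib]

lemma wt_smul (c : ℝ) (u : V → ℝ) (S : Finset V) : wt (c • u) S = c * wt u S := by
  simp [wt, Finset.mul_sum]

/-- `L` as a linear map -/
def Lm (A : V → Finset V) : (V → ℝ) →ₗ[ℝ] (V → ℝ) where
  toFun u := fun x => row A u x
  map_add' u v := by
    ext x; simp only [row, wt_add, Pi.add_apply]; ring
  map_smul' c u := by
    ext x; simp only [row, wt_smul, Pi.smul_apply, smul_eq_mul, RingHom.id_apply]; ring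

@[simp] lemma Lm_apply (A : V → Finset V) (u : V → ℝ) (x : V) : Lm A u x = row A u x := rfl

/-- **monotonicity of `L⁻¹`**: if all rows of `z` are `≥ 0` then `z ≥ 0`. -/
theorem NMin.inv_nonneg (H : NMin V) (hA : Ori A) (hw : Good A w) (z : V → ℝ)
    (hz : ∀ x, 0 ≤ row A z x) (v : V) : 0 ≤ z v := by
  by_contra hneg
  push Not at hneg
  -- the vertex minimising w/(w - z) over negative coordinates
  let N : Finset V := Finset.univ.filter fun x => z x < 0
  have hN : N.Nonempty := ⟨v, by simp [N, hneg]⟩
  have hwpos := H.pos hA hw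
  obtain ⟨m, hm, hmin⟩ := N.exists_min_image (fun x => w x / (w x - z x)) hN
  have hmz : z m < 0 := (Finset.mem_filter.mp hm).2
  set t : ℝ := w m / (w m - z m) with ht
  have hden : 0 < w m - z m := by linarith [hwpos m]
  have ht0 : 0 < t := div_pos (hwpos m) hden
  have ht1 : t < 1 := by rw [ht, div_lt_one hden]; linarith
  let u : V → ℝ := (1 - t) • w + t • z
  have hu : ∀ x, u x = (1 - t) * w x + t * z x := fun x => by simp [u]
  have hu0 : ∀ x, 0 ≤ u x := by
    intro x
    rw [hu]
    by_cases hx : z x < 0
    · have h1 := hmin x (by simp [N, hx])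
      have hd : 0 < w x - z x := by linarith [hwpos x]
      have h2 : t * (w x - z x) ≤ w x := by
        have := mul_le_mul_of_nonneg_right h1 hd.le
        rwa [div_mul_cancel₀ _ hd.ne'] at this
      nlinarith
    · push Not at hx
      have := mul_nonneg ht0.le hx
      have := mul_nonneg (sub_nonneg.mpr ht1.le) (hwpos x).le
      linarith
  have hum : u m = 0 := by
    rw [hu]
    have : t * (w m - z m) = w m := by rw [ht]; exact div_mul_cancel₀ _ hden.ne'
    nlinarith
  have hrow : ∀ x, row A u x = (1 - t) * row A w x + t * row A z x := by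
    intro x
    have h1 : Lm A u = (1 - t) • Lm A w + t • Lm A z := by
      simp only [u, map_add, map_smul]
    have := congrFun h1 x
    simpa using this
  have hgood : Good A u := ⟨hu0, fun x => by
    rw [hrow]
    have := mul_pos (sub_pos.mpr ht1) (hw.row_pos x)
    have := mul_nonneg ht0.le (hz x)
    linarith⟩
  have := H.pos hA hgood m
  rw [hum] at this
  exact lt_irrefl _ this

/-- `L` is injective -/
theorem NMin.inj (H : NMin V) (hA : Ori A) (hw : Good A w) : Function.Injective (Lm A) := by
  rw [injective_iff_map_eq_zero]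
  intro u hu
  have h1 : ∀ x, row A u x = 0 := fun x => congrFun hu x
  have h2 : ∀ x, row A (-u) x = 0 := by
    intro x
    have : Lm A (-u) = 0 := by rw [map_neg, hu, neg_zero]
    exact congrFun this x
  ext v
  have h3 := H.inv_nonneg hA hw u (fun x => (h1 x).ge) v
  have h4 := H.inv_nonneg hA hw (-u) (fun x => (h2 x).ge) v
  simp only [Pi.neg_apply] at h4
  simp only [Pi.zero_apply]
  linarith

theorem NMin.surj (H : NMin V) (hA : Ori A) (hw : Good A w) : Function.Surjective (Lm A) :=
  LinearMap.injective_iff_surjective.mp (H.inj hA hw)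

/-- two rows never coincide -/
theorem NMin.rows_ne (H : NMin V) (hA : Ori A) (hw : Good A w) {a b : V} (hab : a ≠ b) :
    ¬ ∀ u : V → ℝ, row A u a = row A u b := by
  intro h
  obtain ⟨u, hu⟩ := H.surj hA hw (Pi.single a 1)
  have h1 := congrFun hu a
  have h2 := congrFun hu b
  rw [Lm_apply] at h1 h2
  rw [h u, h2] at h1
  simp [Pi.single_eq_of_ne hab.symm] at h1

/-- out-neighbourhoods are distinct -/
theorem NMin.A_inj (H : NMin V) (hA : Ori A) (hw : Good A w) {a b : V} (hab : A a = A b) :
    a = b := by
  by_contra hne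
  refine H.rows_ne hA hw hne (fun u => ?_)
  simp [row, Re, hab]

/-- replace the out-neighbourhood of `b` by `O` -/
def repl (A : V → Finset V) (b : V) (O : Finset V) : V → Finset V :=
  fun x => if x = b then O else A x

lemma repl_same (b : V) (O : Finset V) : repl A b O b = O := by simp [repl]

lemma repl_ne {b x : V} (h : x ≠ b) (O : Finset V) : repl A b O x = A x := by simp [repl, h]

lemma An_repl_of_notMem {b : V} {O S : Finset V} (h : b ∉ S) : An (repl A b O) S = An A S := by
  ext y; simp only [mem_An]
  constructor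
  · rintro ⟨x, hx, hy⟩
    have : x ≠ b := fun h' => h (h' ▸ hx)
    exact ⟨x, hx, by rwa [repl_ne this] at hy⟩
  · rintro ⟨x, hx, hy⟩
    have : x ≠ b := fun h' => h (h' ▸ hx)
    exact ⟨x, hx, by rwa [repl_ne this]⟩

/-- **legal replacement of a row**: `O` is disjoint from the in-neighbours of `b`, `b ∉ O`, every
in-neighbour of `b` reaches all of `O` in at most two steps, and the new row of `b` is positive. -/
theorem Good.repl (hA : Ori A) (hw : Good A w) {b : V} {O : Finset V} (hbO : b ∉ O)
    (hin : ∀ x, b ∈ A x → x ∉ O) (hre : ∀ x, b ∈ A x → O ⊆ Re A x)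
    (hO : wt w (An A O \ O) < wt w O) :
    Ori (repl A b O) ∧ Good (repl A b O) w := by
  refine ⟨?_, hw.nonneg, ?_⟩
  · intro x y hy hx
    by_cases hxb : x = b
    · subst hxb
      rw [repl_same] at hy
      have hyx : y ≠ x := fun h => hbO (h ▸ hy)
      rw [repl_ne hyx] at hx
      exact hin y hx hy
    · rw [repl_ne hxb] at hy
      by_cases hyb : y = b
      · subst hyb
        rw [repl_same] at hx
        exact hin x hy hx
      · rw [repl_ne hyb] at hx
        exact hA x y hy hx
  · intro x
    by_cases hxb : x = b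
    · subst hxb
      rw [row_eq, repl_same, An_repl_of_notMem hbO]
      linarith
    · have h1 : Re (Cg765.repl A b O) x ⊆ Re A x := by
        rw [Re, repl_ne hxb]
        apply Finset.union_subset Finset.subset_union_left
        intro y hy
        obtain ⟨z, hz, hyz⟩ := mem_An.mp hy
        by_cases hzb : z = b
        · subst hzb
          rw [repl_same] at hyz
          exact hre x hz hyz
        · rw [repl_ne hzb] at hyz
          exact Finset.mem_union_right _ (mem_An.mpr ⟨z, hz, hyz⟩)
      have h2 := wt_mono hw.nonneg h1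
      have h3 := hw.row_pos x
      rw [row] at h3 ⊢
      rw [repl_ne hxb]
      linarith

/-- **exchange lemma** (helper213): every far pair is in a conflict. -/
theorem NMin.exchange (H : NMin V) (hA : Ori A) (hw : Good A w) {a b : V} (hab : a ≠ b)
    (hfar : b ∉ Re A a) : ∃ x y, b ∈ A x ∧ y ∈ A a ∧ y ∉ Re A x := by
  by_contra hcon
  push Not at hcon
  have hbO : b ∉ A a := fun h => hfar (Finset.mem_union_left _ h)
  have hin : ∀ x, b ∈ A x → x ∉ A a := fun x hx hxa =>
    hfar (Finset.mem_union_right _ (mem_An.mpr ⟨x, hxa, hx⟩))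
  have hre : ∀ x, b ∈ A x → A a ⊆ Re A x := fun x hx y hy => hcon x y hx hy
  obtain ⟨h1, h2⟩ := hw.repl hA hbO hin hre (hw.row' a)
  have h3 : repl A b (A a) a = repl A b (A a) b := by
    rw [repl_same, repl_ne hab]
  exact hab (H.A_inj h1 h2 h3)

/-- if there is no far pair then there is no counterexample -/
theorem no_far_false [Nonempty V] (hA : Ori A) (hw : Good A w)
    (h : ∀ a b, a ≠ b → b ∈ Re A a) : False := by
  classical
  have hRe : ∀ x, Re A x = Finset.univ.erase x := by
    intro x; ext y
    simp only [Finset.mem_erase, Finset.mem_univ, and_true]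
    constructor
    · intro hy h'
      subst h'
      rcases Finset.mem_union.mp hy with h1 | h1
      · exact hA.irrefl _ h1
      · exact hA.not_mem_two _ h1
    · intro hy; exact h x y (Ne.symm hy)
  have hpos : 0 < ∑ x, w x * row A w x + 0 := by
    obtain ⟨v⟩ := (inferInstance : Nonempty V)
    have h1 : ∀ x ∈ Finset.univ, 0 ≤ w x * row A w x :=
      fun x _ => mul_nonneg (hw.nonneg x) (hw.row_pos x).le
    -- some weight is positive
    have h2 : ∃ x, 0 < w x := by
      by_contra hc; push Not at hc
      have h3 : ∀ x, w x = 0 := fun x => le_antisymm (hc x) (hw.nonneg x)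
      have := hw.row_pos v
      simp [row, wt, h3] at this
    obtain ⟨x, hx⟩ := h2
    have := Finset.sum_pos' h1 ⟨x, Finset.mem_univ x, mul_pos hx (hw.row_pos x)⟩
    linarith
  have hsum : ∑ x, w x * row A w x ≤ 0 := by
    let c : V → V → ℝ := fun x y => 2 * (if y ∈ A x then 1 else 0) - (if y ≠ x then 1 else 0)
    have e1 : ∀ x, w x * row A w x = ∑ y, w x * w y * c x y := by
      intro x
      have h1 : wt w (A x) = ∑ y, w y * (if y ∈ A x then 1 else 0) := by
        simp only [mul_ite, mul_one, mul_zero]
        rw [wt, ← Finset.sum_filter]; congr 1; ext y; simp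
      have h2 : wt w (Finset.univ.erase x) = ∑ y, w y * (if y ≠ x then 1 else 0) := by
        simp only [mul_ite, mul_one, mul_zero]
        rw [wt, ← Finset.sum_filter]; congr 1; ext y; simp
      rw [row, hRe, h1, h2, Finset.mul_sum, ← Finset.sum_sub_distrib, Finset.mul_sum]
      apply Finset.sum_congr rfl; intro y _
      simp only [c]; ring
    have e2 : ∑ x, ∑ y, w x * w y * c x y = ∑ x, ∑ y, w x * w y * c y x := by
      rw [Finset.sum_comm]
      apply Finset.sum_congr rfl; intro y _
      apply Finset.sum_congr rfl; intro x _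
      ring
    have e3 : ∀ x y, w x * w y * c x y + w x * w y * c y x ≤ 0 := by
      intro x y
      have hww := mul_nonneg (hw.nonneg x) (hw.nonneg y)
      have hc : c x y + c y x ≤ 0 := by
        simp only [c]
        by_cases hxy : y = x
        · subst hxy; simp [hA.irrefl]
        · have hyx : x ≠ y := fun h => hxy h.symm
          by_cases h1 : y ∈ A x
          · have h2 := hA x y h1
            norm_num [h1, h2, hxy, hyx]
          · by_cases h2 : x ∈ A y
            · norm_num [h1, h2, hxy, hyx]
            · norm_num [h1, h2, hxy, hyx]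
      nlinarith
    have e4 : ∑ x, ∑ y, w x * w y * c x y + ∑ x, ∑ y, w x * w y * c y x ≤ 0 := by
      rw [← Finset.sum_add_distrib]
      apply Finset.sum_nonpos; intro x _
      rw [← Finset.sum_add_distrib]
      exact Finset.sum_nonpos fun y _ => e3 x y
    simp only [e1]
    linarith
  linarith

/-- a conflict of `D`: arcs `a → y`, `x → b` with `b` far from `a` and `y` far from `x` -/
def Conflict (A : V → Finset V) (a b x y : V) : Prop :=
  y ∈ A a ∧ b ∈ A x ∧ b ∉ Re A a ∧ y ∉ Re A x

/-- **every minimal counterexample has a conflict** (so `Lemma X` = no conflict gives SNC). -/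
theorem World.exists_conflict (H : World A) : ∃ a b x y, a ≠ b ∧ x ≠ y ∧ Conflict A a b x y := by
  obtain ⟨w, hw⟩ := H.exists_good
  by_contra hcon
  have := H.ne
  refine no_far_false H.ori hw (fun a b hab => ?_)
  by_contra hfar
  obtain ⟨x, y, h1, h2, h3⟩ := H.nmin.exchange H.ori hw hab hfar
  refine hcon ⟨a, b, x, y, hab, ?_, h2, h1, hfar, h3⟩
  rintro rfl
  exact hfar (Finset.mem_union_right _ (mem_An.mpr ⟨x, h2, h1⟩))

/-- stronger: every far pair is in a conflict and there is a far pair -/
theorem World.exists_far (H : World A) : ∃ a b, a ≠ b ∧ b ∉ Re A a := by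
  obtain ⟨a, b, _, _, hab, _, h⟩ := H.exists_conflict
  exact ⟨a, b, hab, h.2.2.1⟩

theorem World.far_conflict (H : World A) {a b : V} (hab : a ≠ b) (hfar : b ∉ Re A a) :
    ∃ x y, Conflict A a b x y := by
  obtain ⟨w, hw⟩ := H.exists_good
  obtain ⟨x, y, h1, h2, h3⟩ := H.nmin.exchange H.ori hw hab hfar
  exact ⟨x, y, h2, h1, hfar, h3⟩

end Crest.Agent.R057.Cg765
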