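import Crest.Agent.R057.Cg4_765

/-!
# R057 (S0079): interface of the minimal world for the board argument

`Nb A Q = N[Q]`, `CoreData`: everything the board argument needs; `S0079_of_core`.
-/

set_option autoImplicit false
set_option linter.unusedSectionVars false

namespace Crest.Agent.R057.Cg765

open Finset

/-- closed out-neighbourhood of a set -/
def Nb {V : Type*} [DecidableEq V] (A : V → Finset V) (Q : Finset V) : Finset V := Q ∪ An A Q

lemma mem_Nb {V : Type*} [DecidableEq V] {A : V → Finset V} {Q : Finset V} {y : V} :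
    y ∈ Nb A Q ↔ ∃ x ∈ Q, y = x ∨ y ∈ A x := by
  simp only [Nb, Finset.mem_union, mem_An]
  constructor
  · rintro (h | ⟨x, hx, hy⟩)
    · exact ⟨y, h, Or.inl rfl⟩
    · exact ⟨x, hx, Or.inr hy⟩
  · rintro ⟨x, hx, rfl | hy⟩
    · exact Or.inl hx
    · exact Or.inr ⟨x, hx, hy⟩

/-- **CG**, closed form: `w(N[N[Q]]) + w(Q) < 2 w(N[Q])` for every nonempty proper `Q`. -/
theorem World.cg_closed {V : Type} [Fintype V] [DecidableEq V] {A : V → Finset V} {w : V → ℝ}
    (H : World A) (hw : Good A w) (Q : Finset V) (hQ : Q.Nonempty) (hQ' : Q ≠ Finset.univ) :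
    wt w (Nb A (Nb A Q)) + wt w Q < 2 * wt w (Nb A Q) := by
  have h := H.cg hw Q (H.not_sub hQ hQ')
  have h1 := wt_union (w := w) (Q ∪ An A Q) (An A (Q ∪ An A Q))
  have h2 := wt_union (w := w) Q (An A Q)
  have h3 : (Q ∪ An A Q) ∪ An A (Q ∪ An A Q) = Nb A (Nb A Q) := rfl
  have h4 : Q ∪ An A Q = Nb A Q := rfl
  rw [h3] at h1
  rw [h4] at h h1 h2
  linarith

/-- everything the board argument needs -/
structure CoreData {V : Type} [Fintype V] [DecidableEq V] (A : V → Finset V) (w : V → ℝ) :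
    Prop where
  ne : Nonempty V
  ori : ∀ x y, y ∈ A x → x ∉ A y
  pos : ∀ x, 0 < w x
  inn : ∀ y, ∃ x, y ∈ A x
  out : ∀ x, (A x).Nonempty
  cg : ∀ Q : Finset V, Q.Nonempty → Q ≠ Finset.univ →
    (∑ x ∈ Nb A (Nb A Q), w x) + ∑ x ∈ Q, w x < 2 * ∑ x ∈ Nb A Q, w x

theorem World.coreData {V : Type} [Fintype V] [DecidableEq V] {A : V → Finset V} {w : V → ℝ}
    (H : World A) (hw : Good A w) : CoreData A w where
  ne := H.ne
  ori := H.ori
  pos := H.pos hw
  inn := H.nonempty_in
  out := H.A_ne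
  cg := H.cg_closed hw

/-- **Final glue**: the literal statement S0079 from the impossibility of `CoreData`. -/
theorem S0079_of_core
    (core : ∀ (n : ℕ) (A : Fin n → Finset (Fin n)) (w : Fin n → ℝ), CoreData A w → False)
    (V : Type*) [Fintype V] [Nonempty V] (G : Digraph V)
    (hloop : ∀ v, ¬ G.Adj v v) (hopp : ∀ u v, G.Adj u v → ¬ G.Adj v u) :
    ∃ v : V, Set.ncard {u | G.Adj v u} ≤
      Set.ncard {w | w ≠ v ∧ ¬ G.Adj v w ∧ ∃ u, G.Adj v u ∧ G.Adj u w} := by
  refine S0079_of (fun n A H => ?_) V G hloop hopp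
  obtain ⟨w, hw⟩ := H.exists_good
  exact core n A w (H.coreData hw)

end Crest.Agent.R057.Cg765
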