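import Crest.Agent.R057.Cg5_765

/-!
# R057 (S0079): the board argument

`CoreData A w → False`.  Proof of the team (helpers 203, 280, 427, 221, 742, 477, ...): minimise the
energy over pairs of row families `N{b} ⊆ P b ⊆ M b ⊆ V \ N⁻(b)`; the erosion of a minimiser and
CG give a smaller energy.
-/

set_option autoImplicit false
set_option linter.unusedSectionVars false

namespace Crest.Agent.R057.Core765

open Finset Crest.Agent.R057.Cg765

variable {V : Type} [Fintype V] [DecidableEq V] {A : V → Finset V} {w : V → ℝ}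

lemma Nb_union (X Y : Finset V) : Nb A (X ∪ Y) = Nb A X ∪ Nb A Y := by
  ext z; simp only [mem_Nb, Finset.mem_union]; constructor
  · rintro ⟨x, hx | hx, h⟩
    · exact Or.inl ⟨x, hx, h⟩
    · exact Or.inr ⟨x, hx, h⟩
  · rintro (⟨x, hx, h⟩ | ⟨x, hx, h⟩)
    · exact ⟨x, Or.inl hx, h⟩
    · exact ⟨x, Or.inr hx, h⟩

lemma Nb_mono {X Y : Finset V} (h : X ⊆ Y) : Nb A X ⊆ Nb A Y := by
  intro z hz
  obtain ⟨x, hx, h'⟩ := mem_Nb.mp hz
  exact mem_Nb.mpr ⟨x, h hx, h'⟩

lemma sub_Nb (X : Finset V) : X ⊆ Nb A X := Finset.subset_union_left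

lemma submod (hw : ∀ x, 0 ≤ w x) (X Y : Finset V) :
    wt w (Nb A (X ∪ Y)) + wt w (Nb A (X ∩ Y)) ≤ wt w (Nb A X) + wt w (Nb A Y) := by
  have h1 : wt w (Nb A X ∪ Nb A Y) + wt w (Nb A X ∩ Nb A Y) = wt w (Nb A X) + wt w (Nb A Y) :=
    Finset.sum_union_inter
  have h2 : wt w (Nb A (X ∩ Y)) ≤ wt w (Nb A X ∩ Nb A Y) :=
    wt_mono hw (Finset.subset_inter (Nb_mono Finset.inter_subset_left)
      (Nb_mono Finset.inter_subset_right))
  rw [Nb_union]; linarith

lemma modular (X Y : Finset V) :
    wt w (X ∪ Y) + wt w (X ∩ Y) = wt w X + wt w Y := Finset.sum_union_inter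

/-- erosion in the row variable -/
def er (A : V → Finset V) (P : V → Finset V) (b : V) : Finset V :=
  Finset.univ.filter fun y => ∀ m, (b = m ∨ b ∈ A m) → y ∈ P m

lemma mem_er {P : V → Finset V} {b y : V} :
    y ∈ er A P b ↔ ∀ m, (b = m ∨ b ∈ A m) → y ∈ P m := by
  simp [er]

/-- total weight of a family of rows -/
def tot (w : V → ℝ) (P : V → Finset V) : ℝ := ∑ b, w b * wt w (P b)

lemma tot_mono (hw : ∀ x, 0 ≤ w x) {P P' : V → Finset V} (h : ∀ b, P b ⊆ P' b) :
    tot w P ≤ tot w P' :=
  Finset.sum_le_sum fun b _ => mul_le_mul_of_nonneg_left (wt_mono hw (h b)) (hw b)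

lemma sum_upd (w : V → ℝ) (φ : Finset V → ℝ) (P : V → Finset V) (m : V) (L : Finset V) :
    ∑ b, w b * φ (Function.update P m L b) = ∑ b, w b * φ (P b) + w m * (φ L - φ (P m)) := by
  classical
  rw [← Finset.add_sum_erase _ _ (Finset.mem_univ m),
    ← Finset.add_sum_erase (Finset.univ) (fun b => w b * φ (P b)) (Finset.mem_univ m)]
  have : ∑ x ∈ Finset.univ.erase m, w x * φ (Function.update P m L x)
      = ∑ x ∈ Finset.univ.erase m, w x * φ (P x) := by
    apply Finset.sum_congr rfl
    intro x hx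
    rw [Function.update_of_ne (Finset.ne_of_mem_erase hx)]
  rw [this, Function.update_self]; ring

/-- the row condition at level `s` -/
def Row (A : V → Finset V) (w : V → ℝ) (s : ℝ) (P B : V → Finset V) : Prop :=
  ∀ m L, P m ⊆ L → L ⊆ B m →
    wt w (Nb A (P m)) - s * wt w (P m) ≤ wt w (Nb A L) - s * wt w L

lemma key_aux (hw : ∀ x, 0 ≤ w x) {s : ℝ} {P B : V → Finset V} (hPB : ∀ m, P m ⊆ B m)
    (row : Row A w s P B) (X K : Finset V) (hX : ∀ m ∈ K, X ⊆ B m) :
    wt w (Nb A (X ∩ Finset.univ.filter fun y => ∀ m ∈ K, y ∈ P m))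
        - s * wt w (X ∩ Finset.univ.filter fun y => ∀ m ∈ K, y ∈ P m)
      ≤ wt w (Nb A X) - s * wt w X := by
  classical
  induction K using Finset.induction_on with
  | empty => simp
  | insert m K hm ih =>
    have ih' := ih (fun m' hm' => hX m' (Finset.mem_insert_of_mem hm'))
    set Y := X ∩ Finset.univ.filter fun y => ∀ m ∈ K, y ∈ P m with hY
    have hYX : Y ⊆ X := Finset.inter_subset_left
    have h1 : (X ∩ Finset.univ.filter fun y => ∀ m' ∈ insert m K, y ∈ P m') = Y ∩ P m := by
      ext y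
      simp only [hY, Finset.mem_inter, Finset.mem_filter, Finset.mem_univ, true_and,
        Finset.mem_insert, forall_eq_or_imp]
      tauto
    rw [h1]
    have h2 := submod (A := A) hw Y (P m)
    have h3 := modular (w := w) Y (P m)
    have h4 := row m (Y ∪ P m) Finset.subset_union_right
      (Finset.union_subset (hYX.trans (hX m (Finset.mem_insert_self _ _))) (hPB m))
    have h5 : s * wt w (Y ∪ P m) + s * wt w (Y ∩ P m) = s * wt w Y + s * wt w (P m) := by
      rw [← mul_add, h3, mul_add]
    linarith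

lemma key (hw : ∀ x, 0 ≤ w x) {s : ℝ} {P B : V → Finset V} (hPB : ∀ m, P m ⊆ B m)
    (row : Row A w s P B) (b : V) (X : Finset V) (h1 : er A P b ⊆ X) (h2 : X ⊆ er A B b) :
    wt w (Nb A (er A P b)) - s * wt w (er A P b) ≤ wt w (Nb A X) - s * wt w X := by
  classical
  have h := key_aux hw hPB row X (Finset.univ.filter fun m => b = m ∨ b ∈ A m) (by
    intro m hm y hy
    exact mem_er.mp (h2 hy) m (by simpa using hm))
  have h3 : (X ∩ Finset.univ.filter fun y => ∀ m ∈ (Finset.univ.filter fun m => b = m ∨ b ∈ A m),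
      y ∈ P m) = er A P b := by
    ext y
    simp only [Finset.mem_inter, Finset.mem_filter, Finset.mem_univ, true_and, mem_er]
    constructor
    · rintro ⟨_, h⟩; exact h
    · intro h; exact ⟨h1 (mem_er.mpr h), h⟩
  rwa [h3] at h

lemma er_mono {P P' : V → Finset V} (h : ∀ b, P b ⊆ P' b) (b : V) : er A P b ⊆ er A P' b :=
  fun _ hy => mem_er.mpr fun m hm => h m (mem_er.mp hy m hm)

/-- helper742's Lemma K. -/
theorem lemK (hw : ∀ x, 0 < w x) (B : V → Finset V) :
    ∀ (n : ℕ) (P : V → Finset V) (s : ℝ), (∑ m, (B m \ P m).card = n) → (∀ m, P m ⊆ B m) →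
      Row A w s P B →
      (∀ P' : V → Finset V, (∀ m, P m ⊆ P' m) → (∀ m, P' m ⊆ B m) →
        tot w B - tot w P' ≤ tot w (er A B) - tot w (er A P')) →
      s * ((tot w (er A B) - tot w (er A P)) - (tot w B - tot w P)) ≤
        (tot w (fun b => Nb A (er A B b)) - tot w (fun b => Nb A (er A P b)))
          - (tot w (fun b => Nb A (B b)) - tot w (fun b => Nb A (P b))) := by
  classical
  have hw0 : ∀ x, 0 ≤ w x := fun x => (hw x).le
  intro n
  induction n using Nat.strong_induction_on with
  | _ n ih =>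
  intro P s hn hPB row col
  by_cases hall : ∀ m, P m = B m
  · have : P = B := funext hall
    subst this
    simp
  push Not at hall
  obtain ⟨m1, hm1⟩ := hall
  -- the candidates
  let S : Finset (V × Finset V) := Finset.univ.filter fun q => P q.1 ⊂ q.2 ∧ q.2 ⊆ B q.1
  have hS : S.Nonempty := ⟨(m1, B m1), by
    simp only [S, Finset.mem_filter, Finset.mem_univ, true_and]
    exact ⟨(hPB m1).ssubset_of_ne hm1, le_refl _⟩⟩
  obtain ⟨q, hq, hmin⟩ := Finset.exists_min_image S
    (fun q => (wt w (Nb A q.2) - wt w (Nb A (P q.1))) / (wt w q.2 - wt w (P q.1))) hS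
  obtain ⟨m0, L0⟩ := q
  simp only [S, Finset.mem_filter, Finset.mem_univ, true_and] at hq
  obtain ⟨hPL, hLB⟩ := hq
  have hden : ∀ m L, P m ⊂ L → 0 < wt w L - wt w (P m) := by
    intro m L hL
    have h1 := wt_sdiff_of_subset (w := w) hL.1
    rw [← h1]
    obtain ⟨x, hx, hx'⟩ := Finset.exists_of_ssubset hL
    exact Finset.sum_pos (fun x _ => hw x) ⟨x, Finset.mem_sdiff.mpr ⟨hx, hx'⟩⟩
  set t := (wt w (Nb A L0) - wt w (Nb A (P m0))) / (wt w L0 - wt w (P m0)) with ht
  have hd0 := hden m0 L0 hPL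
  have ht0 : wt w (Nb A L0) - wt w (Nb A (P m0)) = t * (wt w L0 - wt w (P m0)) := by
    rw [ht, div_mul_cancel₀ _ hd0.ne']
  have hst : s ≤ t := by
    rw [ht, le_div_iff₀ hd0]
    have := row m0 L0 hPL.1 hLB
    linarith
  have hrowt : Row A w t P B := by
    intro m L h1 h2
    by_cases hL : P m = L
    · rw [hL]
    · have hss : P m ⊂ L := h1.ssubset_of_ne hL
      have h3 := hmin (m, L) (by
        simp only [S, Finset.mem_filter, Finset.mem_univ, true_and]; exact ⟨hss, h2⟩)
      have h3' : t ≤ (wt w (Nb A L) - wt w (Nb A (P m))) / (wt w L - wt w (P m)) := h3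
      rw [le_div_iff₀ (hden m L hss)] at h3'
      linarith
  -- the new family
  let P' := Function.update P m0 L0
  have hP'0 : P' m0 = L0 := Function.update_self _ _ _
  have hP'ne : ∀ m, m ≠ m0 → P' m = P m := fun m hm => Function.update_of_ne hm _ _
  have hPP' : ∀ m, P m ⊆ P' m := by
    intro m
    by_cases hm : m = m0
    · subst hm; rw [hP'0]; exact hPL.1
    · rw [hP'ne m hm]
  have hP'B : ∀ m, P' m ⊆ B m := by
    intro m
    by_cases hm : m = m0
    · subst hm; rw [hP'0]; exact hLB
    · rw [hP'ne m hm]; exact hPB m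
  have hcard : ∑ m, (B m \ P' m).card < n := by
    rw [← hn]
    refine Finset.sum_lt_sum (fun m _ => Finset.card_le_card
      (Finset.sdiff_subset_sdiff (le_refl _) (hPP' m))) ⟨m0, Finset.mem_univ _, ?_⟩
    apply Finset.card_lt_card
    rw [hP'0]
    obtain ⟨x, hx, hx'⟩ := Finset.exists_of_ssubset hPL
    refine ⟨Finset.sdiff_subset_sdiff (le_refl _) hPL.1, fun hc => ?_⟩
    exact (Finset.mem_sdiff.mp (hc (Finset.mem_sdiff.mpr ⟨hLB hx, hx'⟩))).2 hx
  have hrow' : Row A w t P' B := by
    intro m L h1 h2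
    by_cases hm : m = m0
    · subst hm
      rw [hP'0] at h1 ⊢
      have := hrowt m L (hPL.1.trans h1) h2
      linarith
    · rw [hP'ne m hm] at h1 ⊢
      exact hrowt m L h1 h2
  have IH := ih _ hcard P' t rfl hP'B hrow' (fun P'' h1 h2 => col P'' (fun m => (hPP' m).trans (h1 m)) h2)
  -- KEY
  have hkey : t * (tot w (er A P') - tot w (er A P)) ≤
      tot w (fun b => Nb A (er A P' b)) - tot w (fun b => Nb A (er A P b)) := by
    simp only [tot]
    rw [← Finset.sum_sub_distrib, ← Finset.sum_sub_distrib, Finset.mul_sum]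
    apply Finset.sum_le_sum
    intro b _
    have h := key hw0 hPB hrowt b (er A P' b) (er_mono hPP' b) (er_mono hP'B b)
    have hwb := hw0 b
    nlinarith [mul_le_mul_of_nonneg_left h hwb]
  have e1 : tot w P' = tot w P + w m0 * (wt w L0 - wt w (P m0)) := sum_upd w (wt w) P m0 L0
  have e2 : tot w (fun b => Nb A (P' b)) = tot w (fun b => Nb A (P b))
      + w m0 * (wt w (Nb A L0) - wt w (Nb A (P m0))) :=
    sum_upd w (fun X => wt w (Nb A X)) P m0 L0
  rw [ht0] at e2
  have hc := col P (fun m => le_refl _) hPB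
  have hfin : s * ((tot w (er A B) - tot w (er A P)) - (tot w B - tot w P)) ≤
      t * ((tot w (er A B) - tot w (er A P)) - (tot w B - tot w P)) :=
    mul_le_mul_of_nonneg_right hst (by linarith)
  rw [e1, e2] at IH
  nlinarith [IH, hkey, hfin]

/-- columns and rows: if `y ∈ X b ↔ y = b ∨ b ∉ S y` with `y ∈ S y`. -/
lemma tot_col (X S : V → Finset V) (h : ∀ b y, y ∈ X b ↔ y = b ∨ b ∉ S y) (hS : ∀ y, y ∈ S y) :
    tot w X = ∑ y, w y * (wt w Finset.univ - wt w (S y) + w y) := by
  classical
  have h1 : tot w X = ∑ b, ∑ y, if y ∈ X b then w b * w y else 0 := by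
    apply Finset.sum_congr rfl
    intro b _
    rw [← Finset.sum_filter, wt, Finset.mul_sum]
    apply Finset.sum_congr _ (fun _ _ => rfl)
    ext y; simp
  rw [h1, Finset.sum_comm]
  apply Finset.sum_congr rfl
  intro y _
  have h2 : ∀ b, (if y ∈ X b then w b * w y else 0)
      = w y * w b - (if b ∈ S y then w y * w b else 0) + (if b = y then w y * w b else 0) := by
    intro b
    by_cases hb : b = y
    · subst hb
      simp [h, hS]
    · have : y ≠ b := fun h => hb h.symm
      by_cases hb' : b ∈ S y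
      · simp [h, hb, hb', this]
      · simp [h, hb, hb', this, mul_comm]
  rw [Finset.sum_congr rfl (fun b _ => h2 b), Finset.sum_add_distrib, Finset.sum_sub_distrib,
    Finset.sum_ite_eq' , ← Finset.mul_sum, ← Finset.sum_filter, ← Finset.mul_sum]
  have h3 : (Finset.univ.filter fun b => b ∈ S y) = S y := by ext b; simp
  rw [h3]
  simp only [Finset.mem_univ, if_true, wt]
  ring

/-- admissible pairs -/
structure J0 (A : V → Finset V) (P M : V → Finset V) : Prop where
  self : ∀ b, b ∈ P b
  arc : ∀ b, A b ⊆ P b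
  sub : ∀ b, P b ⊆ M b
  avoid : ∀ b, ∀ y ∈ M b, b ∉ A y

/-- the energy -/
def En (A : V → Finset V) (w : V → ℝ) (P M : V → Finset V) : ℝ :=
  tot w (fun b => Nb A (P b)) - tot w P + tot w M - tot w (er A M)

theorem core (h : CoreData A w) : False := by
  classical
  have hw := h.pos
  have hw0 : ∀ x, 0 ≤ w x := fun x => (hw x).le
  have irr : ∀ x, x ∉ A x := fun x hx => h.ori x x hx hx
  have := h.ne
  -- a minimiser
  obtain ⟨⟨P, M⟩, hJ, hmin⟩ := Set.exists_min_image
    {p : (V → Finset V) × (V → Finset V) | J0 A p.1 p.2} (fun p => En A w p.1 p.2)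
    (Set.toFinite _) ⟨(fun b => insert b (A b), fun b => Finset.univ.filter fun y => b ∉ A y), by
      refine ⟨fun b => Finset.mem_insert_self _ _, fun b => Finset.subset_insert _ _, ?_, ?_⟩
      · intro b y hy
        simp only [Finset.mem_filter, Finset.mem_univ, true_and]
        rcases Finset.mem_insert.mp hy with rfl | hy
        · exact irr _
        · exact h.ori b y hy
      · intro b y hy
        simpa using hy⟩
  have hJ : J0 A P M := hJ
  have hmin' : ∀ P' M', J0 A P' M' → En A w P M ≤ En A w P' M' :=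
    fun P' M' hJ' => hmin (P', M') hJ'
  -- row optimality
  have row : Row A w 1 P M := by
    intro m L h1 h2
    have hJ' : J0 A (Function.update P m L) M := by
      have hsub : ∀ b, P b ⊆ Function.update P m L b := by
        intro b
        by_cases hb : b = m
        · subst hb; rw [Function.update_self]; exact h1
        · rw [Function.update_of_ne hb]
      refine ⟨fun b => hsub b (hJ.self b), fun b => (hJ.arc b).trans (hsub b), ?_, hJ.avoid⟩
      intro b
      by_cases hb : b = m
      · subst hb; rw [Function.update_self]; exact h2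
      · rw [Function.update_of_ne hb]; exact hJ.sub b
    have h3 := hmin' _ _ hJ'
    have e1 : tot w (Function.update P m L) = tot w P + w m * (wt w L - wt w (P m)) :=
      sum_upd w (wt w) P m L
    have e2 : tot w (fun b => Nb A (Function.update P m L b)) = tot w (fun b => Nb A (P b))
        + w m * (wt w (Nb A L) - wt w (Nb A (P m))) :=
      sum_upd w (fun X => wt w (Nb A X)) P m L
    simp only [En] at h3
    rw [e1, e2] at h3
    have h4 : 0 ≤ w m * ((wt w (Nb A L) - wt w (Nb A (P m))) - (wt w L - wt w (P m))) := by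
      linarith
    have h5 := nonneg_of_mul_nonneg_right h4 (hw m)
    linarith
  -- column optimality
  have col : ∀ P' : V → Finset V, (∀ m, P m ⊆ P' m) → (∀ m, P' m ⊆ M m) →
      tot w M - tot w P' ≤ tot w (er A M) - tot w (er A P') := by
    intro P' h1 h2
    have hJ' : J0 A P P' := ⟨hJ.self, hJ.arc, h1, fun b y hy => hJ.avoid b y (h2 b hy)⟩
    have h3 := hmin' _ _ hJ'
    simp only [En] at h3
    linarith
  have hR := lemK hw M _ P 1 rfl hJ.sub row col
  -- the new pair
  let Q := er A P
  let W := er A M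
  let T : V → Finset V := fun y => Finset.univ.filter fun b => b = y ∨ y ∉ Nb A (M b)
  have memT : ∀ b y, b ∈ T y ↔ b = y ∨ y ∉ Nb A (M b) := by intro b y; simp [T]
  let M' : V → Finset V := fun b => Finset.univ.filter fun y => y = b ∨ b ∉ Nb A (T y)
  have memM' : ∀ b y, y ∈ M' b ↔ y = b ∨ b ∉ Nb A (T y) := by intro b y; simp [M']
  have hMself : ∀ b m, (b = m ∨ b ∈ A m) → b ∈ M m := by
    rintro b m (rfl | hb)
    · exact hJ.sub _ (hJ.self _)
    · exact hJ.sub _ (hJ.arc _ hb)
  -- membership in N(T y)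
  have memNT : ∀ b y, b ∈ Nb A (T y) ↔ (b = y ∨ b ∈ A y) ∨ ∃ m, (b = m ∨ b ∈ A m) ∧ y ∉ Nb A (M m) := by
    intro b y
    rw [mem_Nb]
    constructor
    · rintro ⟨m, hm, hmb⟩
      rcases (memT m y).mp hm with rfl | hm
      · exact Or.inl hmb
      · exact Or.inr ⟨m, hmb, hm⟩
    · rintro (hb | ⟨m, hmb, hm⟩)
      · exact ⟨y, (memT y y).mpr (Or.inl rfl), hb⟩
      · exact ⟨m, (memT m y).mpr (Or.inr hm), hmb⟩
  have hTself : ∀ y, y ∈ T y := fun y => (memT y y).mpr (Or.inl rfl)
  have hQself : ∀ b, b ∈ Q b := by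
    intro b
    refine mem_er.mpr ?_
    rintro m (rfl | hb)
    · exact hJ.self _
    · exact hJ.arc _ hb
  -- N(W b) ⊆ M' b
  have hWM' : ∀ b, Nb A (W b) ⊆ M' b := by
    intro b y hy
    obtain ⟨z, hz, hzy⟩ := mem_Nb.mp hy
    have hz' := mem_er.mp hz
    rw [memM']
    by_cases hyb : y = b
    · exact Or.inl hyb
    right
    rw [memNT]
    rintro ((rfl | hb) | ⟨m, hmb, hm⟩)
    · exact hyb rfl
    · -- y → b
      rcases hzy with rfl | hzy
      · exact hJ.avoid b _ (hz' b (Or.inl rfl)) hb
      · exact hJ.avoid y z (hz' y (Or.inr hb)) hzy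
    · exact hm (mem_Nb.mpr ⟨z, hz' m hmb, hzy⟩)
  have hQW : ∀ b, Q b ⊆ W b := er_mono hJ.sub
  have hJ' : J0 A (fun b => Nb A (Q b)) M' := by
    refine ⟨fun b => sub_Nb _ (hQself b), ?_, fun b => (Nb_mono (hQW b)).trans (hWM' b), ?_⟩
    · intro b y hy
      exact mem_Nb.mpr ⟨b, hQself b, Or.inr hy⟩
    · intro b y hy hb
      rcases (memM' b y).mp hy with rfl | hy
      · exact irr _ hb
      · exact hy ((memNT b y).mpr (Or.inl (Or.inr hb)))
  have h6 := hmin' _ _ hJ'
  -- column identities
  have c1 : tot w (fun b => Nb A (M b)) = ∑ y, w y * (wt w Finset.univ - wt w (T y) + w y) := by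
    apply tot_col _ _ _ hTself
    intro b y
    rw [memT]
    constructor
    · intro hy
      by_cases hyb : y = b
      · exact Or.inl hyb
      · exact Or.inr (fun hc => hc.elim (fun h' => hyb h'.symm) (fun h' => h' hy))
    · rintro (rfl | hy)
      · exact sub_Nb _ (hMself _ _ (Or.inl rfl))
      · by_contra hc; exact hy (Or.inr hc)
  have c2 : tot w M' = ∑ y, w y * (wt w Finset.univ - wt w (Nb A (T y)) + w y) :=
    tot_col _ _ memM' (fun y => sub_Nb _ (hTself y))
  have c3 : tot w (er A M') = ∑ y, w y * (wt w Finset.univ - wt w (Nb A (Nb A (T y))) + w y) := by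
    apply tot_col _ _ _ (fun y => sub_Nb _ (sub_Nb _ (hTself y)))
    intro b y
    rw [mem_er]
    constructor
    · intro hy
      by_cases hyb : y = b
      · exact Or.inl hyb
      right
      intro hc
      obtain ⟨m, hm, hmb⟩ := mem_Nb.mp hc
      rcases (memM' m y).mp (hy m hmb) with rfl | h'
      · -- y ⇝ b with b ≠ y
        rcases (memM' b y).mp (hy b (Or.inl rfl)) with h' | h'
        · exact hyb h'
        · exact h' ((memNT b y).mpr (Or.inl hmb))
      · exact h' hm
    · rintro (rfl | hy) m hmb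
      · -- the diagonal
        rw [memM']
        by_cases hym : y = m
        · exact Or.inl hym
        right
        rcases hmb with hmb | hmb
        · exact absurd hmb hym
        rw [memNT]
        rintro ((h' | h') | ⟨m', hm', h'⟩)
        · exact hym h'.symm
        · exact h.ori _ _ hmb h'
        · exact h' (mem_Nb.mpr ⟨m, hMself _ _ hm', Or.inr hmb⟩)
      · rw [memM']
        right
        intro hc
        exact hy (mem_Nb.mpr ⟨m, hc, hmb⟩)
  -- CG
  have g1 : tot w (fun b => Nb A (Nb A (Q b))) + tot w Q < 2 * tot w (fun b => Nb A (Q b)) := by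
    simp only [tot]
    rw [← Finset.sum_add_distrib, Finset.mul_sum]
    apply Finset.sum_lt_sum_of_nonempty Finset.univ_nonempty
    intro b _
    have hne : Q b ≠ Finset.univ := by
      intro hc
      obtain ⟨u, hu⟩ := h.inn b
      have hu' : u ∈ Q b := by rw [hc]; exact Finset.mem_univ _
      exact hJ.avoid b u (hJ.sub b (mem_er.mp hu' b (Or.inl rfl))) hu
    have := h.cg (Q b) ⟨b, hQself b⟩ hne
    have hb := hw b
    simp only [wt]
    nlinarith
  have g2 : (∑ y, w y * wt w (Nb A (Nb A (T y)))) + ∑ y, w y * wt w (T y)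
      < 2 * ∑ y, w y * wt w (Nb A (T y)) := by
    rw [← Finset.sum_add_distrib, Finset.mul_sum]
    apply Finset.sum_lt_sum_of_nonempty Finset.univ_nonempty
    intro y _
    have hne : T y ≠ Finset.univ := by
      intro hc
      obtain ⟨u, hu⟩ := h.inn y
      have hu' : u ∈ T y := by rw [hc]; exact Finset.mem_univ _
      rcases (memT u y).mp hu' with rfl | h'
      · exact irr _ hu
      · exact h' (sub_Nb _ (hMself _ _ (Or.inr hu)))
    have := h.cg (T y) ⟨y, hTself y⟩ hne
    have hb := hw y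
    simp only [wt]
    nlinarith
  have d : ∀ S : V → Finset V, ∑ y, w y * (wt w Finset.univ - wt w (S y) + w y)
      = (∑ y, w y * (wt w Finset.univ + w y)) - ∑ y, w y * wt w (S y) := by
    intro S
    rw [← Finset.sum_sub_distrib]
    apply Finset.sum_congr rfl; intro y _; ring
  rw [d] at c1 c2 c3
  have h7 : tot w (fun b => Nb A (W b)) ≤ tot w M' := tot_mono hw0 hWM'
  simp only [En] at h6
  have hQ : Q = er A P := rfl
  have hW : W = er A M := rfl
  rw [hW] at h7
  rw [hQ] at h6 g1
  linarith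

end Crest.Agent.R057.Core765
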