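import Crest.Agent.R057.Cg1_765

/-!
# R057 (S0079): the counting inequality (R) on the board (helper208)

`N` closed out-neighbourhoods, `Nt` neutral cells, `Tt m = V \ N[P_m]`, `It c = {y : (c,y) ∉ V(S)}`,
`Om` free cells.
-/

set_option autoImplicit false
set_option linter.unusedSectionVars false

namespace Crest.Agent.R057.Rgen208

open Finset Crest.Agent.R057.Cg765

variable {V : Type*} [Fintype V] [DecidableEq V]

/-- cost of a cut -/
def cst (N : V → Finset V) (w : V → ℝ) (A X W : Finset V) : ℝ :=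
  wt w (An N W ∩ X) + wt w (A \ W)

/-- `MF A X U = min {w(X ∩ N[W]) + w(A \ W) : U ⊆ W ⊆ A}` -/
noncomputable def MF (N : V → Finset V) (w : V → ℝ) (A X U : Finset V) : ℝ :=
  A.powerset.inf' ⟨∅, by simp⟩ (fun W => cst N w A X (W ∪ U))

variable {N : V → Finset V} {w : V → ℝ}

lemma MF_le {A X U W : Finset V} (hUW : U ⊆ W) (hWA : W ⊆ A) :
    MF N w A X U ≤ cst N w A X W := by
  have h := Finset.inf'_le (fun W => cst N w A X (W ∪ U)) (Finset.mem_powerset.mpr hWA)
  have h2 : W ∪ U = W := Finset.union_eq_left.mpr hUW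
  simp only [h2] at h
  exact h

lemma MF_ex {A X U : Finset V} (hUA : U ⊆ A) :
    ∃ W, U ⊆ W ∧ W ⊆ A ∧ MF N w A X U = cst N w A X W := by
  obtain ⟨W, hW, h⟩ := Finset.exists_mem_eq_inf' (s := A.powerset) ⟨∅, by simp⟩
    (fun W => cst N w A X (W ∪ U))
  refine ⟨W ∪ U, Finset.subset_union_right,
    Finset.union_subset (Finset.mem_powerset.mp hW) hUA, h⟩

lemma MF_mono {A X U U' : Finset V} (h : U ⊆ U') (hU' : U' ⊆ A) :
    MF N w A X U ≤ MF N w A X U' := by
  obtain ⟨W, h1, h2, h3⟩ := MF_ex (N := N) (w := w) (X := X) hU'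
  rw [h3]
  exact MF_le (h.trans h1) h2

lemma MF_top {A X : Finset V} : MF N w A X A = wt w (An N A ∩ X) := by
  obtain ⟨W, h1, h2, h3⟩ := MF_ex (N := N) (w := w) (X := X) (le_refl A)
  have : W = A := Finset.Subset.antisymm h2 h1
  subst this
  rw [h3, cst]; simp

lemma MF_bot {A X : Finset V} (hall : ∀ U ⊆ A, wt w U ≤ wt w (An N U ∩ X)) :
    MF N w A X ∅ = wt w A := by
  apply le_antisymm
  · have h := MF_le (N := N) (w := w) (A := A) (X := X) (Finset.empty_subset ∅)
      (Finset.empty_subset A)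
    simpa [cst] using h
  · obtain ⟨W, -, h2, h3⟩ := MF_ex (N := N) (w := w) (X := X) (Finset.empty_subset A)
    rw [h3, cst]
    have h4 := hall W h2
    have h5 := wt_sdiff_of_subset (w := w) h2
    linarith

/-- The comparison of marginals. -/
lemma compare (hw : ∀ x, 0 ≤ w x) {A X A' X' U U' : Finset V} {y : V}
    (hU : U ⊆ A) (hU' : U' ⊆ A') (hyA : y ∈ A) (hyA' : y ∈ A')
    (hUU' : ∀ z ∈ U', z ∈ A → z ∈ U)
    (hsrc : ∀ z ∈ A', ∀ r ∈ X, r ∈ N z → z ∈ A)
    (hsnk : ∀ z ∈ A', ∀ r ∈ X, r ∈ N z → r ∈ X') :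
    MF N w A X (insert y U) - MF N w A X U ≤ MF N w A' X' (insert y U') - MF N w A' X' U' := by
  obtain ⟨W1, h1a, h1b, h1c⟩ := MF_ex (N := N) (w := w) (X := X) hU
  obtain ⟨W2, h2a, h2b, h2c⟩ := MF_ex (N := N) (w := w) (X := X')
    (Finset.insert_subset hyA' hU')
  rw [h1c, h2c]
  have hyW2 : y ∈ W2 := h2a (Finset.mem_insert_self _ _)
  -- test sets
  set V1 := W1 ∪ (W2 ∩ A) with hV1
  set V2 := W2.filter (fun z => z ∈ A → z ∈ W1) with hV2
  have t1 : MF N w A X (insert y U) ≤ cst N w A X V1 := by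
    apply MF_le
    · intro z hz
      rcases Finset.mem_insert.mp hz with rfl | hz
      · exact Finset.mem_union_right _ (Finset.mem_inter.mpr ⟨hyW2, hyA⟩)
      · exact Finset.mem_union_left _ (h1a hz)
    · exact Finset.union_subset h1b Finset.inter_subset_right
  have t2 : MF N w A' X' U' ≤ cst N w A' X' V2 := by
    apply MF_le
    · intro z hz
      rw [hV2, Finset.mem_filter]
      exact ⟨h2a (Finset.mem_insert_of_mem hz), fun hzA => h1a (hUU' z hz hzA)⟩
    · exact (Finset.filter_subset _ _).trans h2b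
  -- sources part
  have s1 : wt w (A \ V1) = wt w (A \ W1) - wt w ((A \ W1) ∩ W2) := by
    have e : A \ V1 = (A \ W1) \ ((A \ W1) ∩ W2) := by
      ext z; simp only [hV1, Finset.mem_sdiff, Finset.mem_union, Finset.mem_inter]; tauto
    rw [e, wt_sdiff_of_subset Finset.inter_subset_left]
  have s2 : wt w (A' \ V2) = wt w (A' \ W2) + wt w ((A \ W1) ∩ W2) := by
    have e : A' \ V2 = (A' \ W2) ∪ ((A \ W1) ∩ W2) := by
      ext z
      simp only [hV2, Finset.mem_sdiff, Finset.mem_union, Finset.mem_inter, Finset.mem_filter]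
      constructor
      · rintro ⟨h, h'⟩
        by_cases hz : z ∈ W2
        · right
          by_contra hc
          apply h'
          refine ⟨hz, fun hzA => ?_⟩
          by_contra hz1
          exact hc ⟨⟨hzA, hz1⟩, hz⟩
        · exact Or.inl ⟨h, hz⟩
      · rintro (⟨h, h'⟩ | ⟨⟨h, h'⟩, h''⟩)
        · exact ⟨h, fun hc => h' hc.1⟩
        · exact ⟨h2b h'', fun hc => h' (hc.2 h)⟩
    rw [e, wt_union_disj]
    rw [Finset.disjoint_left]
    intro z hz hz'
    exact (Finset.mem_sdiff.mp hz).2 (Finset.mem_inter.mp hz').2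
  -- sinks part
  set D := (An N (W2 ∩ A) ∩ X) \ An N W1 with hD
  have k1 : wt w (An N V1 ∩ X) ≤ wt w (An N W1 ∩ X) + wt w D := by
    have e : An N V1 ∩ X = (An N W1 ∩ X) ∪ D := by
      rw [hV1, An_union]
      ext z; simp only [hD, Finset.mem_sdiff, Finset.mem_union, Finset.mem_inter]; tauto
    rw [e, wt_union_disj]
    rw [Finset.disjoint_left]
    intro z hz hz'
    exact (Finset.mem_sdiff.mp hz').2 (Finset.mem_inter.mp hz).1
  have k2 : wt w D + wt w (An N V2 ∩ X') ≤ wt w (An N W2 ∩ X') := by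
    rw [← wt_union_disj]
    · apply wt_mono hw
      intro r hr
      rcases Finset.mem_union.mp hr with hr | hr
      · obtain ⟨hr1, -⟩ := Finset.mem_sdiff.mp hr
        obtain ⟨hr2, hr3⟩ := Finset.mem_inter.mp hr1
        obtain ⟨z, hz, hzr⟩ := mem_An.mp hr2
        obtain ⟨hz2, hzA⟩ := Finset.mem_inter.mp hz
        exact Finset.mem_inter.mpr ⟨mem_An.mpr ⟨z, hz2, hzr⟩, hsnk z (h2b hz2) r hr3 hzr⟩
      · obtain ⟨hr1, hr2⟩ := Finset.mem_inter.mp hr
        exact Finset.mem_inter.mpr ⟨An_mono (Finset.filter_subset _ _) hr1, hr2⟩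
    · rw [Finset.disjoint_left]
      intro r hr hr'
      obtain ⟨hr1, hr4⟩ := Finset.mem_sdiff.mp hr
      obtain ⟨hr2, hr3⟩ := Finset.mem_inter.mp hr1
      obtain ⟨z, hz, hzr⟩ := mem_An.mp (Finset.mem_inter.mp hr').1
      obtain ⟨hz1, hz2⟩ := Finset.mem_filter.mp hz
      exact hr4 (mem_An.mpr ⟨z, hz2 (hsrc z (h2b hz1) r hr3 hzr), hzr⟩)
  simp only [cst] at t1 t2 ⊢
  linarith

/-- layer cake -/
lemma layer (hw : ∀ x, 0 ≤ w x) (Γ : V → Finset V) (U0 : Finset V)
    (hall : ∀ U ⊆ U0, wt w U ≤ wt w (U.biUnion Γ)) :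
    ∀ (n : ℕ) (s t : V → ℝ), (∀ b, 0 ≤ s b) → (∀ c, 0 ≤ t c) → (∀ b, b ∉ U0 → s b = 0) →
      (∀ b ∈ U0, ∀ c ∈ Γ b, s b ≤ t c) → (univ.filter fun b => 0 < s b).card = n →
      ∑ b, w b * s b ≤ ∑ c, w c * t c := by
  intro n
  induction n using Nat.strong_induction_on with
  | _ n ih =>
    intro s t hs ht hs0 hst hn
    set U := univ.filter fun b => 0 < s b with hU
    have hUmem : ∀ b, b ∈ U ↔ 0 < s b := fun b => by simp [hU]
    rcases U.eq_empty_or_nonempty with hUe | hUne
    · have h0 : ∀ b, s b = 0 := by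
        intro b
        have : b ∉ U := by rw [hUe]; simp
        rw [hUmem] at this
        exact le_antisymm (not_lt.mp this) (hs b)
      simp only [h0, mul_zero, Finset.sum_const_zero]
      exact Finset.sum_nonneg fun c _ => mul_nonneg (hw c) (ht c)
    · obtain ⟨b0, hb0, hmin⟩ := U.exists_min_image s hUne
      set δ := s b0 with hδ
      have hδ0 : 0 < δ := (hUmem b0).mp hb0
      have hUU0 : U ⊆ U0 := by
        intro b hb
        by_contra hc
        have := hs0 b hc
        rw [hUmem, this] at hb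
        exact lt_irrefl _ hb
      set G := U.biUnion Γ with hG
      have hGt : ∀ c ∈ G, δ ≤ t c := by
        intro c hc
        obtain ⟨b, hb, hbc⟩ := Finset.mem_biUnion.mp hc
        exact (hmin b hb).trans (hst b (hUU0 hb) c hbc)
      let s' : V → ℝ := fun b => s b - if b ∈ U then δ else 0
      let t' : V → ℝ := fun c => t c - if c ∈ G then δ else 0
      have hs' : ∀ b, 0 ≤ s' b := by
        intro b
        by_cases hb : b ∈ U
        · simp only [s', if_pos hb]; linarith [hmin b hb]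
        · simp only [s', if_neg hb]; linarith [hs b]
      have ht' : ∀ c, 0 ≤ t' c := by
        intro c
        by_cases hc : c ∈ G
        · simp only [t', if_pos hc]; linarith [hGt c hc]
        · simp only [t', if_neg hc]; linarith [ht c]
      have hs0' : ∀ b, b ∉ U0 → s' b = 0 := by
        intro b hb
        have hbU : b ∉ U := fun h => hb (hUU0 h)
        simp only [s', if_neg hbU, hs0 b hb, sub_zero]
      have hst' : ∀ b ∈ U0, ∀ c ∈ Γ b, s' b ≤ t' c := by
        intro b hb c hc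
        by_cases hbU : b ∈ U
        · have hcG : c ∈ G := Finset.mem_biUnion.mpr ⟨b, hbU, hc⟩
          simp only [s', t', if_pos hbU, if_pos hcG]
          linarith [hst b hb c hc]
        · have h1 : s b = 0 := by
            have := hbU; rw [hUmem] at this
            exact le_antisymm (not_lt.mp this) (hs b)
          have h2 : s' b = 0 := by simp only [s', if_neg hbU, h1, sub_zero]
          rw [h2]; exact ht' c
      have hlt : (univ.filter fun b => 0 < s' b).card < n := by
        rw [← hn]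
        apply Finset.card_lt_card
        rw [Finset.ssubset_iff_of_subset]
        · refine ⟨b0, hb0, ?_⟩
          simp only [Finset.mem_filter, Finset.mem_univ, true_and, s', if_pos hb0]
          rw [← hδ]; simp
        · intro b hb
          rw [Finset.mem_filter] at hb
          rw [hUmem]
          have h1 := hb.2
          by_contra hc
          have hbU : b ∉ U := fun h => hc ((hUmem b).mp h)
          simp only [s', if_neg hbU, sub_zero] at h1
          exact hc h1
      have hI := ih _ hlt s' t' hs' ht' hs0' hst' rfl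
      have e1 : ∑ b, w b * s b = ∑ b, w b * s' b + δ * wt w U := by
        have : ∀ b, w b * s b = w b * s' b + (if b ∈ U then δ * w b else 0) := by
          intro b; by_cases hb : b ∈ U
          · simp only [s', if_pos hb]; ring
          · simp only [s', if_neg hb]; ring
        rw [Finset.sum_congr rfl fun b _ => this b, Finset.sum_add_distrib, wt, Finset.mul_sum]
        congr 1
        rw [Finset.sum_ite_mem, Finset.univ_inter]
      have e2 : ∑ c, w c * t c = ∑ c, w c * t' c + δ * wt w G := by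
        have : ∀ b, w b * t b = w b * t' b + (if b ∈ G then δ * w b else 0) := by
          intro b; by_cases hb : b ∈ G
          · simp only [t', if_pos hb]; ring
          · simp only [t', if_neg hb]; ring
        rw [Finset.sum_congr rfl fun b _ => this b, Finset.sum_add_distrib, wt, Finset.mul_sum]
        congr 1
        rw [Finset.sum_ite_mem, Finset.univ_inter]
      have h3 := mul_le_mul_of_nonneg_left (hall U hUU0) hδ0.le
      rw [e1, e2]
      linarith

/-- Hall for `I_c` and `O_c` -/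
lemma hall_up (hw : ∀ x, 0 ≤ w x) {c : V} (Nt Tt It : V → Finset V) {Ic Oc : Finset V}
    (hX : ∀ m y r, c ∈ N m → y ∈ It c → r ∈ N y → r ∈ Tt m → y ∈ Nt m)
    (hOm : ∀ m y r, c ∈ N m → y ∈ It c → r ∈ N y → r ∈ Tt m → r ∈ Oc)
    (hIc : ∀ y ∈ Ic, y ∈ It c ∧ ∃ m, c ∈ N m ∧ y ∈ Nt m)
    (h1 : ∀ b, ∀ U ⊆ Nt b, wt w U ≤ wt w (An N U ∩ Tt b)) :
    ∀ U ⊆ Ic, wt w U ≤ wt w (An N U ∩ Oc) := by
  -- induction over the set `M` of allowed rows `m`
  have key : ∀ (M : Finset V), (∀ m ∈ M, c ∈ N m) → ∀ U : Finset V, (∀ y ∈ U, y ∈ It c) →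
      (∀ y ∈ U, ∃ m ∈ M, y ∈ Nt m) →
      wt w U ≤ wt w ((An N U).filter fun r => ∃ m ∈ M, r ∈ Tt m) := by
    intro M
    induction M using Finset.induction_on with
    | empty =>
      intro _ U _ h
      have : U = ∅ := by
        rw [Finset.eq_empty_iff_forall_notMem]
        intro y hy
        obtain ⟨m, hm, -⟩ := h y hy
        simp at hm
      subst this; simp
    | insert a M ha ih =>
      intro hM U hUI hUM
      -- first the rows of `M`, the rest goes to `a`
      set U1 := U.filter (fun y => ∃ m ∈ M, y ∈ Nt m) with hU1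
      set U2 := U.filter (fun y => ¬ ∃ m ∈ M, y ∈ Nt m) with hU2
      have hU12 : U1 ∪ U2 = U := Finset.filter_union_filter_not_eq _ _
      have hdisj : Disjoint U1 U2 := Finset.disjoint_filter_filter_not _ _ _
      have i1 := ih (fun m hm => hM m (Finset.mem_insert_of_mem hm)) U1
        (fun y hy => hUI y (Finset.mem_filter.mp hy).1)
        (fun y hy => (Finset.mem_filter.mp hy).2)
      have hU2a : U2 ⊆ Nt a := by
        intro y hy
        obtain ⟨hy1, hy2⟩ := Finset.mem_filter.mp hy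
        obtain ⟨m, hm, hym⟩ := hUM y hy1
        rcases Finset.mem_insert.mp hm with rfl | hm
        · exact hym
        · exact absurd ⟨m, hm, hym⟩ hy2
      have i2 := h1 a U2 hU2a
      have hd : Disjoint ((An N U1).filter fun r => ∃ m ∈ M, r ∈ Tt m) (An N U2 ∩ Tt a) := by
        rw [Finset.disjoint_left]
        intro r hr hr'
        obtain ⟨-, m, hm, hrm⟩ := Finset.mem_filter.mp hr
        obtain ⟨z, hz, hzr⟩ := mem_An.mp (Finset.mem_inter.mp hr').1
        obtain ⟨hz1, hz2⟩ := Finset.mem_filter.mp hz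
        exact hz2 ⟨m, hm, hX m z r (hM m (Finset.mem_insert_of_mem hm)) (hUI z hz1) hzr hrm⟩
      have hsub : ((An N U1).filter fun r => ∃ m ∈ M, r ∈ Tt m) ∪ (An N U2 ∩ Tt a)
          ⊆ (An N U).filter fun r => ∃ m ∈ insert a M, r ∈ Tt m := by
        intro r hr
        rw [Finset.mem_filter]
        rcases Finset.mem_union.mp hr with hr | hr
        · obtain ⟨hr1, m, hm, hrm⟩ := Finset.mem_filter.mp hr
          exact ⟨An_mono (Finset.filter_subset _ _) hr1, m, Finset.mem_insert_of_mem hm, hrm⟩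
        · obtain ⟨hr1, hr2⟩ := Finset.mem_inter.mp hr
          exact ⟨An_mono (Finset.filter_subset _ _) hr1, a, Finset.mem_insert_self _ _, hr2⟩
      have h3 := wt_mono hw hsub
      rw [wt_union_disj hd] at h3
      have h4 : wt w U = wt w U1 + wt w U2 := by rw [← wt_union_disj hdisj, hU12]
      linarith
  intro U hU
  have h := key (univ.filter fun m => c ∈ N m) (fun m hm => (Finset.mem_filter.mp hm).2) U
    (fun y hy => (hIc y (hU hy)).1)
    (fun y hy => by
      obtain ⟨-, m, hm, hym⟩ := hIc y (hU hy)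
      exact ⟨m, Finset.mem_filter.mpr ⟨Finset.mem_univ _, hm⟩, hym⟩)
  refine h.trans (wt_mono hw ?_)
  intro r hr
  obtain ⟨hr1, m, hm, hrm⟩ := Finset.mem_filter.mp hr
  obtain ⟨z, hz, hzr⟩ := mem_An.mp hr1
  exact Finset.mem_inter.mpr ⟨hr1, hOm m z r (Finset.mem_filter.mp hm).2 (hIc z (hU hz)).1 hzr hrm⟩

/-- **(R)** -/
theorem rgen {V : Type*} [Fintype V] [DecidableEq V] (N : V → Finset V) (w : V → ℝ)
    (hw : ∀ x, 0 ≤ w x) (Nt Tt It Om : V → Finset V)
    (hX : ∀ m c y r, c ∈ N m → y ∈ It c → r ∈ N y → r ∈ Tt m → y ∈ Nt m)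
    (hOm : ∀ m c y r, c ∈ N m → y ∈ It c → r ∈ N y → r ∈ Tt m → r ∈ Om c)
    (h1 : ∀ b, ∀ U ⊆ Nt b, wt w U ≤ wt w (An N U ∩ Tt b))
    (h2 : ∀ y, ∀ U ⊆ (univ.filter fun b => y ∈ Nt b),
      wt w U ≤ wt w ((An N U).filter fun c => y ∈ It c)) :
    ∑ b, w b * wt w (An N (Nt b) ∩ Tt b)
        + ∑ c, w c * wt w ((It c).filter fun y => ∃ b, c ∈ N b ∧ y ∈ Nt b)
      ≤ ∑ b, w b * wt w (Nt b) + ∑ c, w c * wt w (Om c) := by
  classical
  let n := Fintype.card V
  let e : V ≃ Fin n := Fintype.equivFin V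
  -- initial segments
  let seg : Finset V → ℕ → Finset V := fun A k => A.filter fun z => (e z : ℕ) < k
  have hseg : ∀ A k, seg A k ⊆ A := fun A k => Finset.filter_subset _ _
  have hseg0 : ∀ A, seg A 0 = ∅ := fun A => by simp [seg]
  have hsegn : ∀ A, seg A n = A := fun A => by
    apply Finset.filter_true_of_mem; intro z _; exact (e z).2
  have hsegmono : ∀ A k, seg A k ⊆ seg A (k + 1) := by
    intro A k z hz
    obtain ⟨h3, h4⟩ := Finset.mem_filter.mp hz
    exact Finset.mem_filter.mpr ⟨h3, Nat.lt_succ_of_lt h4⟩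
  let X : V → Finset V := fun b => An N (Nt b) ∩ Tt b
  let I : V → Finset V := fun c => (It c).filter fun y => ∃ b, c ∈ N b ∧ y ∈ Nt b
  let O : V → Finset V := fun c =>
    univ.filter fun r => ∃ m y, c ∈ N m ∧ y ∈ It c ∧ r ∈ N y ∧ r ∈ Tt m
  have hOOm : ∀ c, O c ⊆ Om c := by
    intro c r hr
    obtain ⟨-, m, y, h3, h4, h5, h6⟩ := Finset.mem_filter.mp hr
    exact hOm m c y r h3 h4 h5 h6
  have hOmem : ∀ m c y r, c ∈ N m → y ∈ It c → r ∈ N y → r ∈ Tt m → r ∈ O c :=
    fun m c y r h3 h4 h5 h6 => Finset.mem_filter.mpr ⟨Finset.mem_univ _, m, y, h3, h4, h5, h6⟩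
  have hallB : ∀ b, ∀ U ⊆ Nt b, wt w U ≤ wt w (An N U ∩ X b) := by
    intro b U hU
    have : An N U ∩ X b = An N U ∩ Tt b := by
      ext r; simp only [X, Finset.mem_inter]
      constructor
      · rintro ⟨h3, -, h4⟩; exact ⟨h3, h4⟩
      · rintro ⟨h3, h4⟩; exact ⟨h3, An_mono hU h3, h4⟩
    rw [this]; exact h1 b U hU
  have hallC : ∀ c, ∀ U ⊆ I c, wt w U ≤ wt w (An N U ∩ O c) := by
    intro c
    apply hall_up hw (c := c) Nt Tt It (fun m y r => hX m c y r) (fun m y r => hOmem m c y r)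
    · intro y hy
      exact Finset.mem_filter.mp hy
    · exact h1
  let G : V → ℕ → ℝ := fun b k =>
    MF N w (Nt b) (X b) (seg (Nt b) (k + 1)) - MF N w (Nt b) (X b) (seg (Nt b) k)
  let H : V → ℕ → ℝ := fun c k =>
    MF N w (I c) (O c) (seg (I c) (k + 1)) - MF N w (I c) (O c) (seg (I c) k)
  have hG0 : ∀ b k, 0 ≤ G b k := fun b k =>
    sub_nonneg.mpr (MF_mono (hsegmono _ _) (hseg _ _))
  have hH0 : ∀ b k, 0 ≤ H b k := fun b k =>
    sub_nonneg.mpr (MF_mono (hsegmono _ _) (hseg _ _))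
  have hsucc_not : ∀ (A : Finset V) (y : V), y ∉ A → seg A ((e y : ℕ) + 1) = seg A (e y) := by
    intro A y hy
    ext z
    simp only [seg, Finset.mem_filter]
    constructor
    · rintro ⟨h3, h4⟩
      refine ⟨h3, lt_of_le_of_ne (Nat.lt_succ_iff.mp h4) ?_⟩
      intro h5
      have : z = y := e.injective (Fin.ext h5)
      exact hy (this ▸ h3)
    · rintro ⟨h3, h4⟩; exact ⟨h3, Nat.lt_succ_of_lt h4⟩
  have hsucc_mem : ∀ (A : Finset V) (y : V), y ∈ A →
      seg A ((e y : ℕ) + 1) = insert y (seg A (e y)) := by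
    intro A y hy
    ext z
    simp only [seg, Finset.mem_filter, Finset.mem_insert]
    constructor
    · rintro ⟨h3, h4⟩
      rcases (Nat.lt_succ_iff.mp h4).lt_or_eq with h5 | h5
      · exact Or.inr ⟨h3, h5⟩
      · exact Or.inl (e.injective (Fin.ext h5))
    · rintro (rfl | ⟨h3, h4⟩)
      · exact ⟨hy, Nat.lt_succ_self _⟩
      · exact ⟨h3, Nat.lt_succ_of_lt h4⟩
  have hcol : ∀ y : V, ∑ b, w b * G b (e y) ≤ ∑ c, w c * H c (e y) := by
    intro y
    refine layer hw (fun b => (N b).filter fun c => y ∈ It c) (univ.filter fun b => y ∈ Nt b)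
      ?_ _ (fun b => G b (e y)) (fun c => H c (e y)) (fun b => hG0 b _) (fun c => hH0 c _)
      ?_ ?_ rfl
    · intro U hU
      refine (h2 y U hU).trans (wt_mono hw ?_)
      intro c hc
      obtain ⟨h3, h4⟩ := Finset.mem_filter.mp hc
      obtain ⟨b, hb, hbc⟩ := mem_An.mp h3
      exact Finset.mem_biUnion.mpr ⟨b, hb, Finset.mem_filter.mpr ⟨hbc, h4⟩⟩
    · intro b hb
      have hb' : y ∉ Nt b := fun h => hb (Finset.mem_filter.mpr ⟨Finset.mem_univ _, h⟩)
      simp only [G, hsucc_not _ _ hb', sub_self]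
    · intro m hm c hc
      have hy : y ∈ Nt m := (Finset.mem_filter.mp hm).2
      obtain ⟨hcm, hyc⟩ := Finset.mem_filter.mp hc
      have hyI : y ∈ I c := Finset.mem_filter.mpr ⟨hyc, m, hcm, hy⟩
      simp only [G, H, hsucc_mem _ _ hy, hsucc_mem _ _ hyI]
      refine compare hw (hseg _ _) (hseg _ _) hy hyI ?_ ?_ ?_
      · intro z hz hzA
        exact Finset.mem_filter.mpr ⟨hzA, (Finset.mem_filter.mp hz).2⟩
      · intro z hz r hr hzr
        exact hX m c z r hcm (Finset.mem_filter.mp hz).1 hzr (Finset.mem_inter.mp hr).2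
      · intro z hz r hr hzr
        exact hOmem m c z r hcm (Finset.mem_filter.mp hz).1 hzr (Finset.mem_inter.mp hr).2
  -- telescoping
  have htelG : ∀ b, ∑ y : V, G b (e y) = wt w (X b) - wt w (Nt b) := by
    intro b
    have h3 : ∑ y : V, G b (e y) = ∑ i : Fin n, G b i :=
      Equiv.sum_comp e (fun i : Fin n => G b i)
    rw [h3, Fin.sum_univ_eq_sum_range (fun k => G b k) n]
    simp only [G]
    rw [Finset.sum_range_sub (fun k => MF N w (Nt b) (X b) (seg (Nt b) k)) n, hsegn, hseg0,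
      MF_top, MF_bot (hallB b)]
    have : An N (Nt b) ∩ X b = X b := by
      ext r; simp only [X, Finset.mem_inter]; tauto
    rw [this]
  have htelH : ∀ c, ∑ y : V, H c (e y) = wt w (O c) - wt w (I c) := by
    intro c
    have h3 : ∑ y : V, H c (e y) = ∑ i : Fin n, H c i :=
      Equiv.sum_comp e (fun i : Fin n => H c i)
    rw [h3, Fin.sum_univ_eq_sum_range (fun k => H c k) n]
    simp only [H]
    rw [Finset.sum_range_sub (fun k => MF N w (I c) (O c) (seg (I c) k)) n, hsegn, hseg0,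
      MF_top, MF_bot (hallC c)]
    have : An N (I c) ∩ O c = O c := by
      apply Finset.inter_eq_right.mpr
      intro r hr
      obtain ⟨-, m, y, h4, h5, h6, h7⟩ := Finset.mem_filter.mp hr
      exact mem_An.mpr ⟨y, Finset.mem_filter.mpr ⟨h5, m, h4, hX m c y r h4 h5 h6 h7⟩, h6⟩
    rw [this]
  have hsum : ∑ y : V, ∑ b, w b * G b (e y) ≤ ∑ y : V, ∑ c, w c * H c (e y) :=
    Finset.sum_le_sum fun y _ => hcol y
  rw [Finset.sum_comm, Finset.sum_comm (f := fun y c => w c * H c (e y))] at hsum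
  simp only [← Finset.mul_sum, htelG, htelH, mul_sub, Finset.sum_sub_distrib] at hsum
  have hO : ∑ c, w c * wt w (O c) ≤ ∑ c, w c * wt w (Om c) :=
    Finset.sum_le_sum fun c _ => mul_le_mul_of_nonneg_left (wt_mono hw (hOOm c)) (hw c)
  simp only [X, I] at hsum
  linarith

end Crest.Agent.R057.Rgen208
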