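import Crest.Agent.R057.Board_172
import Crest.Agent.R057.Rgen_208

set_option autoImplicit false

namespace Crest.Agent.R057.Glue203

open Finset Crest.Agent.R057.Cg765 Crest.Agent.R057.Bd172

variable {V : Type} [Fintype V] [DecidableEq V]

theorem rineq : RIneq V := by
  classical
  intro w hw N Nt QQ TT c1 c2 hX h4 h5
  have h := Crest.Agent.R057.Rgen208.rgen N w hw (fun b => rw' Nt b) (fun b => rw' TT b)
    (fun c => rw' QQ c)
    (fun c => rw' (Finset.univ.filter fun c : V × V =>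
      (∃ y', c.2 ∈ N y' ∧ (c.1, y') ∈ QQ) ∧ ∃ b', c.1 ∈ N b' ∧ (b', c.2) ∈ TT) c)
    ?_ ?_ ?_ ?_
  · rw [mu_rows QQ, mu_rows TT, mu_rows Nt, mu_rows]
    have e1 : ∀ b, An N (rw' Nt b) ∩ rw' TT b = rw' TT b := by
      intro b
      apply Finset.inter_eq_right.mpr
      intro y hy
      obtain ⟨z, hz, hz'⟩ := c1 b y (mem_rw'.mp hy)
      exact mem_An.mpr ⟨z, mem_rw'.mpr hz', hz⟩
    have e2 : ∀ c, ((rw' QQ c).filter fun y => ∃ b, c ∈ N b ∧ y ∈ rw' Nt b) = rw' QQ c := by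
      intro c
      apply Finset.filter_true_of_mem
      intro y hy
      obtain ⟨m, hm, hm'⟩ := c2 c y (mem_rw'.mp hy)
      exact ⟨m, hm, mem_rw'.mpr hm'⟩
    simp only [e1, e2] at h
    linarith
  · intro m c y r hc hy hr hT
    exact mem_rw'.mpr (hX c m r y (mem_rw'.mp hT) (mem_rw'.mp hy) hc hr)
  · intro m c y r hc hy hr hT
    refine mem_rw'.mpr (Finset.mem_filter.mpr ⟨Finset.mem_univ _, ⟨y, hr, mem_rw'.mp hy⟩, m, hc, mem_rw'.mp hT⟩)
  · intro b U hU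
    refine (h4 b U (fun x hx => mem_rw'.mp (hU hx))).trans (wt_mono hw ?_)
    intro y hy
    obtain ⟨_, hy1, x, hx, hyx⟩ := Finset.mem_filter.mp hy
    exact Finset.mem_inter.mpr ⟨mem_An.mpr ⟨x, hx, hyx⟩, mem_rw'.mpr hy1⟩
  · intro y U hU
    refine (h5 y U (fun x hx => mem_rw'.mp (Finset.mem_filter.mp (hU hx)).2)).trans (wt_mono hw ?_)
    intro b hb
    obtain ⟨_, hb1, x, hx, hbx⟩ := Finset.mem_filter.mp hb
    exact Finset.mem_filter.mpr ⟨mem_An.mpr ⟨x, hx, hbx⟩, mem_rw'.mpr hb1⟩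

end Crest.Agent.R057.Glue203
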