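import Crest.Agent.R057.Board_172
import Crest.Agent.R057.Rgen_208

/-!
# R057 (S0079): glue between the board part (helper172) and the counting inequality (helper208)
-/

set_option autoImplicit false

namespace Crest.Agent.R057.Glue462

open Finset Crest.Agent.R057.Cg765 Crest.Agent.R057.Bd172

theorem rineq (V : Type) [Fintype V] [DecidableEq V] : RIneq V := by
  intro w hw N Nt QQ TT h1 h2 h3 h4 h5
  set Om : Finset (V × V) := Finset.univ.filter fun c : V × V =>
      (∃ y', c.2 ∈ N y' ∧ (c.1, y') ∈ QQ) ∧ ∃ b', c.1 ∈ N b' ∧ (b', c.2) ∈ TT with hOmdef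
  have key := Rgen208.rgen N w hw (rw' Nt) (rw' TT) (rw' QQ) (rw' Om)
    (fun m c y r hc hy hr ht => mem_rw'.mpr (h3 c m r y (mem_rw'.mp ht) (mem_rw'.mp hy) hc hr))
    (fun m c y r hc hy hr ht => mem_rw'.mpr (by
      rw [hOmdef, Finset.mem_filter]
      exact ⟨Finset.mem_univ _, ⟨y, hr, mem_rw'.mp hy⟩, ⟨m, hc, mem_rw'.mp ht⟩⟩))
    (fun b U hU => by
      refine (h4 b U (fun x hx => mem_rw'.mp (hU hx))).trans (le_of_eq ?_)
      congr 1
      ext y
      simp only [Finset.mem_filter, Finset.mem_univ, true_and, Finset.mem_inter, mem_An, mem_rw']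
      tauto)
    (fun y U hU => by
      refine (h5 y U (fun x hx => mem_rw'.mp (Finset.mem_filter.mp (hU hx)).2)).trans
        (le_of_eq ?_)
      congr 1
      ext b
      simp only [Finset.mem_filter, Finset.mem_univ, true_and, mem_An, mem_rw']
      tauto)
  have e1 : ∀ b, An N (rw' Nt b) ∩ rw' TT b = rw' TT b := by
    intro b
    rw [Finset.inter_eq_right]
    intro y hy
    obtain ⟨z, hz, hz'⟩ := h1 b y (mem_rw'.mp hy)
    exact mem_An.mpr ⟨z, mem_rw'.mpr hz', hz⟩
  have e2 : ∀ c, ((rw' QQ c).filter fun y => ∃ b, c ∈ N b ∧ y ∈ rw' Nt b) = rw' QQ c := by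
    intro c
    rw [Finset.filter_eq_self]
    intro y hy
    obtain ⟨m, hm, hm'⟩ := h2 c y (mem_rw'.mp hy)
    exact ⟨m, hm, mem_rw'.mpr hm'⟩
  simp only [e1, e2] at key
  rw [mu_rows QQ, mu_rows TT, mu_rows Nt, mu_rows Om]
  linarith

end Crest.Agent.R057.Glue462
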