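import Crest.Agent.R057.Cg1_765

/-!
# R057 (S0079): Lemma K (helper742) = inequality (R), by induction on the neutral cells

`N` arbitrary (closed neighbourhoods), `In b` = index set of the vertical erosion at `b`.
-/

set_option autoImplicit false
set_option linter.unusedSectionVars false

namespace Crest.Agent.R057.LemK742

open Finset Crest.Agent.R057.Cg765

variable {V : Type*} [Fintype V] [DecidableEq V]

/-- vertical erosion -/
def er (In : V → Finset V) (P : V → Finset V) (b : V) : Finset V :=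
  univ.filter fun y => ∀ m ∈ In b, y ∈ P m

/-- `f_s(X) = w(N[X]) - s w(X)` -/
def ff (N : V → Finset V) (w : V → ℝ) (s : ℝ) (X : Finset V) : ℝ :=
  wt w (An N X) - s * wt w X

variable {N In : V → Finset V} {w : V → ℝ}

lemma mem_er {P : V → Finset V} {b y : V} : y ∈ er In P b ↔ ∀ m ∈ In b, y ∈ P m := by
  simp [er]

lemma wt_modular (X Y : Finset V) : wt w (X ∪ Y) + wt w (X ∩ Y) = wt w X + wt w Y :=
  Finset.sum_union_inter

lemma ff_submod (hw : ∀ x, 0 ≤ w x) (s : ℝ) (X Y : Finset V) :
    ff N w s (X ∪ Y) + ff N w s (X ∩ Y) ≤ ff N w s X + ff N w s Y := by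
  have h1 := wt_modular (w := w) X Y
  have h2 := wt_modular (w := w) (An N X) (An N Y)
  have h3 : An N (X ∪ Y) = An N X ∪ An N Y := An_union X Y
  have h4 : wt w (An N (X ∩ Y)) ≤ wt w (An N X ∩ An N Y) :=
    wt_mono hw (Finset.subset_inter (An_mono Finset.inter_subset_left)
      (An_mono Finset.inter_subset_right))
  have h5 : s * wt w (X ∪ Y) + s * wt w (X ∩ Y) = s * wt w X + s * wt w Y := by
    rw [← mul_add, ← mul_add, h1]
  unfold ff
  rw [h3]
  linarith

/-- the key step: erosions of row-minimisers are minimisers -/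
lemma key (hw : ∀ x, 0 ≤ w x) {s : ℝ} {P B : V → Finset V}
    (row : ∀ m, ∀ L, P m ⊆ L → L ⊆ B m → ff N w s (P m) ≤ ff N w s L)
    (b : V) (X : Finset V) (hX1 : er In P b ⊆ X) (hX2 : X ⊆ er In B b)
    (hPB : ∀ m, P m ⊆ B m) :
    ff N w s (er In P b) ≤ ff N w s X := by
  have main : ∀ M : Finset V, M ⊆ In b →
      ff N w s (X.filter fun y => ∀ m ∈ M, y ∈ P m) ≤ ff N w s X := by
    intro M
    induction M using Finset.induction_on with
    | empty => intro _; simp
    | insert a M ha ih =>
      intro hM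
      have ih' := ih ((Finset.subset_insert a M).trans hM)
      have haI : a ∈ In b := hM (Finset.mem_insert_self a M)
      set X' := X.filter fun y => ∀ m ∈ M, y ∈ P m with hX'
      have h1 : (X.filter fun y => ∀ m ∈ insert a M, y ∈ P m) = X' ∩ P a := by
        ext y
        simp only [hX', Finset.mem_filter, Finset.mem_inter, Finset.mem_insert, forall_eq_or_imp]
        tauto
      rw [h1]
      have h2 := ff_submod (N := N) hw s X' (P a)
      have h3 : X' ∪ P a ⊆ B a := by
        apply Finset.union_subset _ (hPB a)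
        intro y hy
        exact mem_er.mp (hX2 (Finset.mem_of_mem_filter y hy)) a haI
      have h4 := row a (X' ∪ P a) Finset.subset_union_right h3
      linarith
  have h := main (In b) (le_refl _)
  have h1 : (X.filter fun y => ∀ m ∈ In b, y ∈ P m) = er In P b := by
    ext y
    simp only [Finset.mem_filter, mem_er]
    exact ⟨fun h => h.2, fun h => ⟨hX1 (mem_er.mpr h), h⟩⟩
  rwa [h1] at h

/-- **Lemma K**. -/
theorem lemK (hw : ∀ x, 0 < w x) (B : V → Finset V) :
    ∀ n : ℕ, ∀ P : V → Finset V, ∑ m, (B m \ P m).card = n → (∀ m, P m ⊆ B m) → ∀ s : ℝ,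
      (∀ m, ∀ L, P m ⊆ L → L ⊆ B m → ff N w s (P m) ≤ ff N w s L) →
      (∀ P' : V → Finset V, (∀ m, P m ⊆ P' m) → (∀ m, P' m ⊆ B m) →
        ∑ m, w m * (wt w (B m) - wt w (P' m)) ≤
          ∑ b, w b * (wt w (er In B b) - wt w (er In P' b))) →
      s * (∑ b, w b * (wt w (er In B b) - wt w (er In P b))
          - ∑ m, w m * (wt w (B m) - wt w (P m))) ≤
        ∑ b, w b * (wt w (An N (er In B b)) - wt w (An N (er In P b)))
          - ∑ m, w m * (wt w (An N (B m)) - wt w (An N (P m))) := by
  classical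
  have hw0 : ∀ x, 0 ≤ w x := fun x => (hw x).le
  intro n
  induction n using Nat.strong_induction_on with
  | _ n ih =>
  intro P hn hPB s row col
  by_cases hall : ∀ m, P m = B m
  · have : P = B := funext hall
    subst this
    simp
  push Not at hall
  obtain ⟨m1, hm1⟩ := hall
  -- candidates
  let C : Finset (V × Finset V) :=
    univ.filter fun q => P q.1 ⊆ q.2 ∧ q.2 ⊆ B q.1 ∧ P q.1 ≠ q.2
  let ratio : V × Finset V → ℝ := fun q =>
    (wt w (An N q.2) - wt w (An N (P q.1))) / (wt w q.2 - wt w (P q.1))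
  have hC : C.Nonempty := ⟨(m1, B m1), by simp [C, hPB m1, hm1]⟩
  obtain ⟨⟨m0, L0⟩, hq, hmin⟩ := Finset.exists_min_image C ratio hC
  have hq' : P m0 ⊆ L0 ∧ L0 ⊆ B m0 ∧ P m0 ≠ L0 := by
    have := hq; simp only [C, Finset.mem_filter, Finset.mem_univ, true_and] at this; exact this
  obtain ⟨hPL, hLB, hPLne⟩ := hq'
  have hpos : ∀ X Y : Finset V, X ⊆ Y → X ≠ Y → 0 < wt w Y - wt w X := by
    intro X Y h1 h2
    have h3 : (Y \ X).Nonempty := by
      rw [Finset.sdiff_nonempty]; intro h; exact h2 (Finset.Subset.antisymm h1 h)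
    have h4 := wt_sdiff_of_subset (w := w) h1
    have h5 : 0 < wt w (Y \ X) := Finset.sum_pos (fun x _ => hw x) h3
    linarith
  set t : ℝ := ratio (m0, L0) with ht
  have hd0 := hpos _ _ hPL hPLne
  have ht0 : wt w (An N L0) - wt w (An N (P m0)) = t * (wt w L0 - wt w (P m0)) := by
    rw [ht]; simp only [ratio]; field_simp
  have hst : s ≤ t := by
    have h1 := row m0 L0 hPL hLB
    unfold ff at h1
    by_contra hc
    push Not at hc
    have : t * (wt w L0 - wt w (P m0)) < s * (wt w L0 - wt w (P m0)) :=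
      mul_lt_mul_of_pos_right hc hd0
    nlinarith
  have rowt : ∀ m, ∀ L, P m ⊆ L → L ⊆ B m → ff N w t (P m) ≤ ff N w t L := by
    intro m L h1 h2
    by_cases h3 : P m = L
    · rw [h3]
    · have h4 : t ≤ ratio (m, L) := hmin (m, L) (by simp [C, h1, h2, h3])
      have h5 := hpos _ _ h1 h3
      have h6 : t * (wt w L - wt w (P m)) ≤ wt w (An N L) - wt w (An N (P m)) := by
        simp only [ratio] at h4
        rwa [le_div_iff₀ h5] at h4
      unfold ff; nlinarith
  let P' : V → Finset V := Function.update P m0 L0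
  have hP'0 : P' m0 = L0 := by simp [P']
  have hP'1 : ∀ m, m ≠ m0 → P' m = P m := fun m hm => by simp [P', hm]
  have hPP' : ∀ m, P m ⊆ P' m := by
    intro m; by_cases hm : m = m0
    · subst hm; rw [hP'0]; exact hPL
    · rw [hP'1 m hm]
  have hP'B : ∀ m, P' m ⊆ B m := by
    intro m; by_cases hm : m = m0
    · subst hm; rw [hP'0]; exact hLB
    · rw [hP'1 m hm]; exact hPB m
  have heq : ∀ m, wt w (An N (P' m)) - wt w (An N (P m)) = t * (wt w (P' m) - wt w (P m)) := by
    intro m; by_cases hm : m = m0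
    · subst hm; rw [hP'0]; exact ht0
    · rw [hP'1 m hm]; ring
  have row' : ∀ m, ∀ L, P' m ⊆ L → L ⊆ B m → ff N w t (P' m) ≤ ff N w t L := by
    intro m L h1 h2
    have h3 := rowt m L ((hPP' m).trans h1) h2
    have h4 : ff N w t (P' m) = ff N w t (P m) := by
      have := heq m; unfold ff; linarith
    rw [h4]; exact h3
  have hlt : ∑ m, (B m \ P' m).card < n := by
    rw [← hn]
    refine Finset.sum_lt_sum (fun m _ => Finset.card_le_card
      (Finset.sdiff_subset_sdiff (le_refl _) (hPP' m))) ⟨m0, Finset.mem_univ _, ?_⟩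
    apply Finset.card_lt_card
    rw [Finset.ssubset_iff_of_subset (Finset.sdiff_subset_sdiff (le_refl _) (hPP' m0))]
    have h3 : (L0 \ P m0).Nonempty := by
      rw [Finset.sdiff_nonempty]; intro h; exact hPLne (Finset.Subset.antisymm hPL h)
    obtain ⟨x, hx⟩ := h3
    rw [Finset.mem_sdiff] at hx
    exact ⟨x, Finset.mem_sdiff.mpr ⟨hLB hx.1, hx.2⟩,
      fun h => (Finset.mem_sdiff.mp h).2 (by rw [hP'0]; exact hx.1)⟩
  have IH := ih _ hlt P' rfl hP'B t row'
    (fun P'' h1 h2 => col P'' (fun m => (hPP' m).trans (h1 m)) h2)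
  have herB : ∀ b, er In P' b ⊆ er In B b := fun b y hy =>
    mem_er.mpr fun m hm => hP'B m (mem_er.mp hy m hm)
  have herP : ∀ b, er In P b ⊆ er In P' b := fun b y hy =>
    mem_er.mpr fun m hm => hPP' m (mem_er.mp hy m hm)
  have hk : ∀ b, t * (wt w (er In P' b) - wt w (er In P b)) ≤
      wt w (An N (er In P' b)) - wt w (An N (er In P b)) := by
    intro b
    have := key hw0 rowt b (er In P' b) (herP b) (herB b) hPB
    unfold ff at this; linarith
  have hk' : t * ∑ b, w b * (wt w (er In P' b) - wt w (er In P b)) ≤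
      ∑ b, w b * (wt w (An N (er In P' b)) - wt w (An N (er In P b))) := by
    rw [Finset.mul_sum]
    refine Finset.sum_le_sum fun b _ => ?_
    have := mul_le_mul_of_nonneg_left (hk b) (hw0 b)
    linarith
  have hm' : t * ∑ m, w m * (wt w (P' m) - wt w (P m)) =
      ∑ m, w m * (wt w (An N (P' m)) - wt w (An N (P m))) := by
    rw [Finset.mul_sum]
    refine Finset.sum_congr rfl fun m _ => ?_
    rw [heq m]; ring
  have e1 : ∀ (F G H : V → ℝ), ∑ b, w b * (F b - H b) =
      ∑ b, w b * (F b - G b) + ∑ b, w b * (G b - H b) := by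
    intro F G H
    rw [← Finset.sum_add_distrib]
    exact Finset.sum_congr rfl fun b _ => by ring
  rw [e1 (fun b => wt w (An N (er In B b))) (fun b => wt w (An N (er In P' b)))
      (fun b => wt w (An N (er In P b))),
    e1 (fun b => wt w (An N (B b))) (fun b => wt w (An N (P' b))) (fun b => wt w (An N (P b)))]
  have hcol := col P (fun _ => le_refl _) hPB
  have e2 := e1 (fun b => wt w (er In B b)) (fun b => wt w (er In P' b))
      (fun b => wt w (er In P b))
  have e3 := e1 (fun b => wt w (B b)) (fun b => wt w (P' b)) (fun b => wt w (P b))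

  set a := ∑ b, w b * (wt w (er In B b) - wt w (er In P b))
  set c := ∑ b, w b * (wt w (B b) - wt w (P b))
  have h9 : s * (a - c) ≤ t * (a - c) :=
    mul_le_mul_of_nonneg_right hst (by linarith)
  have h10 : t * (a - c) =
      t * (∑ b, w b * (wt w (er In B b) - wt w (er In P' b))
        - ∑ m, w m * (wt w (B m) - wt w (P' m)))
      + t * ∑ b, w b * (wt w (er In P' b) - wt w (er In P b))
      - t * ∑ m, w m * (wt w (P' m) - wt w (P m)) := by
    rw [e2, e3]; ring
  linarith

end Crest.Agent.R057.LemK742
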