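import Crest.Agent.R057.Cg3_765

/-!
# R057 (S0079): the local inequality (helper204)

`Nc c S` = closed out-neighbourhood of `S` (`c x` = closed out-neighbourhood of `x`), `Ic c P` =
columnwise erosion of the cell set with rows `P b`.  `mu u v P = ∑ u b * v(P b)`.

Main result `main_ineq`: if `P ≤ P'` satisfy the two Hall conditions then
`mu(HP') - mu(HP) + mu(IP') - mu(IP) ≤ mu(P') - mu(P) + mu(HIP') - mu(HIP)`.
-/

set_option autoImplicit false
set_option linter.unusedSectionVars false

namespace Crest.Agent.R057.Snc204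

open Finset Crest.Agent.R057.Cg765

variable {V : Type} [Fintype V] [DecidableEq V]

/-- closed out-neighbourhood of a set -/
def Nc (c : V → Finset V) (S : Finset V) : Finset V := S.biUnion c

/-- erosion -/
def Ic (c : V → Finset V) (P : V → Finset V) (b : V) : Finset V :=
  univ.filter fun y => ∀ m, b ∈ c m → y ∈ P m

/-- product measure of a cell set given by its rows -/
def mu (u v : V → ℝ) (P : V → Finset V) : ℝ := ∑ b, u b * wt v (P b)

lemma mem_Nc {c : V → Finset V} {S : Finset V} {y : V} : y ∈ Nc c S ↔ ∃ x ∈ S, y ∈ c x := by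
  simp [Nc]

lemma mem_Ic {c : V → Finset V} {P : V → Finset V} {b y : V} :
    y ∈ Ic c P b ↔ ∀ m, b ∈ c m → y ∈ P m := by
  simp [Ic]

lemma Nc_mono {c : V → Finset V} {S T : Finset V} (h : S ⊆ T) : Nc c S ⊆ Nc c T :=
  Finset.biUnion_subset_biUnion_of_subset_left c h

lemma Ic_mono {c : V → Finset V} {P P' : V → Finset V} (h : ∀ b, P b ⊆ P' b) (b : V) :
    Ic c P b ⊆ Ic c P' b := by
  intro y hy
  rw [mem_Ic] at hy ⊢
  exact fun m hm => h m (hy m hm)

/-- the two ways of computing the measure of a cell set -/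
lemma mu_swap (u v : V → ℝ) (P : V → Finset V) :
    mu u v P = ∑ y, v y * wt u (univ.filter fun b => y ∈ P b) := by
  have h1 : ∀ b, u b * wt v (P b) = ∑ y, if y ∈ P b then u b * v y else 0 := by
    intro b
    rw [wt, Finset.mul_sum, ← Finset.sum_filter]
    congr 1; ext y; simp
  have h2 : ∀ y, v y * wt u (univ.filter fun b => y ∈ P b)
      = ∑ b, if y ∈ P b then u b * v y else 0 := by
    intro y
    rw [wt, Finset.mul_sum, ← Finset.sum_filter]
    apply Finset.sum_congr rfl; intro b _; ring
  simp only [mu, h1, h2]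
  rw [Finset.sum_comm]

/-- Hall condition for rows -/
def HallA (c : V → Finset V) (P P' : V → Finset V) (w v : V → ℝ) : Prop :=
  ∀ b, ∀ M ⊆ P' b \ P b, wt w M ≤ wt v (Nc c (P b ∪ M) \ Nc c (P b))

/-- Hall condition for columns -/
def HallB (c : V → Finset V) (P P' : V → Finset V) (u : V → ℝ) : Prop :=
  ∀ y, ∀ M : Finset V, (∀ b ∈ M, y ∈ P' b \ P b) →
    wt u M ≤ wt u (univ.filter fun b' => y ∈ Ic c P' b' ∧ ∃ b ∈ M, b' ∈ c b)

section L1

variable {c : V → Finset V} {P P' : V → Finset V} {u : V → ℝ}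

/-- **Lemma 1** (column form). -/
lemma lemma1 (hu : ∀ x, 0 ≤ u x) (hB : HallB c P P' u) (y' : V) :
    wt u (univ.filter fun b => y' ∈ Nc c (P' b) \ Nc c (P b))
      ≤ wt u (univ.filter fun b' => y' ∈ Nc c (Ic c P' b') \ Nc c (Ic c P b')) := by
  set M : Finset V := univ.filter fun b => y' ∈ Nc c (P' b) \ Nc c (P b) with hM
  have hMmem : ∀ b, b ∈ M ↔ (∃ y ∈ P' b, y' ∈ c y) ∧ ∀ y ∈ P b, y' ∉ c y := by
    intro b
    simp only [hM, Finset.mem_filter, Finset.mem_univ, true_and, Finset.mem_sdiff, mem_Nc]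
    push Not
    rfl
  have key : ∀ B0 : Finset V, (∀ y ∈ B0, y' ∈ c y) →
      wt u (M.filter fun b => ∃ y ∈ B0, y ∈ P' b)
        ≤ wt u (univ.filter fun b' => (∃ y ∈ B0, y ∈ Ic c P' b') ∧ ∃ b ∈ M, b' ∈ c b) := by
    intro B0
    induction B0 using Finset.induction_on with
    | empty => intro _; simp
    | insert y B0 hy ih =>
      intro hB0
      have ih' := ih (fun z hz => hB0 z (Finset.mem_insert_of_mem hz))
      have hyc : y' ∈ c y := hB0 y (Finset.mem_insert_self _ _)
      set D : Finset V := M.filter fun b => (∀ z ∈ B0, z ∉ P' b) ∧ y ∈ P' b with hD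
      have hHall := hB y D (by
        intro b hb
        rw [hD, Finset.mem_filter] at hb
        rw [Finset.mem_sdiff]
        exact ⟨hb.2.2, fun h => ((hMmem b).mp hb.1).2 y h hyc⟩)
      have e1 : (M.filter fun b => ∃ z ∈ insert y B0, z ∈ P' b)
          = (M.filter fun b => ∃ z ∈ B0, z ∈ P' b) ∪ D := by
        ext b
        simp only [hD, Finset.mem_filter, Finset.mem_union, Finset.mem_insert]
        constructor
        · rintro ⟨h1, z, hz, h2⟩
          by_cases h3 : ∃ z ∈ B0, z ∈ P' b
          · exact Or.inl ⟨h1, h3⟩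
          · push Not at h3
            rcases hz with rfl | hz
            · exact Or.inr ⟨h1, h3, h2⟩
            · exact absurd h2 (h3 z hz)
        · rintro (⟨h1, z, hz, h2⟩ | ⟨h1, _, h2⟩)
          · exact ⟨h1, z, Or.inr hz, h2⟩
          · exact ⟨h1, y, Or.inl rfl, h2⟩
      have d1 : Disjoint (M.filter fun b => ∃ z ∈ B0, z ∈ P' b) D := by
        rw [Finset.disjoint_left]
        intro b hb hb'
        simp only [hD, Finset.mem_filter] at hb hb'
        obtain ⟨_, z, hz, h2⟩ := hb
        exact hb'.2.1 z hz h2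
      set G1 : Finset V := univ.filter fun b' => (∃ z ∈ B0, z ∈ Ic c P' b') ∧ ∃ b ∈ M, b' ∈ c b
        with hG1
      set G2 : Finset V := univ.filter fun b' => y ∈ Ic c P' b' ∧ ∃ b ∈ D, b' ∈ c b with hG2
      have d2 : Disjoint G1 G2 := by
        rw [Finset.disjoint_left]
        intro b' hb hb'
        simp only [hG1, hG2, Finset.mem_filter, Finset.mem_univ, true_and] at hb hb'
        obtain ⟨⟨z, hz, h1⟩, _⟩ := hb
        obtain ⟨_, b, hbD, hbc⟩ := hb'
        rw [hD, Finset.mem_filter] at hbD
        exact hbD.2.1 z hz (mem_Ic.mp h1 b hbc)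
      have s : G1 ∪ G2 ⊆ univ.filter fun b' => (∃ z ∈ insert y B0, z ∈ Ic c P' b') ∧
          ∃ b ∈ M, b' ∈ c b := by
        intro b' hb
        rw [Finset.mem_union] at hb
        simp only [hG1, hG2, Finset.mem_filter, Finset.mem_univ, true_and,
          Finset.mem_insert] at hb ⊢
        rcases hb with ⟨⟨z, hz, h1⟩, h2⟩ | ⟨h1, b, hbD, hbc⟩
        · exact ⟨⟨z, Or.inr hz, h1⟩, h2⟩
        · rw [hD, Finset.mem_filter] at hbD
          exact ⟨⟨y, Or.inl rfl, h1⟩, b, hbD.1, hbc⟩
      have h4 := wt_mono hu s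
      rw [wt_union_disj d2] at h4
      rw [e1, wt_union_disj d1]
      linarith
  have hB' := key (univ.filter fun y => y' ∈ c y) (by intro y hy; simpa using hy)
  refine (wt_mono hu ?_).trans (hB'.trans (wt_mono hu ?_))
  · intro b hb
    rw [Finset.mem_filter]
    obtain ⟨⟨y, h1, h2⟩, _⟩ := (hMmem b).mp hb
    exact ⟨hb, y, by simpa using h2, h1⟩
  intro b' hb
  simp only [Finset.mem_filter, Finset.mem_univ, true_and, Finset.mem_sdiff, mem_Nc] at hb ⊢
  obtain ⟨⟨y, h1, h2⟩, b, hbM, hbc⟩ := hb
  refine ⟨⟨y, h2, h1⟩, ?_⟩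
  rintro ⟨z, hz, hzc⟩
  exact ((hMmem b).mp hbM).2 z (mem_Ic.mp hz b hbc) hzc

/-- **Lemma 1** (measure form). -/
lemma lemma1' (hu : ∀ x, 0 ≤ u x) (hPP : ∀ b, P b ⊆ P' b) (hB : HallB c P P' u) {v : V → ℝ}
    (hv : ∀ x, 0 ≤ v x) :
    mu u v (fun b => Nc c (P' b)) - mu u v (fun b => Nc c (P b))
      ≤ mu u v (fun b => Nc c (Ic c P' b)) - mu u v (fun b => Nc c (Ic c P b)) := by
  have gen : ∀ Q Q' : V → Finset V, (∀ b, Q b ⊆ Q' b) →
      mu u v Q' - mu u v Q = ∑ y, v y * wt u (univ.filter fun b => y ∈ Q' b \ Q b) := by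
    intro Q Q' h
    rw [mu_swap, mu_swap, ← Finset.sum_sub_distrib]
    apply Finset.sum_congr rfl
    intro y _
    rw [← mul_sub]
    congr 1
    have e : (univ.filter fun b => y ∈ Q' b \ Q b)
        = (univ.filter fun b => y ∈ Q' b) \ (univ.filter fun b => y ∈ Q b) := by
      ext b; simp
    rw [e, wt_sdiff_of_subset]
    intro b hb
    simp only [Finset.mem_filter, Finset.mem_univ, true_and] at hb ⊢
    exact h b hb
  rw [gen _ _ (fun b => Nc_mono (hPP b)), gen _ _ (fun b => Nc_mono (Ic_mono hPP b))]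
  apply Finset.sum_le_sum
  intro y _
  exact mul_le_mul_of_nonneg_left (lemma1 hu hB y) (hv y)

end L1

section L2

variable {c : V → Finset V} {P P' : V → Finset V} {w v : V → ℝ}

/-- **Lemma 3**: for a one-row extension the `I`-gain is at most the `HI`-gain. -/
lemma lemma3 (hv : ∀ x, 0 ≤ v x) (hA : HallA c P P' w v) {b0 : V} {M : Finset V}
    (hM : M ⊆ P' b0 \ P b0) (b' : V) :
    wt w (Ic c (Function.update P b0 (P b0 ∪ M)) b') - wt w (Ic c P b')
      ≤ wt v (Nc c (Ic c (Function.update P b0 (P b0 ∪ M)) b')) - wt v (Nc c (Ic c P b')) := by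
  classical
  set P1 := Function.update P b0 (P b0 ∪ M) with hP1
  have hP1b : P1 b0 = P b0 ∪ M := by simp [hP1]
  have hP1m : ∀ m, m ≠ b0 → P1 m = P m := fun m hm => by simp [hP1, hm]
  have hle : ∀ b, P b ⊆ P1 b := by
    intro b
    by_cases h : b = b0
    · subst h; rw [hP1b]; exact Finset.subset_union_left
    · rw [hP1m b h]
  by_cases hb : b' ∈ c b0
  · have hsub : Ic c P1 b' \ Ic c P b' ⊆ M := by
      intro y hy
      rw [Finset.mem_sdiff, mem_Ic, mem_Ic] at hy
      have h1 := hy.1 b0 hb
      rw [hP1b, Finset.mem_union] at h1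
      rcases h1 with h1 | h1
      · exfalso
        apply hy.2
        intro m hm
        by_cases h : m = b0
        · subst h; exact h1
        · rw [← hP1m m h]; exact hy.1 m hm
      · exact h1
    have h2 := hA b0 _ (hsub.trans hM)
    have h3 : Nc c (P b0 ∪ (Ic c P1 b' \ Ic c P b')) \ Nc c (P b0)
        ⊆ Nc c (Ic c P1 b') \ Nc c (Ic c P b') := by
      intro y hy
      simp only [Finset.mem_sdiff, mem_Nc, Finset.mem_union] at hy ⊢
      obtain ⟨⟨z, hz, hzy⟩, hn⟩ := hy
      constructor
      · rcases hz with hz | hz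
        · exact absurd ⟨z, hz, hzy⟩ hn
        · exact ⟨z, hz.1, hzy⟩
      · rintro ⟨z', hz', hz'y⟩
        exact hn ⟨z', mem_Ic.mp hz' b0 hb, hz'y⟩
    have h4 := wt_mono hv h3
    rw [wt_sdiff_of_subset (Nc_mono (Ic_mono hle b'))] at h4
    rw [wt_sdiff_of_subset (Ic_mono hle b')] at h2
    linarith
  · have : Ic c P1 b' = Ic c P b' := by
      ext y
      rw [mem_Ic, mem_Ic]
      apply forall_congr'
      intro m
      by_cases h : m = b0
      · subst h
        constructor <;> intro _ h' <;> exact absurd h' hb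
      · rw [hP1m m h]
    rw [this]; simp

/-- the change of `mu` under a one-row extension -/
lemma mu_update (u : V → ℝ) (F : Finset V → Finset V) (P : V → Finset V) (b0 : V)
    (Z : Finset V) :
    mu u v (fun b => F (Function.update P b0 Z b)) - mu u v (fun b => F (P b))
      = u b0 * (wt v (F Z) - wt v (F (P b0))) := by
  rw [mu, mu, ← Finset.sum_sub_distrib, Finset.sum_eq_single b0]
  · simp; ring
  · intro b _ hb; simp [hb]
  · intro h; exact absurd (Finset.mem_univ _) h

end L2

/-- **Main inequality.** -/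
theorem main_ineq {c : V → Finset V} {u w : V → ℝ} (hu : ∀ x, 0 ≤ u x) (hw : ∀ x, 0 < w x) :
    ∀ (k : ℕ) (P P' : V → Finset V) (v : V → ℝ), (∀ b, P b ⊆ P' b) →
      ∑ b, (P' b \ P b).card = k → (∀ x, 0 ≤ v x) → HallA c P P' w v → HallB c P P' u →
      (mu u v (fun b => Nc c (P' b)) - mu u v (fun b => Nc c (P b)))
        + (mu u w (Ic c P') - mu u w (Ic c P))
      ≤ (mu u w P' - mu u w P)
        + (mu u v (fun b => Nc c (Ic c P' b)) - mu u v (fun b => Nc c (Ic c P b))) := by
  classical
  intro k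
  induction k using Nat.strong_induction_on with
  | _ k ih =>
  intro P P' v hPP hk hv hA hB
  by_cases h0 : ∀ b, P' b \ P b = ∅
  · have : P' = P := by
      funext b
      exact Finset.Subset.antisymm (Finset.sdiff_eq_empty_iff_subset.mp (h0 b)) (hPP b)
    subst this
    simp
  · push Not at h0
    obtain ⟨b1, hb1⟩ := h0
    -- candidates
    let C : Finset (V × Finset V) := univ.filter fun p => p.2 ⊆ P' p.1 \ P p.1 ∧ p.2.Nonempty
    have hC : C.Nonempty := ⟨(b1, P' b1 \ P b1), Finset.mem_filter.mpr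
      ⟨Finset.mem_univ _, Finset.Subset.refl _, hb1⟩⟩
    let G : V × Finset V → ℝ := fun p => wt v (Nc c (P p.1 ∪ p.2) \ Nc c (P p.1))
    obtain ⟨p0, hp0, hmax⟩ := C.exists_max_image (fun p => wt w p.2 / G p) hC
    obtain ⟨b0, M⟩ := p0
    have hp0' : M ⊆ P' b0 \ P b0 ∧ M.Nonempty := by simpa [C] using hp0
    obtain ⟨hM, hMne⟩ := hp0'
    have wpos : ∀ S : Finset V, S.Nonempty → 0 < wt w S := fun S hS =>
      Finset.sum_pos (fun x _ => hw x) hS
    have hG0 : wt w M ≤ G (b0, M) := hA b0 M hM
    have hGpos : 0 < G (b0, M) := lt_of_lt_of_le (wpos M hMne) hG0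
    set t : ℝ := wt w M / G (b0, M) with ht
    have ht0 : 0 < t := div_pos (wpos M hMne) hGpos
    have ht1 : t ≤ 1 := by rw [ht, div_le_one hGpos]; exact hG0
    have htG : t * G (b0, M) = wt w M := by rw [ht]; exact div_mul_cancel₀ _ hGpos.ne'
    let v' : V → ℝ := fun x => t * v x
    have hv' : ∀ x, 0 ≤ v' x := fun x => mul_nonneg ht0.le (hv x)
    have wtv' : ∀ S, wt v' S = t * wt v S := by
      intro S; simp [wt, v', Finset.mul_sum]
    have muv' : ∀ Q, mu u v' Q = t * mu u v Q := by
      intro Q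
      simp only [mu, wtv', Finset.mul_sum]
      apply Finset.sum_congr rfl; intro b _; ring
    have hA' : HallA c P P' w v' := by
      intro b M' hM'
      rw [wtv']
      rcases M'.eq_empty_or_nonempty with h | h
      · subst h; simp
      · have h1 := hmax (b, M') (by simp [C, hM', h])
        have h2 : wt w M' ≤ G (b, M') := hA b M' hM'
        have h3 : 0 < G (b, M') := lt_of_lt_of_le (wpos M' h) h2
        have h4 : wt w M' / G (b, M') ≤ t := h1
        rw [div_le_iff₀ h3] at h4
        exact h4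
    -- the new row function
    set P1 : V → Finset V := Function.update P b0 (P b0 ∪ M) with hP1
    have hP1b : P1 b0 = P b0 ∪ M := by simp [hP1]
    have hP1m : ∀ m, m ≠ b0 → P1 m = P m := fun m hm => by simp [hP1, hm]
    have hle : ∀ b, P b ⊆ P1 b := by
      intro b
      by_cases h : b = b0
      · subst h; rw [hP1b]; exact Finset.subset_union_left
      · rw [hP1m b h]
    have hP1P' : ∀ b, P1 b ⊆ P' b := by
      intro b
      by_cases h : b = b0
      · subst h; rw [hP1b]
        exact Finset.union_subset (hPP b) (hM.trans Finset.sdiff_subset)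
      · rw [hP1m b h]; exact hPP b
    have hlt : ∑ b, (P' b \ P1 b).card < k := by
      rw [← hk]
      refine Finset.sum_lt_sum (fun b _ => Finset.card_le_card
        (Finset.sdiff_subset_sdiff (le_refl _) (hle b))) ⟨b0, Finset.mem_univ _, ?_⟩
      apply Finset.card_lt_card
      rw [Finset.ssubset_iff_of_subset (Finset.sdiff_subset_sdiff (le_refl _) (hle b0))]
      obtain ⟨y, hy⟩ := hMne
      refine ⟨y, hM hy, ?_⟩
      rw [hP1b]; simp [hy]
    have hA1 : HallA c P1 P' w v' := by
      intro b M' hM'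
      by_cases h : b = b0
      · subst h
        rw [hP1b] at hM' ⊢
        have h1 : M ∪ M' ⊆ P' b \ P b :=
          Finset.union_subset hM (hM'.trans (Finset.sdiff_subset_sdiff (le_refl _)
            Finset.subset_union_left))
        have h2 := hA' b _ h1
        have hdisj : Disjoint M M' := by
          rw [Finset.disjoint_left]
          intro y hy hy'
          have := hM' hy'
          simp [hy] at this
        rw [wt_union_disj hdisj, ← Finset.union_assoc,
          wt_sdiff_of_subset (Nc_mono (Finset.subset_union_left.trans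
            Finset.subset_union_left))] at h2
        rw [wt_sdiff_of_subset (Nc_mono Finset.subset_union_left)]
        have h3 : wt v' (Nc c (P b ∪ M)) - wt v' (Nc c (P b)) = wt w M := by
          rw [← wt_sdiff_of_subset (Nc_mono Finset.subset_union_left), wtv']
          exact htG
        linarith
      · rw [hP1m b h] at hM' ⊢
        exact hA' b M' hM'
    have hB1 : HallB c P1 P' u := by
      intro y M' hM'
      apply hB y M'
      intro b hb
      have := hM' b hb
      rw [Finset.mem_sdiff] at this ⊢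
      exact ⟨this.1, fun h => this.2 (hle b h)⟩
    have IH := ih _ hlt P1 P' v' hP1P' rfl hv' hA1 hB1
    -- Lemma 1
    have L1 := lemma1' hu hPP hB hv
    -- tight
    have e1 : mu u v' (fun b => Nc c (P1 b)) - mu u v' (fun b => Nc c (P b)) = u b0 * wt w M := by
      rw [hP1, mu_update (v := v') u (Nc c) P b0 (P b0 ∪ M)]
      congr 1
      rw [← wt_sdiff_of_subset (Nc_mono Finset.subset_union_left), wtv']
      exact htG
    have e2 : mu u w P1 - mu u w P = u b0 * wt w M := by
      have := mu_update (v := w) u id P b0 (P b0 ∪ M)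
      simp only [id] at this
      rw [hP1]
      rw [this]
      congr 1
      rw [← wt_sdiff_of_subset Finset.subset_union_left]
      congr 1
      ext y
      simp only [Finset.mem_sdiff, Finset.mem_union]
      constructor
      · rintro ⟨h1 | h1, h2⟩
        · exact absurd h1 h2
        · exact h1
      · intro h1
        exact ⟨Or.inr h1, (Finset.mem_sdiff.mp (hM h1)).2⟩
    have e3 : mu u w (Ic c P1) - mu u w (Ic c P)
        ≤ mu u v' (fun b => Nc c (Ic c P1 b)) - mu u v' (fun b => Nc c (Ic c P b)) := by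
      rw [mu, mu, mu, mu, ← Finset.sum_sub_distrib, ← Finset.sum_sub_distrib]
      apply Finset.sum_le_sum
      intro b' _
      rw [← mul_sub, ← mul_sub]
      exact mul_le_mul_of_nonneg_left (lemma3 hv' hA' hM b') (hu b')
    simp only [muv'] at IH e1 e3
    nlinarith
  
end Crest.Agent.R057.Snc204
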