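import Crest.Agent.R057.Snc1_204

/-!
# R057 (S0079): final assembly (min-cut argument of helper280/helper427 with the local inequality)
-/

set_option autoImplicit false
set_option linter.unusedSectionVars false

namespace Crest.Agent.R057.Snc204

open Finset Crest.Agent.R057.Cg765

variable {V : Type} [Fintype V] [DecidableEq V]

/-- closed out-neighbourhoods -/
def cl (A : V → Finset V) : V → Finset V := fun x => insert x (A x)

variable {A : V → Finset V} {w : V → ℝ}

lemma mem_cl {x y : V} : y ∈ cl A x ↔ y = x ∨ y ∈ A x := by simp [cl]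

lemma self_mem_cl (x : V) : x ∈ cl A x := by simp [cl]

lemma Nc_cl (S : Finset V) : Nc (cl A) S = S ∪ An A S := by
  ext y
  simp only [mem_Nc, mem_cl, Finset.mem_union, mem_An]
  constructor
  · rintro ⟨x, hx, rfl | hy⟩
    · exact Or.inl hx
    · exact Or.inr ⟨x, hx, hy⟩
  · rintro (h | ⟨x, hx, hy⟩)
    · exact ⟨y, h, Or.inl rfl⟩
    · exact ⟨x, hx, Or.inr hy⟩

/-- CG for closed neighbourhoods, non-strict, all sets -/
lemma cg_le (H : World A) (hw : Good A w) (Q : Finset V) :
    wt w (Nc (cl A) (Nc (cl A) Q)) - wt w (Nc (cl A) Q) ≤ wt w (Nc (cl A) Q) - wt w Q := by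
  by_cases hQ : An A Q ⊆ Q
  · have h1 : Nc (cl A) Q = Q := by rw [Nc_cl]; exact Finset.union_eq_left.mpr hQ
    rw [h1, h1]
  · have h := H.cg hw Q hQ
    have h1 := wt_union (w := w) Q (An A Q)
    have h2 := wt_union (w := w) (Q ∪ An A Q) (An A (Q ∪ An A Q))
    rw [Nc_cl (Q ∪ An A Q) |> fun h => (by rw [Nc_cl Q, h] : Nc (cl A) (Nc (cl A) Q)
      = (Q ∪ An A Q) ∪ An A (Q ∪ An A Q)), Nc_cl Q]
    linarith

/-- CG for closed neighbourhoods, strict -/
lemma cg_lt (H : World A) (hw : Good A w) (Q : Finset V) (h0 : Q.Nonempty)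
    (h1 : Q ≠ Finset.univ) :
    wt w (Nc (cl A) (Nc (cl A) Q)) - wt w (Nc (cl A) Q) < wt w (Nc (cl A) Q) - wt w Q := by
  have h := H.cg hw Q (H.not_sub h0 h1)
  have h1 := wt_union (w := w) Q (An A Q)
  have h2 := wt_union (w := w) (Q ∪ An A Q) (An A (Q ∪ An A Q))
  rw [Nc_cl (Q ∪ An A Q) |> fun h => (by rw [Nc_cl Q, h] : Nc (cl A) (Nc (cl A) Q)
      = (Q ∪ An A Q) ∪ An A (Q ∪ An A Q)), Nc_cl Q]
  linarith

/-- the feasible pairs -/
structure J0 (A : V → Finset V) (P P' : V → Finset V) : Prop where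
  sub : ∀ b, P b ⊆ P' b
  low : ∀ b, cl A b ⊆ P b
  up : ∀ b y, b ∈ A y → y ∉ P' b

/-- the energy -/
def En (A : V → Finset V) (w : V → ℝ) (P P' : V → Finset V) : ℝ :=
  (mu w w (fun b => Nc (cl A) (P b)) - mu w w P) + (mu w w P' - mu w w (Ic (cl A) P'))

lemma J0_base (hA : Ori A) : J0 A (cl A) (cl A) where
  sub := fun b => Finset.Subset.refl _
  low := fun b => Finset.Subset.refl _
  up := by
    intro b y hb hy
    rcases mem_cl.mp hy with h | h
    · subst h; exact hA.irrefl _ hb
    · exact hA y b hb h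

lemma exists_minimiser (hA : Ori A) (w : V → ℝ) :
    ∃ P P', J0 A P P' ∧ ∀ Q Q', J0 A Q Q' → En A w P P' ≤ En A w Q Q' := by
  classical
  let C : Finset ((V → Finset V) × (V → Finset V)) := univ.filter fun p => J0 A p.1 p.2
  have hC : C.Nonempty := ⟨(cl A, cl A), Finset.mem_filter.mpr ⟨Finset.mem_univ _, J0_base hA⟩⟩
  obtain ⟨p, hp, hmin⟩ := C.exists_min_image (fun p => En A w p.1 p.2) hC
  exact ⟨p.1, p.2, (Finset.mem_filter.mp hp).2, fun Q Q' h =>
    hmin (Q, Q') (Finset.mem_filter.mpr ⟨Finset.mem_univ _, h⟩)⟩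

section minimiser

variable {P P' : V → Finset V}

lemma hallA_of_min (hwp : ∀ x, 0 < w x) (hJ : J0 A P P')
    (hmin : ∀ Q Q', J0 A Q Q' → En A w P P' ≤ En A w Q Q') : HallA (cl A) P P' w w := by
  intro b M hM
  have hJ' : J0 A (Function.update P b (P b ∪ M)) P' := by
    refine ⟨?_, ?_, hJ.up⟩
    · intro x
      by_cases h : x = b
      · subst h
        simp only [Function.update_self]
        exact Finset.union_subset (hJ.sub x) (hM.trans Finset.sdiff_subset)
      · rw [Function.update_of_ne h]; exact hJ.sub x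
    · intro x
      by_cases h : x = b
      · subst h
        simp only [Function.update_self]
        exact (hJ.low x).trans Finset.subset_union_left
      · rw [Function.update_of_ne h]; exact hJ.low x
  have h1 := hmin _ _ hJ'
  unfold En at h1
  have h2 := mu_update (v := w) w (Nc (cl A)) P b (P b ∪ M)
  have h3 := mu_update (v := w) w id P b (P b ∪ M)
  simp only [id] at h3
  have e : mu w w (fun b_1 => Function.update P b (P b ∪ M) b_1)
      = mu w w (Function.update P b (P b ∪ M)) := rfl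
  have e' : mu w w (fun b => P b) = mu w w P := rfl
  have h4 : 0 ≤ w b * ((wt w (Nc (cl A) (P b ∪ M)) - wt w (Nc (cl A) (P b)))
      - (wt w (P b ∪ M) - wt w (P b))) := by
    rw [mul_sub, ← h2, ← h3]
    linarith
  have h5 := nonneg_of_mul_nonneg_right h4 (hwp b)
  rw [wt_sdiff_of_subset (Nc_mono Finset.subset_union_left)]
  have hdisj : Disjoint (P b) M := by
    rw [Finset.disjoint_left]
    intro y hy hy'
    exact (Finset.mem_sdiff.mp (hM hy')).2 hy
  rw [wt_union_disj hdisj] at h5
  linarith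

lemma hallB_of_min (hwp : ∀ x, 0 < w x) (hJ : J0 A P P')
    (hmin : ∀ Q Q', J0 A Q Q' → En A w P P' ≤ En A w Q Q') : HallB (cl A) P P' w := by
  classical
  intro y M hM
  let P2 : V → Finset V := fun b => if b ∈ M then (P' b).erase y else P' b
  have hP2 : ∀ b z, z ∈ P2 b ↔ z ∈ P' b ∧ (b ∈ M → z ≠ y) := by
    intro b z
    by_cases hb : b ∈ M
    · simp only [P2, if_pos hb, Finset.mem_erase]; tauto
    · simp only [P2, if_neg hb]; tauto
  have hJ' : J0 A P P2 := by
    refine ⟨?_, hJ.low, ?_⟩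
    · intro b z hz
      rw [hP2]
      refine ⟨hJ.sub b hz, fun hb h => ?_⟩
      subst h
      exact (Finset.mem_sdiff.mp (hM b hb)).2 hz
    · intro b z hb hz
      exact hJ.up b z hb ((hP2 b z).mp hz).1
  have h1 := hmin _ _ hJ'
  unfold En at h1
  -- compute the two differences
  have e1 : mu w w P' - mu w w P2 = w y * wt w M := by
    rw [mu_swap, mu_swap, ← Finset.sum_sub_distrib, Finset.sum_eq_single y]
    · rw [← mul_sub]; congr 1
      rw [← wt_sdiff_of_subset]
      · congr 1
        ext b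
        simp only [Finset.mem_sdiff, Finset.mem_filter, Finset.mem_univ, true_and, hP2]
        constructor
        · rintro ⟨h2, h3⟩
          by_contra hb
          exact h3 ⟨h2, fun h => absurd h hb⟩
        · intro hb
          exact ⟨(Finset.mem_sdiff.mp (hM b hb)).1, fun h => h.2 hb rfl⟩
      · intro b hb
        simp only [Finset.mem_filter, Finset.mem_univ, true_and, hP2] at hb ⊢
        exact hb.1
    · intro z _ hz
      rw [← mul_sub, mul_eq_zero]; right
      rw [sub_eq_zero]; congr 1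
      ext b
      simp only [Finset.mem_filter, Finset.mem_univ, true_and, hP2]
      exact ⟨fun h => ⟨h, fun _ => hz⟩, fun h => h.1⟩
    · intro h; exact absurd (Finset.mem_univ _) h
  have hI2 : ∀ b z, z ∈ Ic (cl A) P2 b ↔ z ∈ Ic (cl A) P' b ∧ ((∃ m ∈ M, b ∈ cl A m) → z ≠ y) := by
    intro b z
    rw [mem_Ic, mem_Ic]
    simp only [hP2]
    constructor
    · intro h
      exact ⟨fun m hm => (h m hm).1, fun ⟨m, hmM, hm⟩ => (h m hm).2 hmM⟩
    · rintro ⟨h2, h3⟩ m hm
      exact ⟨h2 m hm, fun hmM => h3 ⟨m, hmM, hm⟩⟩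
  have e2 : mu w w (Ic (cl A) P') - mu w w (Ic (cl A) P2)
      = w y * wt w (univ.filter fun b' => y ∈ Ic (cl A) P' b' ∧ ∃ b ∈ M, b' ∈ cl A b) := by
    rw [mu_swap, mu_swap, ← Finset.sum_sub_distrib, Finset.sum_eq_single y]
    · rw [← mul_sub]; congr 1
      rw [← wt_sdiff_of_subset]
      · congr 1
        ext b
        simp only [Finset.mem_sdiff, Finset.mem_filter, Finset.mem_univ, true_and, hI2]
        constructor
        · rintro ⟨h2, h3⟩
          refine ⟨h2, ?_⟩
          by_contra hb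
          exact h3 ⟨h2, fun h => absurd h hb⟩
        · rintro ⟨h2, h3⟩
          exact ⟨h2, fun h => h.2 h3 rfl⟩
      · intro b hb
        simp only [Finset.mem_filter, Finset.mem_univ, true_and, hI2] at hb ⊢
        exact hb.1
    · intro z _ hz
      rw [← mul_sub, mul_eq_zero]; right
      rw [sub_eq_zero]; congr 1
      ext b
      simp only [Finset.mem_filter, Finset.mem_univ, true_and, hI2]
      exact ⟨fun h => ⟨h, fun _ => hz⟩, fun h => h.1⟩
    · intro h; exact absurd (Finset.mem_univ _) h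
  have h2 : w y * wt w M
      ≤ w y * wt w (univ.filter fun b' => y ∈ Ic (cl A) P' b' ∧ ∃ b ∈ M, b' ∈ cl A b) := by
    rw [← e1, ← e2]; linarith
  exact le_of_mul_le_mul_left h2 (hwp y)

end minimiser

/-- weight of a column complement plus the diagonal cell -/
lemma wt_col (X : V → Finset V) (y : V) (hy : y ∈ X y) :
    wt w (univ.filter fun b => y ∉ X b ∨ b = y)
      = wt w univ - wt w (univ.filter fun b => y ∈ X b) + w y := by
  have e : (univ.filter fun b => y ∉ X b ∨ b = y)
      = (univ \ univ.filter fun b => y ∈ X b) ∪ {y} := by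
    ext b
    simp only [Finset.mem_filter, Finset.mem_univ, true_and, Finset.mem_union, Finset.mem_sdiff,
      Finset.mem_singleton]
  rw [e, wt_union_disj, wt_singleton, wt_sdiff_of_subset (Finset.subset_univ _)]
  rw [Finset.disjoint_left]
  intro b hb hb'
  rw [Finset.mem_singleton] at hb'
  subst hb'
  simp [hy] at hb

/-- **There is no minimal counterexample.** -/
theorem no_world (H : World A) : False := by
  classical
  obtain ⟨w, hw⟩ := H.exists_good
  have hwp : ∀ x, 0 < w x := H.pos hw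
  have hw0 : ∀ x, 0 ≤ w x := hw.nonneg
  obtain ⟨P, P', hJ, hmin⟩ := exists_minimiser H.ori w
  have hA := hallA_of_min hwp hJ hmin
  have hB := hallB_of_min hwp hJ hmin
  have ML := main_ineq (c := cl A) hw0 hwp _ P P' w hJ.sub rfl hw0 hA hB
  -- basic facts
  have hself : ∀ b, b ∈ Ic (cl A) P b := by
    intro b; rw [mem_Ic]; intro m hm; exact hJ.low m hm
  have hself' : ∀ b, b ∈ Ic (cl A) P' b := fun b => Ic_mono hJ.sub b (hself b)
  -- `N(I P' b)` misses the in-neighbours of `b`
  have hmiss : ∀ b y, b ∈ A y → y ∉ Nc (cl A) (Ic (cl A) P' b) := by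
    intro b y hby hy
    obtain ⟨z, hz, hyz⟩ := mem_Nc.mp hy
    rw [mem_Ic] at hz
    rcases mem_cl.mp hyz with h | h
    · subst h
      exact hJ.up b y hby (hz b (self_mem_cl b))
    · exact hJ.up y z h (hz y (mem_cl.mpr (Or.inr hby)))
  set P1 : V → Finset V := fun b => Nc (cl A) (Ic (cl A) P b) with hP1
  set HP' : V → Finset V := fun b => Nc (cl A) (P' b) with hHP'
  set P1' : V → Finset V := fun b => (Ic (cl A) HP' b).filter fun y => b ∉ A y with hP1'
  have mP1' : ∀ b y, y ∈ P1' b ↔ y ∈ Ic (cl A) HP' b ∧ b ∉ A y := by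
    intro b y; simp [hP1']
  have hNI : ∀ b, Nc (cl A) (Ic (cl A) P' b) ⊆ P1' b := by
    intro b y hy
    rw [mP1']
    refine ⟨?_, fun h => hmiss b y h hy⟩
    obtain ⟨z, hz, hyz⟩ := mem_Nc.mp hy
    rw [mem_Ic] at hz ⊢
    intro m hm
    exact mem_Nc.mpr ⟨z, hz m hm, hyz⟩
  have hJ1 : J0 A P1 P1' := by
    refine ⟨?_, ?_, ?_⟩
    · intro b
      exact (Nc_mono (Ic_mono hJ.sub b)).trans (hNI b)
    · intro b y hy
      exact mem_Nc.mpr ⟨b, hself b, hy⟩
    · intro b y hb hy
      exact ((mP1' b y).mp hy).2 hb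
  have hmin1 := hmin P1 P1' hJ1
  -- rows
  have R1 : mu w w (fun b => Nc (cl A) (P1 b)) - mu w w P1 < mu w w P1 - mu w w (Ic (cl A) P) := by
    rw [mu, mu, mu, ← Finset.sum_sub_distrib, ← Finset.sum_sub_distrib]
    have := H.ne
    apply Finset.sum_lt_sum_of_nonempty Finset.univ_nonempty
    intro b _
    rw [← mul_sub, ← mul_sub]
    apply mul_lt_mul_of_pos_left _ (hwp b)
    refine cg_lt H hw (Ic (cl A) P b) ⟨b, hself b⟩ ?_
    intro h
    obtain ⟨y, hy⟩ := H.nonempty_in b
    have h1 : y ∈ Ic (cl A) P b := by rw [h]; exact Finset.mem_univ _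
    exact hJ.up b y hy (hJ.sub b (mem_Ic.mp h1 b (self_mem_cl b)))
  -- columns
  have hc1 : ∀ y, y ∈ HP' y := fun y =>
    mem_Nc.mpr ⟨y, hJ.sub y (hJ.low y (self_mem_cl y)), self_mem_cl y⟩
  have hc2 : ∀ y, y ∈ P1' y := fun y => hJ1.sub y (hJ1.low y (self_mem_cl y))
  have hc3 : ∀ y, y ∈ Ic (cl A) P1' y := by
    intro y
    rw [mem_Ic]
    intro m hm
    exact hJ1.sub m (hJ1.low m hm)
  have C1 : ∀ y, wt w (univ.filter fun b => y ∈ P1' b) - wt w (univ.filter fun b => y ∈ Ic (cl A) P1' b)
      ≤ wt w (univ.filter fun b => y ∈ HP' b) - wt w (univ.filter fun b => y ∈ P1' b) := by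
    intro y
    have h := cg_le H hw (univ.filter fun b => y ∉ HP' b ∨ b = y)
    have e1 : Nc (cl A) (univ.filter fun b => y ∉ HP' b ∨ b = y)
        = univ.filter fun b => y ∉ P1' b ∨ b = y := by
      ext b
      simp only [mem_Nc, Finset.mem_filter, Finset.mem_univ, true_and, mP1', mem_Ic]
      constructor
      · rintro ⟨m, hm | hm, hb⟩
        · left; intro h'; exact hm (h'.1 m hb)
        · subst hm
          rcases mem_cl.mp hb with h' | h'
          · exact Or.inr h'
          · left; intro h''; exact h''.2 h'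
      · rintro (h' | h')
        · by_cases h2 : ∀ m, b ∈ cl A m → y ∈ HP' m
          · have : b ∈ A y := by
              by_contra h3; exact h' ⟨h2, h3⟩
            exact ⟨y, Or.inr rfl, mem_cl.mpr (Or.inr this)⟩
          · push Not at h2
            obtain ⟨m, hm, hmy⟩ := h2
            exact ⟨m, Or.inl hmy, hm⟩
        · exact ⟨y, Or.inr rfl, by rw [h']; exact self_mem_cl y⟩
    have e2 : Nc (cl A) (univ.filter fun b => y ∉ P1' b ∨ b = y)
        = univ.filter fun b => y ∉ Ic (cl A) P1' b ∨ b = y := by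
      ext b
      simp only [mem_Nc, Finset.mem_filter, Finset.mem_univ, true_and]
      constructor
      · rintro ⟨m, hm | hm, hb⟩
        · left; intro h'; exact hm (mem_Ic.mp h' m hb)
        · subst hm
          rcases mem_cl.mp hb with h' | h'
          · exact Or.inr h'
          · left; intro h''
            exact hJ1.up b m h' (mem_Ic.mp h'' b (self_mem_cl b))
      · rintro (h' | h')
        · rw [mem_Ic] at h'
          push Not at h'
          obtain ⟨m, hm, hmy⟩ := h'
          exact ⟨m, Or.inl hmy, hm⟩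
        · exact ⟨y, Or.inr rfl, by rw [h']; exact self_mem_cl y⟩
    rw [e1, e2, wt_col _ y (hc1 y), wt_col _ y (hc2 y), wt_col _ y (hc3 y)] at h
    linarith
  have C2 : mu w w P1' - mu w w (Ic (cl A) P1') ≤ mu w w HP' - mu w w P1' := by
    rw [mu_swap w w P1', mu_swap w w (Ic (cl A) P1'), mu_swap w w HP',
      ← Finset.sum_sub_distrib, ← Finset.sum_sub_distrib]
    apply Finset.sum_le_sum
    intro y _
    rw [← mul_sub, ← mul_sub]
    exact mul_le_mul_of_nonneg_left (C1 y) (hw0 y)
  have C3 : mu w w (fun b => Nc (cl A) (Ic (cl A) P' b)) ≤ mu w w P1' := by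
    rw [mu, mu]
    apply Finset.sum_le_sum
    intro b _
    exact mul_le_mul_of_nonneg_left (wt_mono hw0 (hNI b)) (hw0 b)
  unfold En at hmin1
  linarith

/-- **Seymour's second neighbourhood conjecture.** -/
theorem snc (V : Type*) [Fintype V] [Nonempty V] (G : Digraph V)
    (hloop : ∀ v, ¬ G.Adj v v) (hopp : ∀ u v, G.Adj u v → ¬ G.Adj v u) :
    ∃ v : V, Set.ncard {u | G.Adj v u} ≤
      Set.ncard {w | w ≠ v ∧ ¬ G.Adj v w ∧ ∃ u, G.Adj v u ∧ G.Adj u w} :=
  S0079_of (fun _ _ H => no_world H) V G hloop hopp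

end Crest.Agent.R057.Snc204
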