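import Mathlib

/-!
# R057 / S0079 (Seymour second neighbourhood), helper304: balanced flows, comparison, inequality (G)
(docs row 2009, sections 2 and 3)
-/

set_option autoImplicit false

open Finset

noncomputable section

namespace Crest.Agent.R057.Star304

open Classical in
/-- balanced flow on the bipartite graph `T → P` with edges `ρ`; every source has supply `1` -/
structure Bal {V : Type*} [Fintype V] (ρ : V → V → Prop) (T P : Finset V) (f : V → V → ℝ) : Prop where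
  nonneg : ∀ x y, 0 ≤ f x y
  supp : ∀ x y, f x y ≠ 0 → x ∈ T ∧ y ∈ P ∧ ρ x y
  sum : ∀ x ∈ T, ∑ y, f x y = 1
  bal : ∀ x y, 0 < f x y → ∀ z ∈ P, ρ x z → ∑ x', f x' y ≤ ∑ x', f x' z

variable {V : Type*} [Fintype V]

theorem exists_bal (ρ : V → V → Prop) (T P : Finset V) (hT : ∀ x ∈ T, ∃ y ∈ P, ρ x y) :
    ∃ f : V → V → ℝ, Bal ρ T P f := by
  classical
  set K : Set (V → V → ℝ) := Set.Icc 0 1 ∩ ({f | ∀ x y, ¬ (x ∈ T ∧ y ∈ P ∧ ρ x y) → f x y = 0} ∩
    {f | ∀ x ∈ T, ∑ y, f x y = 1}) with hK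
  have hev : ∀ x y, Continuous fun f : V → V → ℝ => f x y := fun x y =>
    (continuous_apply y).comp (continuous_apply x)
  have hc1 : IsClosed {f : V → V → ℝ | ∀ x y, ¬ (x ∈ T ∧ y ∈ P ∧ ρ x y) → f x y = 0} := by
    simp only [Set.ofPred_forall]
    refine isClosed_iInter fun x => isClosed_iInter fun y => isClosed_iInter fun _ => ?_
    exact isClosed_eq (hev x y) continuous_const
  have hc2 : IsClosed {f : V → V → ℝ | ∀ x ∈ T, ∑ y, f x y = 1} := by
    simp only [Set.ofPred_forall]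
    refine isClosed_iInter fun x => isClosed_iInter fun _ => ?_
    exact isClosed_eq (continuous_finsetSum _ fun y _ => hev x y) continuous_const
  have hcomp : IsCompact K := (isCompact_Icc).inter_right (hc1.inter hc2)
  choose! g hg using hT
  have hne : K.Nonempty := by
    refine ⟨fun x y => if x ∈ T ∧ y = g x then 1 else 0, ⟨?_, ?_⟩, ?_, ?_⟩
    · intro x y
      change (0 : ℝ) ≤ if x ∈ T ∧ y = g x then 1 else 0
      split_ifs <;> norm_num
    · intro x y
      change (if x ∈ T ∧ y = g x then (1 : ℝ) else 0) ≤ 1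
      split_ifs <;> norm_num
    · intro x y hxy
      change (if x ∈ T ∧ y = g x then (1 : ℝ) else 0) = 0
      rw [if_neg]
      rintro ⟨h1, rfl⟩
      exact hxy ⟨h1, (hg x h1).1, (hg x h1).2⟩
    · intro x hx
      simp [hx]
  set F : (V → V → ℝ) → ℝ := fun f => ∑ y, (∑ x, f x y) ^ 2 with hF
  have hFc : Continuous F := by
    refine continuous_finsetSum _ fun y _ => ?_
    exact (continuous_finsetSum _ fun x _ => hev x y).pow 2
  obtain ⟨f, hfK, hmin⟩ := hcomp.exists_isMinOn hne hFc.continuousOn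
  have hmin' : ∀ f' ∈ K, F f ≤ F f' := fun f' h => hmin h
  obtain ⟨⟨h0, h1⟩, hs, hsum⟩ := hfK
  have h0' : ∀ x y, 0 ≤ f x y := fun x y => h0 x y
  have hsupp : ∀ x y, f x y ≠ 0 → x ∈ T ∧ y ∈ P ∧ ρ x y := by
    intro x y h
    by_contra hcon
    exact h (hs x y hcon)
  refine ⟨f, h0', hsupp, hsum, ?_⟩
  intro x y hxy z hz hxz
  by_contra hlt
  push Not at hlt
  set Ly := ∑ x', f x' y with hLy
  set Lz := ∑ x', f x' z with hLz
  have hyz : y ≠ z := by
    rintro rfl
    exact lt_irrefl _ hlt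
  set ε : ℝ := min (f x y) ((Ly - Lz) / 2) with hε
  have hε0 : 0 < ε := lt_min hxy (by linarith)
  have hε1 : ε ≤ f x y := min_le_left _ _
  have hε2 : ε ≤ (Ly - Lz) / 2 := min_le_right _ _
  obtain ⟨hxT, hyP, hρ⟩ := hsupp x y hxy.ne'
  -- the perturbation
  set d : V → V → ℝ := fun a b => if a = x then (if b = y then -ε else if b = z then ε else 0) else 0
    with hd
  set f' : V → V → ℝ := fun a b => f a b + d a b with hf'
  have hdsum : ∀ a, ∑ b, d a b = 0 := by
    intro a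
    by_cases ha : a = x
    · subst ha
      have : ∀ b, d a b = (if b = y then -ε else 0) + (if b = z then ε else 0) := by
        intro b
        simp only [hd, if_true]
        by_cases hb : b = y
        · subst hb
          simp [hyz]
        · simp [hb]
      rw [Finset.sum_congr rfl fun b _ => this b, Finset.sum_add_distrib]
      simp
    · simp [hd, ha]
  have hcol : ∀ b, ∑ a, d a b = (if b = y then -ε else if b = z then ε else 0) := by
    intro b
    simp [hd]
  have hf'K : f' ∈ K := by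
    have h0f : ∀ a b, 0 ≤ f' a b := by
      intro a b
      simp only [hf', hd]
      have := h0' a b
      split_ifs with h1 h2 h3
      · subst h1; subst h2; linarith
      · linarith
      · linarith
      · linarith
    have hsum' : ∀ a ∈ T, ∑ b, f' a b = 1 := by
      intro a ha
      simp only [hf']
      rw [Finset.sum_add_distrib, hdsum, hsum a ha, add_zero]
    have hs' : ∀ a b, ¬ (a ∈ T ∧ b ∈ P ∧ ρ a b) → f' a b = 0 := by
      intro a b hab
      simp only [hf', hd]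
      rw [hs a b hab]
      split_ifs with h1 h2 h3
      · subst h1; subst h2; exact absurd ⟨hxT, hyP, hρ⟩ hab
      · subst h1; subst h3; exact absurd ⟨hxT, hz, hxz⟩ hab
      · simp
      · simp
    refine ⟨⟨fun a b => h0f a b, fun a b => ?_⟩, hs', hsum'⟩
    change f' a b ≤ 1
    by_cases hab : a ∈ T ∧ b ∈ P ∧ ρ a b
    · rw [← hsum' a hab.1]
      exact Finset.single_le_sum (f := fun b => f' a b) (fun b _ => h0f a b) (Finset.mem_univ b)
    · rw [hs' a b hab]; norm_num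
  have hlt2 : F f' < F f := by
    have e1 : ∀ b, (∑ a, f' a b) ^ 2 - (∑ a, f a b) ^ 2 =
        (if b = y then (Ly - ε) ^ 2 - Ly ^ 2 else 0) + (if b = z then (Lz + ε) ^ 2 - Lz ^ 2 else 0) := by
      intro b
      have e2 : ∑ a, f' a b = ∑ a, f a b + (if b = y then -ε else if b = z then ε else 0) := by
        simp only [hf']
        rw [Finset.sum_add_distrib, hcol]
      rw [e2]
      by_cases hb : b = y
      · subst hb
        rw [if_pos rfl, if_pos rfl, if_neg hyz]
        ring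
      · rw [if_neg hb, if_neg hb]
        by_cases hb2 : b = z
        · subst hb2
          rw [if_pos rfl, if_pos rfl]
          ring
        · rw [if_neg hb2, if_neg hb2]
          ring
    have e3 : F f' - F f = ((Ly - ε) ^ 2 - Ly ^ 2) + ((Lz + ε) ^ 2 - Lz ^ 2) := by
      simp only [hF]
      rw [← Finset.sum_sub_distrib, Finset.sum_congr rfl fun b _ => e1 b, Finset.sum_add_distrib]
      simp
    have e4 : ((Ly - ε) ^ 2 - Ly ^ 2) + ((Lz + ε) ^ 2 - Lz ^ 2) = 2 * ε * (ε - (Ly - Lz)) := by ring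
    have e5 : 2 * ε * (ε - (Ly - Lz)) < 0 := by
      apply mul_neg_of_pos_of_neg
      · linarith
      · linarith
    linarith
  exact absurd (hmin' f' hf'K) (not_le.2 hlt2)

/-- comparison of the densities of two balanced flows -/
theorem Bal.compare {ρ : V → V → Prop} {T₁ P₁ T₂ P₂ : Finset V} {f₁ f₂ : V → V → ℝ}
    (h₁ : Bal ρ T₁ P₁ f₁) (h₂ : Bal ρ T₂ P₂ f₂)
    (ha : ∀ x ∈ T₂, (∃ y ∈ P₁, ρ x y) → x ∈ T₁)
    (hb : ∀ z ∈ P₁, (∃ x ∈ T₂, ρ x z) → z ∈ P₂) {y : V} (hy₁ : y ∈ P₁) (hy₂ : y ∈ P₂) :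
    ∑ x, f₂ x y ≤ ∑ x, f₁ x y := by
  classical
  by_contra hlt
  push Not at hlt
  set t := ∑ x, f₁ x y with ht
  set M : Finset V := univ.filter fun z => z ∈ P₁ ∧ z ∈ P₂ ∧ ∑ x, f₁ x z ≤ t ∧ t < ∑ x, f₂ x z with hM
  have hyM : y ∈ M := by
    simp only [hM, mem_filter, mem_univ, true_and]
    exact ⟨hy₁, hy₂, le_rfl, hlt⟩
  have key : ∀ x, ∑ z ∈ M, f₂ x z ≤ ∑ z ∈ M, f₁ x z := by
    intro x
    by_cases hz : ∀ z ∈ M, f₂ x z = 0
    · rw [Finset.sum_eq_zero hz]
      exact Finset.sum_nonneg fun z _ => h₁.nonneg x z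
    · push Not at hz
      obtain ⟨z, hzM, hz0⟩ := hz
      have hzM' := hzM
      simp only [hM, mem_filter, mem_univ, true_and] at hzM'
      obtain ⟨hz1, hz2, hz3, hz4⟩ := hzM'
      obtain ⟨hxT2, -, hρ⟩ := h₂.supp x z hz0
      have hpos : 0 < f₂ x z := lt_of_le_of_ne (h₂.nonneg x z) (Ne.symm hz0)
      have hxT1 : x ∈ T₁ := ha x hxT2 ⟨z, hz1, hρ⟩
      have e1 : ∑ z' ∈ M, f₁ x z' = 1 := by
        rw [← h₁.sum x hxT1]
        apply Finset.sum_subset (Finset.subset_univ M)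
        intro z' _ hz'
        by_contra hne
        obtain ⟨-, hp1, hr1⟩ := h₁.supp x z' hne
        have hpos1 : 0 < f₁ x z' := lt_of_le_of_ne (h₁.nonneg x z') (Ne.symm hne)
        apply hz'
        simp only [hM, mem_filter, mem_univ, true_and]
        have hp2 : z' ∈ P₂ := hb z' hp1 ⟨x, hxT2, hr1⟩
        exact ⟨hp1, hp2, (h₁.bal x z' hpos1 z hz1 hρ).trans hz3,
          lt_of_lt_of_le hz4 (h₂.bal x z hpos z' hp2 hr1)⟩
      rw [e1, ← h₂.sum x hxT2]
      exact Finset.sum_le_sum_of_subset_of_nonneg (Finset.subset_univ M)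
        fun z' _ _ => h₂.nonneg x z'
  have h1 : ∑ z ∈ M, ∑ x, f₂ x z ≤ ∑ z ∈ M, ∑ x, f₁ x z := by
    rw [Finset.sum_comm, Finset.sum_comm (s := M)]
    exact Finset.sum_le_sum fun x _ => key x
  have h2 : ∑ z ∈ M, ∑ x, f₁ x z < ∑ z ∈ M, ∑ x, f₂ x z := by
    apply Finset.sum_lt_sum_of_nonempty ⟨y, hyM⟩
    intro z hz
    simp only [hM, mem_filter, mem_univ, true_and] at hz
    exact lt_of_le_of_lt hz.2.2.1 hz.2.2.2
  exact absurd h1 (not_le.2 h2)

/-- threshold lemma -/
theorem exists_threshold {ι κ : Type*} (s : Finset ι) (s' : Finset κ) (a : ι → ℝ) (c : κ → ℝ)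
    (ha : ∀ i ∈ s, 0 ≤ a i ∧ a i ≤ 1) (hc : ∀ i ∈ s', 0 ≤ c i ∧ c i ≤ 1) :
    ∃ t : ℝ, 0 < t ∧ t ≤ 1 ∧
      (∑ i ∈ s, if t ≤ a i then (1 : ℝ) else 0) - (∑ i ∈ s', if t ≤ c i then (1 : ℝ) else 0) ≤
        ∑ i ∈ s, a i - ∑ i ∈ s', c i := by
  classical
  have hint : ∀ α : ℝ, MeasureTheory.IntegrableOn (fun t : ℝ => if t ≤ α then (1 : ℝ) else 0)
      (Set.Ioc (0 : ℝ) 1) := by
    intro α
    have : (fun t : ℝ => if t ≤ α then (1 : ℝ) else 0) = (Set.Iic α).indicator fun _ => (1 : ℝ) := by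
      ext t
      simp [Set.indicator]
    rw [this]
    apply MeasureTheory.Integrable.indicator _ measurableSet_Iic
    exact MeasureTheory.integrableOn_const (by simp)
  have hval : ∀ α : ℝ, 0 ≤ α → α ≤ 1 →
      ∫ t in Set.Ioc (0 : ℝ) 1, (if t ≤ α then (1 : ℝ) else 0) = α := by
    intro α h0 h1
    have : (fun t : ℝ => if t ≤ α then (1 : ℝ) else 0) = (Set.Iic α).indicator fun _ => (1 : ℝ) := by
      ext t
      simp [Set.indicator]
    rw [this, MeasureTheory.setIntegral_indicator measurableSet_Iic]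
    have e : Set.Ioc (0 : ℝ) 1 ∩ Set.Iic α = Set.Ioc 0 α := by
      ext t
      simp only [Set.mem_inter_iff, Set.mem_Ioc, Set.mem_Iic]
      constructor
      · rintro ⟨⟨h2, -⟩, h3⟩
        exact ⟨h2, h3⟩
      · rintro ⟨h2, h3⟩
        exact ⟨⟨h2, h3.trans h1⟩, h3⟩
    rw [e]
    simp [h0]
  set g : ℝ → ℝ := fun t => (∑ i ∈ s, if t ≤ a i then (1 : ℝ) else 0) -
    (∑ i ∈ s', if t ≤ c i then (1 : ℝ) else 0) with hg
  have i1 : MeasureTheory.IntegrableOn (fun t : ℝ => ∑ i ∈ s, if t ≤ a i then (1 : ℝ) else 0)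
      (Set.Ioc (0 : ℝ) 1) := MeasureTheory.integrable_finsetSum _ fun i _ => hint (a i)
  have i2 : MeasureTheory.IntegrableOn (fun t : ℝ => ∑ i ∈ s', if t ≤ c i then (1 : ℝ) else 0)
      (Set.Ioc (0 : ℝ) 1) := MeasureTheory.integrable_finsetSum _ fun i _ => hint (c i)
  have hgi : MeasureTheory.IntegrableOn g (Set.Ioc (0 : ℝ) 1) := i1.sub i2
  have hgv : ∫ t in Set.Ioc (0 : ℝ) 1, g t = ∑ i ∈ s, a i - ∑ i ∈ s', c i := by
    simp only [hg]
    rw [MeasureTheory.integral_sub i1 i2, MeasureTheory.integral_finsetSum _ fun i _ => hint (a i),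
      MeasureTheory.integral_finsetSum _ fun i _ => hint (c i)]
    congr 1
    · exact Finset.sum_congr rfl fun i hi => hval _ (ha i hi).1 (ha i hi).2
    · exact Finset.sum_congr rfl fun i hi => hval _ (hc i hi).1 (hc i hi).2
  obtain ⟨t, ht, hle⟩ := MeasureTheory.exists_le_setAverage (μ := MeasureTheory.volume)
    (s := Set.Ioc (0 : ℝ) 1) (f := g) (by simp) (by simp) hgi
  refine ⟨t, ht.1, ht.2, ?_⟩
  rw [MeasureTheory.setAverage_eq, hgv] at hle
  simpa [hg] using hle

end Crest.Agent.R057.Star304
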