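import Mathlib

/-!
# R057 (S0079): egalitarian allocation lemma (helper202)
-/

set_option autoImplicit false
set_option linter.unusedSectionVars false

namespace Crest.Agent.R057.Star202

open Finset

variable {V : Type*} [Fintype V]

/-- load ratio of a recipient -/
noncomputable def lam (w : V → ℝ) (a : V → V → ℝ) (r : V) : ℝ := (∑ g, a r g) / w r

/-- fair (egalitarian) allocation of the goods `G` among the recipients `R` -/
structure Alloc (w : V → ℝ) (adj : V → V → Prop) (G R : Finset V) (a : V → V → ℝ) : Prop where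
  nn : ∀ r g, 0 ≤ a r g
  supp : ∀ r g, a r g ≠ 0 → r ∈ R ∧ g ∈ G ∧ adj r g
  tot : ∀ g ∈ G, ∑ r, a r g = w g
  fair : ∀ r g, 0 < a r g → ∀ r' ∈ R, adj r' g → lam w a r ≤ lam w a r'

theorem exists_alloc (w : V → ℝ) (hw : ∀ x, 0 < w x) (adj : V → V → Prop) (G R : Finset V)
    (h : ∀ g ∈ G, ∃ r ∈ R, adj r g) : ∃ a, Alloc w adj G R a := by
  classical
  let K : Set (V → V → ℝ) := {a | (∀ r g, 0 ≤ a r g) ∧
    (∀ r g, ¬ (r ∈ R ∧ g ∈ G ∧ adj r g) → a r g = 0) ∧ ∀ g ∈ G, ∑ r, a r g = w g}
  have hKsub : K ⊆ Set.Icc (fun _ _ => (0 : ℝ)) (fun _ g => w g) := by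
    rintro a ⟨h1, h2, h3⟩
    refine ⟨fun r g => h1 r g, fun r g => ?_⟩
    show a r g ≤ w g
    by_cases hg : g ∈ G
    · rw [← h3 g hg]
      exact Finset.single_le_sum (f := fun r => a r g) (fun r _ => h1 r g) (Finset.mem_univ r)
    · have : a r g = 0 := h2 r g (fun hc => hg hc.2.1)
      rw [this]; exact (hw g).le
  have hKclosed : IsClosed K := by
    have e : K = (⋂ r, ⋂ g, {a : V → V → ℝ | 0 ≤ a r g}) ∩
        ((⋂ r, ⋂ g, {a : V → V → ℝ | ¬ (r ∈ R ∧ g ∈ G ∧ adj r g) → a r g = 0}) ∩
          ⋂ g, {a : V → V → ℝ | g ∈ G → ∑ r, a r g = w g}) := by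
      ext a; simp only [K, Set.mem_ofPred_eq, Set.mem_inter_iff, Set.mem_iInter]
    rw [e]
    refine IsClosed.inter ?_ (IsClosed.inter ?_ ?_)
    · refine isClosed_iInter fun r => isClosed_iInter fun g => ?_
      exact isClosed_le continuous_const (by fun_prop)
    · refine isClosed_iInter fun r => isClosed_iInter fun g => ?_
      by_cases hc : r ∈ R ∧ g ∈ G ∧ adj r g
      · simp [hc]
      · simp only [hc, not_false_eq_true, forall_true_left]
        exact isClosed_eq (by fun_prop) continuous_const
    · refine isClosed_iInter fun g => ?_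
      by_cases hg : g ∈ G
      · simp only [hg, forall_true_left]
        exact isClosed_eq (by fun_prop) continuous_const
      · simp [hg]
  have hKcomp : IsCompact K := isCompact_Icc.of_isClosed_subset hKclosed hKsub
  have hKne : K.Nonempty := by
    choose! f hf1 hf2 using h
    refine ⟨fun r g => if g ∈ G ∧ r = f g then w g else 0, ?_, ?_, ?_⟩
    · intro r g; dsimp only; split_ifs
      · exact (hw g).le
      · exact le_rfl
    · intro r g hc; dsimp only
      rw [if_neg]
      rintro ⟨hg, rfl⟩
      exact hc ⟨hf1 g hg, hg, hf2 g hg⟩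
    · intro g hg; simp [hg]
  have hcont : ContinuousOn (fun a : V → V → ℝ => ∑ r, (∑ g, a r g) ^ 2 / w r) K := by
    apply Continuous.continuousOn
    fun_prop
  obtain ⟨a, haK, hmin⟩ := hKcomp.exists_isMinOn hKne hcont
  obtain ⟨h1, h2, h3⟩ := haK
  refine ⟨a, h1, ?_, h3, ?_⟩
  · intro r g hne
    by_contra hc
    exact hne (h2 r g hc)
  · intro r g hpos r' hr' hadj
    by_contra hlt
    push Not at hlt
    have hrr : r ≠ r' := by rintro rfl; exact lt_irrefl _ hlt
    have hgG : g ∈ G := by
      by_contra hg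
      have := h2 r g (fun hc => hg hc.2.1)
      linarith
    have hrs : r ∈ R ∧ g ∈ G ∧ adj r g := by
      by_contra hc
      have := h2 r g hc
      linarith
    -- choose ε
    set D := lam w a r - lam w a r' with hD
    have hDpos : 0 < D := by rw [hD]; linarith
    have hwr := hw r
    have hwr' := hw r'
    set c := 1 / w r + 1 / w r' with hc
    have hcpos : 0 < c := by positivity
    set ε := min (a r g) (D / c) with hε
    have hεpos : 0 < ε := lt_min hpos (by positivity)
    have hε1 : ε ≤ a r g := min_le_left _ _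
    have hε2 : ε * c ≤ D := by
      have : ε ≤ D / c := min_le_right _ _
      calc ε * c ≤ (D / c) * c := by gcongr
        _ = D := by field_simp
    let a' : V → V → ℝ := fun s t =>
      a s t + (if s = r' ∧ t = g then ε else 0) - (if s = r ∧ t = g then ε else 0)
    have ha'K : a' ∈ K := by
      refine ⟨?_, ?_, ?_⟩
      · intro s t
        have := h1 s t
        dsimp only [a']
        by_cases hA : s = r ∧ t = g
        · obtain ⟨rfl, rfl⟩ := hA
          simp only [and_self, if_true]
          split_ifs <;> linarith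
        · rw [if_neg hA]
          split_ifs <;> linarith
      · intro s t hst
        dsimp only [a']
        have e1 : ¬ (s = r' ∧ t = g) := fun e => hst (by rw [e.1, e.2]; exact ⟨hr', hgG, hadj⟩)
        have e2 : ¬ (s = r ∧ t = g) := fun e => hst (by rw [e.1, e.2]; exact hrs)
        rw [if_neg e1, if_neg e2, h2 s t hst]; ring
      · intro t ht
        dsimp only [a']
        rw [Finset.sum_sub_distrib, Finset.sum_add_distrib, h3 t ht]
        by_cases htg : t = g
        · simp [htg]
        · simp [htg]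
    have hrow : ∀ s, ∑ t, a' s t = ∑ t, a s t + (if s = r' then ε else 0) - (if s = r then ε else 0) := by
      intro s
      dsimp only [a']
      rw [Finset.sum_sub_distrib, Finset.sum_add_distrib]
      congr 1
      · congr 1
        by_cases hs : s = r'
        · simp [hs]
        · simp [hs]
      · by_cases hs : s = r
        · simp [hs]
        · simp [hs]
    have hle := hmin ha'K
    have hdiff : ∑ s, (∑ t, a' s t) ^ 2 / w s - ∑ s, (∑ t, a s t) ^ 2 / w s
        = ((∑ t, a r t - ε) ^ 2 / w r - (∑ t, a r t) ^ 2 / w r)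
          + ((∑ t, a r' t + ε) ^ 2 / w r' - (∑ t, a r' t) ^ 2 / w r') := by
      rw [← Finset.sum_sub_distrib]
      have hsub : ∑ s, ((∑ t, a' s t) ^ 2 / w s - (∑ t, a s t) ^ 2 / w s)
          = ∑ s ∈ ({r, r'} : Finset V), ((∑ t, a' s t) ^ 2 / w s - (∑ t, a s t) ^ 2 / w s) := by
        symm
        apply Finset.sum_subset (Finset.subset_univ _)
        intro s _ hs
        simp only [Finset.mem_insert, Finset.mem_singleton, not_or] at hs
        rw [hrow s, if_neg hs.1, if_neg hs.2]; ring
      rw [hsub, Finset.sum_pair hrr, hrow r, hrow r']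
      simp only [if_true, if_neg hrr, if_neg hrr.symm]
      ring
    have hfin : ((∑ t, a r t - ε) ^ 2 / w r - (∑ t, a r t) ^ 2 / w r)
          + ((∑ t, a r' t + ε) ^ 2 / w r' - (∑ t, a r' t) ^ 2 / w r')
          = -2 * ε * D + ε * (ε * c) := by
      rw [hD, hc, lam, lam]
      field_simp
      ring
    have : -2 * ε * D + ε * (ε * c) < 0 := by
      nlinarith
    have hle' : ∑ s, (∑ t, a s t) ^ 2 / w s ≤ ∑ s, (∑ t, a' s t) ^ 2 / w s := hle
    linarith

variable {w : V → ℝ} {adj : V → V → Prop} {G R G' R' : Finset V} {a a' : V → V → ℝ}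

lemma lam_mul (hw : ∀ x, 0 < w x) (a : V → V → ℝ) (r : V) : lam w a r * w r = ∑ g, a r g := by
  rw [lam]; have := (hw r).ne'; field_simp

/-- Hall condition gives ratio at least one -/
theorem Alloc.one_le (hw : ∀ x, 0 < w x) (H : Alloc w adj G R a)
    (hall : ∀ Z ⊆ R, ∀ Γ : Finset V, (∀ g, g ∈ Γ ↔ g ∈ G ∧ ∃ r ∈ Z, adj r g) →
      ∑ r ∈ Z, w r ≤ ∑ g ∈ Γ, w g) :
    ∀ r ∈ R, 1 ≤ lam w a r := by
  classical
  intro r hr
  obtain ⟨r0, hr0, hmin⟩ := Finset.exists_min_image R (lam w a) ⟨r, hr⟩
  have hmain : 1 ≤ lam w a r0 := by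
    set Z := R.filter (fun s => lam w a s ≤ lam w a r0) with hZ
    set Γ := G.filter (fun g => ∃ s ∈ Z, adj s g) with hΓ
    have h1 := hall Z (Finset.filter_subset _ _) Γ (fun g => by rw [hΓ, Finset.mem_filter])
    have h2 : ∑ g ∈ Γ, w g ≤ ∑ s ∈ Z, lam w a s * w s := by
      calc ∑ g ∈ Γ, w g = ∑ g ∈ Γ, ∑ s ∈ Z, a s g := by
            refine Finset.sum_congr rfl fun g hg => ?_
            rw [hΓ, Finset.mem_filter] at hg
            obtain ⟨hgG, s1, hs1, hadj⟩ := hg
            rw [← H.tot g hgG]
            symm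
            apply Finset.sum_subset (Finset.subset_univ _)
            intro s _ hs
            by_contra hne
            have hpos : 0 < a s g := lt_of_le_of_ne (H.nn s g) (Ne.symm hne)
            have hs1' := hs1
            rw [hZ, Finset.mem_filter] at hs1'
            have := H.fair s g hpos s1 hs1'.1 hadj
            exact hs (by rw [hZ, Finset.mem_filter]; exact ⟨(H.supp s g hne).1, this.trans hs1'.2⟩)
        _ = ∑ s ∈ Z, ∑ g ∈ Γ, a s g := Finset.sum_comm
        _ ≤ ∑ s ∈ Z, lam w a s * w s := by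
            refine Finset.sum_le_sum fun s _ => ?_
            rw [lam_mul hw]
            exact Finset.sum_le_sum_of_subset_of_nonneg (Finset.subset_univ _)
              (fun g _ _ => H.nn s g)
    have h3 : ∑ s ∈ Z, lam w a s * w s ≤ lam w a r0 * ∑ s ∈ Z, w s := by
      rw [Finset.mul_sum]
      refine Finset.sum_le_sum fun s hs => ?_
      rw [hZ, Finset.mem_filter] at hs
      exact mul_le_mul_of_nonneg_right hs.2 (hw s).le
    have h4 : 0 < ∑ s ∈ Z, w s := by
      apply Finset.sum_pos (fun s _ => hw s)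
      exact ⟨r0, by rw [hZ, Finset.mem_filter]; exact ⟨hr0, le_rfl⟩⟩
    by_contra hlt
    push Not at hlt
    nlinarith
  exact hmain.trans (hmin r hr)

/-- monotonicity of the fair allocation -/
theorem Alloc.mono (hw : ∀ x, 0 < w x) (H : Alloc w adj G R a) (H' : Alloc w adj G' R' a')
    (hG : ∀ g ∈ G, ∀ r ∈ R', adj r g → g ∈ G') (hR : ∀ r ∈ R', ∀ g ∈ G, adj r g → r ∈ R) :
    ∀ r ∈ R, r ∈ R' → lam w a r ≤ lam w a' r := by
  classical
  set C := (Finset.univ : Finset V).filter (fun r => r ∈ R ∧ r ∈ R' ∧ lam w a' r < lam w a r)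
    with hC
  by_cases hne : C.Nonempty
  · exfalso
    set Γ := (Finset.univ : Finset V).filter (fun g => ∃ r ∈ C, 0 < a r g) with hΓ
    have h1 : ∑ r ∈ C, lam w a' r * w r < ∑ r ∈ C, lam w a r * w r := by
      apply Finset.sum_lt_sum_of_nonempty hne
      intro r hr
      rw [hC, Finset.mem_filter] at hr
      exact mul_lt_mul_of_pos_right hr.2.2.2 (hw r)
    have h2 : ∑ r ∈ C, lam w a r * w r ≤ ∑ g ∈ Γ, ∑ r, a r g := by
      calc ∑ r ∈ C, lam w a r * w r = ∑ r ∈ C, ∑ g ∈ Γ, a r g := by
            refine Finset.sum_congr rfl fun r hr => ?_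
            rw [lam_mul hw]
            symm
            apply Finset.sum_subset (Finset.subset_univ _)
            intro g _ hg
            by_contra hne
            exact hg (by rw [hΓ, Finset.mem_filter]
                         exact ⟨Finset.mem_univ _, r, hr, lt_of_le_of_ne (H.nn r g) (Ne.symm hne)⟩)
        _ = ∑ g ∈ Γ, ∑ r ∈ C, a r g := Finset.sum_comm
        _ ≤ ∑ g ∈ Γ, ∑ r, a r g := by
            refine Finset.sum_le_sum fun g _ => ?_
            exact Finset.sum_le_sum_of_subset_of_nonneg (Finset.subset_univ _)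
              (fun r _ _ => H.nn r g)
    have h3 : ∑ g ∈ Γ, ∑ r, a r g ≤ ∑ r ∈ C, lam w a' r * w r := by
      calc ∑ g ∈ Γ, ∑ r, a r g = ∑ g ∈ Γ, ∑ r ∈ C, a' r g := by
            refine Finset.sum_congr rfl fun g hg => ?_
            rw [hΓ, Finset.mem_filter] at hg
            obtain ⟨-, r, hr, hpos⟩ := hg
            have hr' := hr
            rw [hC, Finset.mem_filter] at hr'
            obtain ⟨-, hrR, hrR', hlt⟩ := hr'
            obtain ⟨-, hgG, hadj⟩ := H.supp r g hpos.ne'
            have hgG' : g ∈ G' := hG g hgG r hrR' hadj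
            rw [H.tot g hgG, ← H'.tot g hgG']
            symm
            apply Finset.sum_subset (Finset.subset_univ _)
            intro s _ hs
            by_contra hne
            have hspos : 0 < a' s g := lt_of_le_of_ne (H'.nn s g) (Ne.symm hne)
            obtain ⟨hsR', -, hsadj⟩ := H'.supp s g hne
            have hsR : s ∈ R := hR s hsR' g hgG hsadj
            have e1 := H'.fair s g hspos r hrR' hadj
            have e2 := H.fair r g hpos s hsR hsadj
            exact hs (by rw [hC, Finset.mem_filter]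
                         exact ⟨Finset.mem_univ _, hsR, hsR', by linarith⟩)
        _ = ∑ r ∈ C, ∑ g ∈ Γ, a' r g := Finset.sum_comm
        _ ≤ ∑ r ∈ C, lam w a' r * w r := by
            refine Finset.sum_le_sum fun r _ => ?_
            rw [lam_mul hw]
            exact Finset.sum_le_sum_of_subset_of_nonneg (Finset.subset_univ _)
              (fun g _ _ => H'.nn r g)
    linarith
  · intro r hr hr'
    by_contra hlt
    push Not at hlt
    exact hne ⟨r, by rw [hC, Finset.mem_filter]; exact ⟨Finset.mem_univ _, hr, hr', hlt⟩⟩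

end Crest.Agent.R057.Star202
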