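import Crest.Agent.R057.Cg1_765

/-!
# R057 (S0079): Theorem 0 of helper221 (bipartite form) = inequality (R) of 427 for 280's (STAR)

All masses are with respect to a nonnegative weight `w`; `N x` is a (closed) out-neighbourhood.
-/

set_option autoImplicit false
set_option linter.unusedSectionVars false

namespace Crest.Agent.R057.Star221

open Finset Crest.Agent.R057.Cg765

variable {V : Type*} [Fintype V] [DecidableEq V]

/-- column section -/
def col (X : V → Finset V) (y : V) : Finset V := univ.filter fun b => y ∈ X b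

@[simp] lemma mem_col {X : V → Finset V} {b y : V} : b ∈ col X y ↔ y ∈ X b := by simp [col]

/-- product mass of a subset of the board -/
def mass (w : V → ℝ) (X : V → Finset V) : ℝ := ∑ b, w b * wt w (X b)

lemma sum_swap (X : V → Finset V) (f : V → V → ℝ) :
    ∑ b, ∑ y ∈ X b, f b y = ∑ y, ∑ b ∈ col X y, f b y := by
  have h1 : ∀ b, ∑ y ∈ X b, f b y = ∑ y, if y ∈ X b then f b y else 0 := by
    intro b; rw [← Finset.sum_filter]; congr 1; ext y; simp
  have h2 : ∀ y, ∑ b ∈ col X y, f b y = ∑ b, if y ∈ X b then f b y else 0 := by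
    intro y; rw [← Finset.sum_filter]; rfl
  simp only [h1, h2]
  exact Finset.sum_comm

lemma mass_col (w : V → ℝ) (X : V → Finset V) : mass w (col X) = mass w X := by
  unfold mass wt
  simp only [Finset.mul_sum]
  rw [sum_swap (X := X)]
  apply Finset.sum_congr rfl; intro y _
  apply Finset.sum_congr rfl; intro b _
  ring

/-! ### layer cake under a Hall condition -/

lemma layer (N : V → Finset V) (w : V → ℝ) (hw : ∀ x, 0 ≤ w x) (S T : Finset V)
    (hall : ∀ U ⊆ S, wt w U ≤ wt w (T ∩ U.biUnion N)) :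
    ∀ (n : ℕ) (s m : V → ℝ), (S.filter fun x => 0 < s x).card = n →
      (∀ x ∈ S, 0 ≤ s x) → (∀ y ∈ T, 0 ≤ m y) → (∀ x ∈ S, ∀ y ∈ T, y ∈ N x → s x ≤ m y) →
      ∑ x ∈ S, w x * s x ≤ ∑ y ∈ T, w y * m y := by
  intro n
  induction n using Nat.strong_induction_on with
  | _ n ih =>
    intro s m hn hs hm hsm
    set U := S.filter fun x => 0 < s x with hU
    rcases U.eq_empty_or_nonempty with hUe | hUne
    · have h0 : ∀ x ∈ S, s x = 0 := by
        intro x hx
        by_contra hne
        have hpos : 0 < s x := lt_of_le_of_ne (hs x hx) (Ne.symm hne)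
        have : x ∈ U := by rw [hU]; exact Finset.mem_filter.mpr ⟨hx, hpos⟩
        rw [hUe] at this; simp at this
      have h1 : ∑ x ∈ S, w x * s x = 0 := Finset.sum_eq_zero fun x hx => by rw [h0 x hx, mul_zero]
      rw [h1]
      exact Finset.sum_nonneg fun y hy => mul_nonneg (hw y) (hm y hy)
    · obtain ⟨x0, hx0, hmin⟩ := U.exists_min_image s hUne
      set c := s x0 with hc
      have hcpos : 0 < c := (Finset.mem_filter.mp hx0).2
      have hUS : U ⊆ S := Finset.filter_subset _ _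
      set K := T ∩ U.biUnion N with hK
      let s' : V → ℝ := fun x => s x - (if x ∈ U then c else 0)
      let m' : V → ℝ := fun y => m y - (if y ∈ K then c else 0)
      have hs' : ∀ x ∈ S, 0 ≤ s' x := by
        intro x hx
        simp only [s']
        split_ifs with h
        · have := hmin x h; linarith
        · have := hs x hx; linarith
      have hKm : ∀ y ∈ K, ∃ x ∈ U, y ∈ N x ∧ s x ≤ m y := by
        intro y hy
        obtain ⟨hyT, hyU⟩ := Finset.mem_inter.mp hy
        obtain ⟨x, hx, hyx⟩ := Finset.mem_biUnion.mp hyU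
        exact ⟨x, hx, hyx, hsm x (hUS hx) y hyT hyx⟩
      have hm' : ∀ y ∈ T, 0 ≤ m' y := by
        intro y hy
        simp only [m']
        split_ifs with h
        · obtain ⟨x, hx, _, hxm⟩ := hKm y h
          have := hmin x hx; linarith
        · have := hm y hy; linarith
      have hsm' : ∀ x ∈ S, ∀ y ∈ T, y ∈ N x → s' x ≤ m' y := by
        intro x hx y hy hyx
        simp only [s', m']
        by_cases hxU : x ∈ U
        · have hyK : y ∈ K := by
            rw [hK]; exact Finset.mem_inter.mpr ⟨hy, Finset.mem_biUnion.mpr ⟨x, hxU, hyx⟩⟩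
          rw [if_pos hxU, if_pos hyK]
          have := hsm x hx y hy hyx; linarith
        · have hsx : s x = 0 := by
            by_contra hne
            exact hxU (Finset.mem_filter.mpr ⟨hx, lt_of_le_of_ne (hs x hx) (Ne.symm hne)⟩)
          have := hm' y hy
          simp only [m'] at this
          rw [if_neg hxU, hsx]; linarith
      have hlt : (S.filter fun x => 0 < s' x).card < n := by
        rw [← hn]
        apply Finset.card_lt_card
        rw [Finset.ssubset_iff_of_subset]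
        · refine ⟨x0, hx0, ?_⟩
          simp only [Finset.mem_filter, not_and, s']
          intro _
          rw [if_pos hx0]; simp [hc]
        · intro x hx
          simp only [Finset.mem_filter, s'] at hx
          rw [hU]
          refine Finset.mem_filter.mpr ⟨hx.1, ?_⟩
          by_cases hxU : x ∈ U
          · exact (Finset.mem_filter.mp hxU).2
          · rw [if_neg hxU] at hx; linarith [hx.2]
      have hih := ih _ hlt s' m' rfl hs' hm' hsm'
      have hhall := hall U hUS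
      have e1 : ∑ x ∈ S, w x * s' x = ∑ x ∈ S, w x * s x - c * wt w U := by
        simp only [s', mul_sub, Finset.sum_sub_distrib]
        congr 1
        simp only [mul_ite, mul_zero]
        rw [← Finset.sum_filter, Finset.filter_mem_eq_inter, Finset.inter_eq_right.mpr hUS,
          wt, Finset.mul_sum]
        exact Finset.sum_congr rfl fun x _ => mul_comm _ _
      have hKT : K ⊆ T := Finset.inter_subset_left
      have e2 : ∑ y ∈ T, w y * m' y = ∑ y ∈ T, w y * m y - c * wt w K := by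
        simp only [m', mul_sub, Finset.sum_sub_distrib]
        congr 1
        simp only [mul_ite, mul_zero]
        rw [← Finset.sum_filter, Finset.filter_mem_eq_inter, Finset.inter_eq_right.mpr hKT,
          wt, Finset.mul_sum]
        exact Finset.sum_congr rfl fun x _ => mul_comm _ _
      have := mul_le_mul_of_nonneg_left hhall hcpos.le
      linarith

/-! ### the partition lemma (A) -/

lemma lemA (N : V → Finset V) (w : V → ℝ) (hw : ∀ x, 0 ≤ w x) (Nt TT : V → Finset V)
    (hrow : ∀ b' , ∀ U ⊆ Nt b', wt w U ≤ wt w (TT b' ∩ U.biUnion N))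
    (Qb : Finset V) (I : Finset V)
    (hcross : ∀ b' ∈ I, ∀ y' ∈ Qb, ∀ y, y ∈ TT b' → y ∈ N y' → y' ∈ Nt b') :
    ∀ U ⊆ Qb, (∀ y' ∈ U, ∃ b' ∈ I, y' ∈ Nt b') →
      wt w U ≤ wt w (U.biUnion N ∩ I.biUnion TT) := by
  induction I using Finset.induction_on with
  | empty =>
    intro U _ hU
    have : U = ∅ := by
      rw [Finset.eq_empty_iff_forall_notMem]; intro y hy
      obtain ⟨b', hb', _⟩ := hU y hy
      simp at hb'
    rw [this]; simp
  | insert b' I hb' ih =>
    intro U hUQ hU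
    have hcross' : ∀ c ∈ I, ∀ y' ∈ Qb, ∀ y, y ∈ TT c → y ∈ N y' → y' ∈ Nt c :=
      fun c hc => hcross c (Finset.mem_insert_of_mem hc)
    set U1 := U.filter fun y => y ∈ Nt b' with hU1
    set U2 := U.filter fun y => y ∉ Nt b' with hU2
    have hsum : wt w U = wt w U1 + wt w U2 := by
      rw [wt, wt, wt, hU1, hU2, Finset.sum_filter_add_sum_filter_not]
    have h1 : wt w U1 ≤ wt w (TT b' ∩ U1.biUnion N) :=
      hrow b' U1 (fun y hy => (Finset.mem_filter.mp hy).2)
    have h2 : wt w U2 ≤ wt w (U2.biUnion N ∩ I.biUnion TT) := by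
      refine ih hcross' U2 ((Finset.filter_subset _ _).trans hUQ) ?_
      intro y hy
      obtain ⟨hyU, hyN⟩ := Finset.mem_filter.mp hy
      obtain ⟨c, hc, hyc⟩ := hU y hyU
      rcases Finset.mem_insert.mp hc with rfl | hc
      · exact absurd hyc hyN
      · exact ⟨c, hc, hyc⟩
    have hdisj : Disjoint (TT b' ∩ U1.biUnion N) (U2.biUnion N ∩ I.biUnion TT) := by
      rw [Finset.disjoint_left]
      intro y hy hy'
      obtain ⟨y2, hy2, hyy2⟩ := Finset.mem_biUnion.mp (Finset.mem_inter.mp hy').1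
      obtain ⟨hy2U, hy2N⟩ := Finset.mem_filter.mp hy2
      exact hy2N (hcross b' (Finset.mem_insert_self _ _) y2 (hUQ hy2U) y
        (Finset.mem_inter.mp hy).1 hyy2)
    have hsub : (TT b' ∩ U1.biUnion N) ∪ (U2.biUnion N ∩ I.biUnion TT)
        ⊆ U.biUnion N ∩ (insert b' I).biUnion TT := by
      intro y hy
      rcases Finset.mem_union.mp hy with h | h
      · obtain ⟨ha, hb⟩ := Finset.mem_inter.mp h
        obtain ⟨z, hz, hyz⟩ := Finset.mem_biUnion.mp hb
        exact Finset.mem_inter.mpr ⟨Finset.mem_biUnion.mpr ⟨z, (Finset.mem_filter.mp hz).1, hyz⟩,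
          Finset.mem_biUnion.mpr ⟨b', Finset.mem_insert_self _ _, ha⟩⟩
      · obtain ⟨ha, hb⟩ := Finset.mem_inter.mp h
        obtain ⟨z, hz, hyz⟩ := Finset.mem_biUnion.mp ha
        obtain ⟨c, hc, hyc⟩ := Finset.mem_biUnion.mp hb
        exact Finset.mem_inter.mpr ⟨Finset.mem_biUnion.mpr ⟨z, (Finset.mem_filter.mp hz).1, hyz⟩,
          Finset.mem_biUnion.mpr ⟨c, Finset.mem_insert_of_mem hc, hyc⟩⟩
    have h3 := wt_mono hw hsub
    rw [wt_union_disj hdisj] at h3
    linarith

/-! ### the transport capacity (min-cut form) -/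

/-- sources of `A` with a neighbour in `K` -/
def nb (N : V → Finset V) (A K : Finset V) : Finset V := A.filter fun x => ∃ y ∈ K, y ∈ N x

lemma mem_nb {N : V → Finset V} {A K : Finset V} {x : V} :
    x ∈ nb N A K ↔ x ∈ A ∧ ∃ y ∈ K, y ∈ N x := by simp [nb]

/-- value of a cut -/
def cutv (N : V → Finset V) (w : V → ℝ) (A K K' : Finset V) : ℝ := wt w (K \ K') + wt w (nb N A K')

/-- maximal flow from `A` to `K`, as a minimum over cuts -/
noncomputable def cap (N : V → Finset V) (w : V → ℝ) (A K : Finset V) : ℝ :=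
  K.powerset.inf' ⟨∅, Finset.empty_mem_powerset K⟩ (cutv N w A K)

lemma cap_le {N : V → Finset V} {w : V → ℝ} {A K K' : Finset V} (h : K' ⊆ K) :
    cap N w A K ≤ cutv N w A K K' :=
  Finset.inf'_le _ (Finset.mem_powerset.mpr h)

lemma exists_cap (N : V → Finset V) (w : V → ℝ) (A K : Finset V) :
    ∃ K' ⊆ K, cap N w A K = cutv N w A K K' := by
  obtain ⟨K', hK', h⟩ := Finset.exists_mem_eq_inf' (s := K.powerset)
    ⟨∅, Finset.empty_mem_powerset K⟩ (cutv N w A K)
  exact ⟨K', Finset.mem_powerset.mp hK', h⟩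

lemma cap_empty (N : V → Finset V) (w : V → ℝ) (A : Finset V) : cap N w A ∅ = 0 := by
  obtain ⟨K', hK', h⟩ := exists_cap N w A ∅
  have : K' = ∅ := Finset.subset_empty.mp hK'
  rw [h, this, cutv]
  simp [nb]

lemma cap_full {N : V → Finset V} {w : V → ℝ} (hw : ∀ x, 0 ≤ w x) {A K : Finset V}
    (hall : ∀ U ⊆ A, wt w U ≤ wt w (K ∩ U.biUnion N)) : cap N w A K = wt w A := by
  apply le_antisymm
  · refine (cap_le (le_refl K)).trans ?_
    rw [cutv, Finset.sdiff_self, wt_empty, zero_add]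
    exact wt_mono hw (Finset.filter_subset _ _)
  · obtain ⟨K', hK', h⟩ := exists_cap N w A K
    rw [h, cutv]
    have h1 := hall (A \ nb N A K') Finset.sdiff_subset
    have h2 : K ∩ (A \ nb N A K').biUnion N ⊆ K \ K' := by
      intro y hy
      obtain ⟨hyK, hyU⟩ := Finset.mem_inter.mp hy
      obtain ⟨x, hx, hyx⟩ := Finset.mem_biUnion.mp hyU
      obtain ⟨hxA, hxn⟩ := Finset.mem_sdiff.mp hx
      refine Finset.mem_sdiff.mpr ⟨hyK, fun hyK' => hxn ?_⟩
      exact mem_nb.mpr ⟨hxA, y, hyK', hyx⟩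
    have h3 := wt_mono hw h2
    have h4 : wt w (A \ nb N A K') = wt w A - wt w (nb N A K') :=
      wt_sdiff_of_subset (Finset.filter_subset _ _)
    linarith

lemma cap_insert_le {N : V → Finset V} {w : V → ℝ} (hw : ∀ x, 0 ≤ w x) {A K : Finset V} {y : V} :
    cap N w A (insert y K) ≤ cap N w A K + w y := by
  obtain ⟨K', hK', h⟩ := exists_cap N w A K
  refine (cap_le (hK'.trans (Finset.subset_insert y K))).trans ?_
  rw [h, cutv, cutv]
  have h1 : insert y K \ K' ⊆ (K \ K') ∪ {y} := by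
    intro z hz
    simp only [Finset.mem_sdiff, Finset.mem_insert, Finset.mem_union, Finset.mem_singleton] at hz ⊢
    tauto
  have h2 := wt_mono hw h1
  rw [wt_union] at h2
  have h3 : wt w ({y} \ (K \ K')) ≤ w y := by
    have := wt_mono hw (Finset.sdiff_subset : {y} \ (K \ K') ⊆ {y})
    rwa [wt_singleton] at this
  linarith

/-- **marginal comparison**. -/
lemma cap_marg {N : V → Finset V} {w : V → ℝ} (hw : ∀ x, 0 ≤ w x) {A1 A2 T S P : Finset V}
    {y : V} (hyT : y ∈ T) (hyS : y ∈ S) (hyP : y ∉ P)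
    (hc : ∀ x ∈ A1, ∀ z ∈ T, z ∈ N x → x ∈ A2 ∧ z ∈ S) :
    cap N w A1 (insert y (S ∩ P)) + cap N w A2 (T ∩ P) ≤
      cap N w A1 (S ∩ P) + cap N w A2 (insert y (T ∩ P)) := by
  obtain ⟨K1, hK1, h1⟩ := exists_cap N w A2 (insert y (T ∩ P))
  obtain ⟨K2, hK2, h2⟩ := exists_cap N w A1 (S ∩ P)
  have hK1T : ∀ z ∈ K1, z ∈ T := by
    intro z hz
    rcases Finset.mem_insert.mp (hK1 hz) with rfl | h
    · exact hyT
    · exact (Finset.mem_inter.mp h).1
  have hK1P : ∀ z ∈ K1, z ≠ y → z ∈ P := by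
    intro z hz hne
    rcases Finset.mem_insert.mp (hK1 hz) with h | h
    · exact absurd h hne
    · exact (Finset.mem_inter.mp h).2
  have hyK2 : y ∉ K2 := fun h => hyP (Finset.mem_inter.mp (hK2 h)).2
  set K3 := K1.filter fun z => z ∈ K2 ∨ z ∉ S with hK3
  set K4 := (K1 ∩ S) ∪ K2 with hK4
  have hK3s : K3 ⊆ T ∩ P := by
    intro z hz
    obtain ⟨hz1, hz2⟩ := Finset.mem_filter.mp hz
    refine Finset.mem_inter.mpr ⟨hK1T z hz1, hK1P z hz1 ?_⟩
    rintro rfl
    rcases hz2 with h | h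
    · exact hyK2 h
    · exact h hyS
  have hK4s : K4 ⊆ insert y (S ∩ P) := by
    intro z hz
    rcases Finset.mem_union.mp hz with h | h
    · obtain ⟨ha, hb⟩ := Finset.mem_inter.mp h
      by_cases hzy : z = y
      · subst hzy; exact Finset.mem_insert_self _ _
      · exact Finset.mem_insert_of_mem (Finset.mem_inter.mpr ⟨hb, hK1P z ha hzy⟩)
    · exact Finset.mem_insert_of_mem (hK2 h)
  have h3 := cap_le (N := N) (w := w) (A := A2) hK3s
  have h4 := cap_le (N := N) (w := w) (A := A1) hK4s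
  -- modular part
  have hun : K3 ∪ K4 = K1 ∪ K2 := by
    ext z; simp only [hK3, hK4, Finset.mem_union, Finset.mem_filter, Finset.mem_inter]; tauto
  have hin : K3 ∩ K4 = K1 ∩ K2 := by
    ext z; simp only [hK3, hK4, Finset.mem_union, Finset.mem_filter, Finset.mem_inter]; tauto
  have hmod : wt w K3 + wt w K4 = wt w K1 + wt w K2 := by
    have a := Finset.sum_union_inter (s₁ := K3) (s₂ := K4) (f := w)
    have b := Finset.sum_union_inter (s₁ := K1) (s₂ := K2) (f := w)
    rw [hun, hin] at a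
    simp only [wt]; linarith
  have hyTP : y ∉ T ∩ P := fun h => hyP (Finset.mem_inter.mp h).2
  have hySP : y ∉ S ∩ P := fun h => hyP (Finset.mem_inter.mp h).2
  have e1 : wt w (insert y (T ∩ P) \ K1) = w y + wt w (T ∩ P) - wt w K1 := by
    rw [wt_sdiff_of_subset hK1, wt, Finset.sum_insert hyTP]; rfl
  have e2 : wt w ((S ∩ P) \ K2) = wt w (S ∩ P) - wt w K2 := wt_sdiff_of_subset hK2
  have e3 : wt w ((T ∩ P) \ K3) = wt w (T ∩ P) - wt w K3 := wt_sdiff_of_subset hK3s
  have e4 : wt w (insert y (S ∩ P) \ K4) = w y + wt w (S ∩ P) - wt w K4 := by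
    rw [wt_sdiff_of_subset hK4s, wt, Finset.sum_insert hySP]; rfl
  -- neighbourhood part
  set Z := nb N A1 K4 \ nb N A1 K2 with hZ
  have hZ1 : wt w Z = wt w (nb N A1 K4) - wt w (nb N A1 K2) := by
    apply wt_sdiff_of_subset
    intro x hx
    obtain ⟨hxA, z, hz, hzx⟩ := mem_nb.mp hx
    exact mem_nb.mpr ⟨hxA, z, Finset.mem_union_right _ hz, hzx⟩
  have hZd : Disjoint Z (nb N A2 K3) := by
    rw [Finset.disjoint_left]
    intro x hx hx'
    obtain ⟨hx4, hx2⟩ := Finset.mem_sdiff.mp hx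
    have hxA1 := (mem_nb.mp hx4).1
    obtain ⟨_, z, hz, hzx⟩ := mem_nb.mp hx'
    obtain ⟨hz1, hz2⟩ := Finset.mem_filter.mp hz
    rcases hz2 with h | h
    · exact hx2 (mem_nb.mpr ⟨hxA1, z, h, hzx⟩)
    · exact h (hc x hxA1 z (hK1T z hz1) hzx).2
  have hZs : Z ∪ nb N A2 K3 ⊆ nb N A2 K1 := by
    intro x hx
    rcases Finset.mem_union.mp hx with h | h
    · obtain ⟨hx4, hx2⟩ := Finset.mem_sdiff.mp h
      obtain ⟨hxA1, z, hz, hzx⟩ := mem_nb.mp hx4
      rcases Finset.mem_union.mp hz with h' | h'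
      · have hz1 := (Finset.mem_inter.mp h').1
        exact mem_nb.mpr ⟨(hc x hxA1 z (hK1T z hz1) hzx).1, z, hz1, hzx⟩
      · exact absurd (mem_nb.mpr ⟨hxA1, z, h', hzx⟩) hx2
    · obtain ⟨hxA2, z, hz, hzx⟩ := mem_nb.mp h
      exact mem_nb.mpr ⟨hxA2, z, (Finset.mem_filter.mp hz).1, hzx⟩
  have hZw := wt_mono hw hZs
  rw [wt_union_disj hZd] at hZw
  rw [h1, h2]
  simp only [cutv] at h3 h4 ⊢
  linarith

/-! ### telescoping -/

lemma telescope (rk : V → ℕ) (hrk : Function.Injective rk) (f : Finset V → ℝ) (h0 : f ∅ = 0)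
    (S : Finset V) :
    ∑ y ∈ S, (f (insert y (S ∩ univ.filter fun z => rk z < rk y))
      - f (S ∩ univ.filter fun z => rk z < rk y)) = f S := by
  refine Finset.induction_on_max_value rk S ?_ ?_
  · simp [h0]
  · intro a S ha hmax ih
    have hlt : ∀ x ∈ S, rk x < rk a := fun x hx =>
      lt_of_le_of_ne (hmax x hx) fun h => ha ((hrk h) ▸ hx)
    rw [Finset.sum_insert ha]
    have e1 : insert a S ∩ univ.filter (fun z => rk z < rk a) = S := by
      ext z
      simp only [Finset.mem_inter, Finset.mem_insert, Finset.mem_filter, Finset.mem_univ, true_and]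
      constructor
      · rintro ⟨rfl | h, h'⟩
        · exact absurd h' (lt_irrefl _)
        · exact h
      · intro h; exact ⟨Or.inr h, hlt z h⟩
    have e2 : ∀ y ∈ S, insert a S ∩ univ.filter (fun z => rk z < rk y)
        = S ∩ univ.filter (fun z => rk z < rk y) := by
      intro y hy
      ext z
      simp only [Finset.mem_inter, Finset.mem_insert, Finset.mem_filter, Finset.mem_univ, true_and]
      constructor
      · rintro ⟨rfl | h, h'⟩
        · exact absurd (h'.trans (hlt y hy)) (lt_irrefl _)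
        · exact ⟨h, h'⟩
      · rintro ⟨h, h'⟩; exact ⟨Or.inr h, h'⟩
    rw [e1]
    have e3 : ∑ y ∈ S, (f (insert y (insert a S ∩ univ.filter fun z => rk z < rk y))
        - f (insert a S ∩ univ.filter fun z => rk z < rk y)) = f S := by
      rw [← ih]
      apply Finset.sum_congr rfl
      intro y hy
      rw [e2 y hy]
    rw [e3]; ring

/-! ### Theorem 0 -/

theorem theorem0 (N : V → Finset V) (w : V → ℝ) (hw : ∀ x, 0 ≤ w x) (Nt QQ TT Sec : V → Finset V)
    (hrow : ∀ b', ∀ U ⊆ Nt b', wt w U ≤ wt w (TT b' ∩ U.biUnion N))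
    (hcol : ∀ y', ∀ U ⊆ col Nt y', wt w U ≤ wt w (col QQ y' ∩ U.biUnion N))
    (hcross : ∀ b y' b' y, y' ∈ QQ b → y ∈ TT b' → b ∈ N b' → y ∈ N y' → y' ∈ Nt b')
    (hQQ : ∀ b y', y' ∈ QQ b → ∃ b', b ∈ N b' ∧ y' ∈ Nt b')
    (hTT : ∀ b' y, y ∈ TT b' → ∃ y', y ∈ N y' ∧ y' ∈ Nt b')
    (hSec : ∀ b y, y ∈ Sec b ↔ (∃ y' ∈ QQ b, y ∈ N y') ∧ ∃ b', b ∈ N b' ∧ y ∈ TT b') :
    mass w QQ + mass w TT ≤ mass w Nt + mass w Sec := by
  classical
  obtain ⟨rk, hrk⟩ : ∃ rk : V → ℕ, Function.Injective rk :=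
    ⟨fun x => (Fintype.equivFin V x : ℕ), fun x y h => by
      apply (Fintype.equivFin V).injective; exact Fin.ext h⟩
  -- (A)
  have hA : ∀ b, ∀ U ⊆ QQ b, wt w U ≤ wt w (Sec b ∩ U.biUnion N) := by
    intro b U hU
    have h1 := lemA N w hw Nt TT hrow (QQ b) (univ.filter fun b' => b ∈ N b')
      (fun b' hb' y' hy' y hy hyy => hcross b y' b' y hy' hy (Finset.mem_filter.mp hb').2 hyy) U hU
      (fun y' hy' => by
        obtain ⟨b', h1, h2⟩ := hQQ b y' (hU hy')
        exact ⟨b', by simpa using h1, h2⟩)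
    refine h1.trans (wt_mono hw ?_)
    intro y hy
    obtain ⟨ha, hb⟩ := Finset.mem_inter.mp hy
    refine Finset.mem_inter.mpr ⟨(hSec b y).mpr ⟨?_, ?_⟩, ha⟩
    · obtain ⟨y', hy', hyy⟩ := Finset.mem_biUnion.mp ha
      exact ⟨y', hU hy', hyy⟩
    · obtain ⟨b', hb', hyb⟩ := Finset.mem_biUnion.mp hb
      exact ⟨b', (Finset.mem_filter.mp hb').2, hyb⟩
  -- (A')
  have hA' : ∀ y, ∀ U ⊆ col TT y, wt w U ≤ wt w (col Sec y ∩ U.biUnion N) := by
    intro y U hU
    have h1 := lemA N w hw (col Nt) (col QQ) hcol (col TT y) (univ.filter fun y' => y ∈ N y')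
      (fun y' hy' b' hb' b hb hbb => by
        rw [mem_col] at hb' hb ⊢
        exact hcross b y' b' y hb hb' hbb (Finset.mem_filter.mp hy').2) U hU
      (fun b' hb' => by
        obtain ⟨y', h1, h2⟩ := hTT b' y (mem_col.mp (hU hb'))
        exact ⟨y', by simpa using h1, mem_col.mpr h2⟩)
    refine h1.trans (wt_mono hw ?_)
    intro b hb
    obtain ⟨ha, hb⟩ := Finset.mem_inter.mp hb
    refine Finset.mem_inter.mpr ⟨mem_col.mpr ((hSec b y).mpr ⟨?_, ?_⟩), ha⟩
    · obtain ⟨y', hy', hbb⟩ := Finset.mem_biUnion.mp hb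
      exact ⟨y', mem_col.mp hbb, (Finset.mem_filter.mp hy').2⟩
    · obtain ⟨b', hb', hyb⟩ := Finset.mem_biUnion.mp ha
      exact ⟨b', hyb, mem_col.mp (hU hb')⟩
  let P : V → Finset V := fun y => univ.filter fun z => rk z < rk y
  have hyP : ∀ y, y ∉ P y := fun y => by simp [P]
  let s : V → V → ℝ := fun b' y =>
    w y - (cap N w (Nt b') (insert y (TT b' ∩ P y)) - cap N w (Nt b') (TT b' ∩ P y))
  let m : V → V → ℝ := fun b y =>
    w y - (cap N w (QQ b) (insert y (Sec b ∩ P y)) - cap N w (QQ b) (Sec b ∩ P y))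
  have hs0 : ∀ b' y, 0 ≤ s b' y := fun b' y => by
    have := cap_insert_le hw (N := N) (A := Nt b') (K := TT b' ∩ P y) (y := y)
    simp only [s]; linarith
  have hm0 : ∀ b y, 0 ≤ m b y := fun b y => by
    have := cap_insert_le hw (N := N) (A := QQ b) (K := Sec b ∩ P y) (y := y)
    simp only [m]; linarith
  have hsm : ∀ y b' b, y ∈ TT b' → y ∈ Sec b → b ∈ N b' → s b' y ≤ m b y := by
    intro y b' b hyT hyS hbb
    have := cap_marg hw (N := N) (A1 := QQ b) (A2 := Nt b') (T := TT b') (S := Sec b) (P := P y)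
      hyT hyS (hyP y) (fun x hx z hz hzx =>
        ⟨hcross b x b' z hx hz hbb hzx, (hSec b z).mpr ⟨⟨x, hx, hzx⟩, b', hbb, hz⟩⟩)
    simp only [s, m]; linarith
  have hB : ∀ b', ∑ y ∈ TT b', s b' y = wt w (TT b') - wt w (Nt b') := by
    intro b'
    simp only [s, Finset.sum_sub_distrib]
    rw [← Finset.sum_sub_distrib]
    have := telescope rk hrk (fun K => cap N w (Nt b') K) (cap_empty N w _) (TT b')
    rw [this, cap_full hw (hrow b')]; rfl
  have hC : ∀ b, ∑ y ∈ Sec b, m b y = wt w (Sec b) - wt w (QQ b) := by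
    intro b
    simp only [m, Finset.sum_sub_distrib]
    rw [← Finset.sum_sub_distrib]
    have := telescope rk hrk (fun K => cap N w (QQ b) K) (cap_empty N w _) (Sec b)
    rw [this, cap_full hw (hA b)]; rfl
  have hD : ∀ y, ∑ b' ∈ col TT y, w b' * s b' y ≤ ∑ b ∈ col Sec y, w b * m b y := by
    intro y
    exact layer N w hw (col TT y) (col Sec y) (hA' y) _ (fun b' => s b' y) (fun b => m b y) rfl
      (fun b' _ => hs0 b' y) (fun b _ => hm0 b y)
      (fun b' hb' b hb hbb => hsm y b' b (mem_col.mp hb') (mem_col.mp hb) hbb)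
  have e1 : mass w TT - mass w Nt = ∑ b', ∑ y ∈ TT b', w b' * s b' y := by
    simp only [mass]
    rw [← Finset.sum_sub_distrib]
    apply Finset.sum_congr rfl; intro b' _
    rw [← Finset.mul_sum, hB, mul_sub]
  have e2 : mass w Sec - mass w QQ = ∑ b, ∑ y ∈ Sec b, w b * m b y := by
    simp only [mass]
    rw [← Finset.sum_sub_distrib]
    apply Finset.sum_congr rfl; intro b _
    rw [← Finset.mul_sum, hC, mul_sub]
  have e3 : ∑ b', ∑ y ∈ TT b', w b' * s b' y ≤ ∑ b, ∑ y ∈ Sec b, w b * m b y := by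
    rw [sum_swap TT, sum_swap Sec]
    exact Finset.sum_le_sum fun y _ => hD y
  linarith

end Crest.Agent.R057.Star221
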