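import Crest.Agent.R057.Cg3_765

/-!
# R057 (S0079): flows on a bipartite graph and the inequality `(R)` (helper431)

`r x y` : `y` is in the closed out-neighbourhood of `x`.
`fl r w A Z` = maximal flow from the sources `A` to the sinks `Z` (defined as the minimal cut).
-/

set_option autoImplicit false
set_option linter.unusedSectionVars false

noncomputable section

namespace Crest.Agent.R057.Star431

open Finset Crest.Agent.R057.Cg765
open scoped Classical

variable {V : Type} [Fintype V] [DecidableEq V]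

/-- closed out-neighbourhood of a set for the relation `r` -/
def nb (r : V → V → Prop) (X : Finset V) : Finset V := univ.filter fun y => ∃ x ∈ X, r x y

lemma mem_nb {r : V → V → Prop} {X : Finset V} {y : V} : y ∈ nb r X ↔ ∃ x ∈ X, r x y := by
  simp [nb]

variable {r : V → V → Prop} {w : V → ℝ}

lemma wt_two (hw : ∀ x, 0 ≤ w x) {S1 S2 T1 T2 : Finset V} (h1 : S1 ∪ S2 ⊆ T1 ∪ T2)
    (h2 : S1 ∩ S2 ⊆ T1 ∩ T2) : wt w S1 + wt w S2 ≤ wt w T1 + wt w T2 := by
  have e1 : wt w (S1 ∪ S2) + wt w (S1 ∩ S2) = wt w S1 + wt w S2 := Finset.sum_union_inter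
  have e2 : wt w (T1 ∪ T2) + wt w (T1 ∩ T2) = wt w T1 + wt w T2 := Finset.sum_union_inter
  have h3 := wt_mono hw h1
  have h4 := wt_mono hw h2
  linarith

/-- value of the cut given by `X` -/
def cut (r : V → V → Prop) (w : V → ℝ) (A Z X : Finset V) : ℝ :=
  wt w (A \ X) + wt w (nb r X ∩ Z)

/-- minimal cut -/
def fl (r : V → V → Prop) (w : V → ℝ) (A Z : Finset V) : ℝ :=
  A.powerset.inf' ⟨∅, empty_mem_powerset A⟩ (cut r w A Z)

lemma fl_le {A Z X : Finset V} (h : X ⊆ A) : fl r w A Z ≤ cut r w A Z X :=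
  Finset.inf'_le _ (mem_powerset.2 h)

lemma exists_fl (r : V → V → Prop) (w : V → ℝ) (A Z : Finset V) :
    ∃ X ⊆ A, fl r w A Z = cut r w A Z X := by
  obtain ⟨X, hX, h⟩ := Finset.exists_mem_eq_inf' ⟨∅, empty_mem_powerset A⟩ (cut r w A Z)
  exact ⟨X, mem_powerset.1 hX, h⟩

lemma fl_empty (hw : ∀ x, 0 ≤ w x) (A : Finset V) : fl r w A ∅ = 0 := by
  apply le_antisymm
  · have := fl_le (r := r) (w := w) (A := A) (Z := ∅) (X := A) (le_refl _)
    simpa [cut, wt] using this
  · obtain ⟨X, _, h⟩ := exists_fl r w A ∅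
    rw [h]
    exact add_nonneg (wt_nonneg hw _) (wt_nonneg hw _)

lemma fl_hall {A Z : Finset V}
    (h : ∀ X ⊆ A, wt w X ≤ wt w (nb r X ∩ Z)) : fl r w A Z = wt w A := by
  apply le_antisymm
  · have := fl_le (r := r) (w := w) (A := A) (Z := Z) (X := ∅) (empty_subset _)
    simpa [cut, wt, nb] using this
  · obtain ⟨X, hX, h1⟩ := exists_fl r w A Z
    rw [h1, cut]
    have := h X hX
    have := wt_sdiff_of_subset (w := w) hX
    linarith

lemma fl_insert_le (hw : ∀ x, 0 ≤ w x) (A Z : Finset V) (y : V) :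
    fl r w A (insert y Z) ≤ fl r w A Z + w y := by
  obtain ⟨X, hX, h⟩ := exists_fl r w A Z
  have h1 := fl_le (r := r) (w := w) (A := A) (Z := insert y Z) hX
  have h2 : wt w (nb r X ∩ insert y Z) ≤ wt w (nb r X ∩ Z) + wt w {y} := by
    have := wt_two (w := w) hw (S1 := nb r X ∩ insert y Z) (S2 := ∅) (T1 := nb r X ∩ Z)
      (T2 := {y}) (by
        intro v hv
        simp only [mem_union, mem_inter, mem_insert, mem_singleton, notMem_empty, or_false] at hv ⊢
        tauto) (by simp)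
    simpa using this
  rw [wt_singleton] at h2
  simp only [cut] at h h1
  linarith

/-- **comparison of marginals** -/
lemma marg_le (hw : ∀ x, 0 ≤ w x) {A A' Z Z' : Finset V} {y : V} (hy' : y ∉ Z')
    (h : ∀ a ∈ A, ∀ y' ∈ insert y Z', r a y' → a ∈ A' ∧ y' ∈ insert y Z) :
    fl r w A (insert y Z) + fl r w A' Z' ≤ fl r w A' (insert y Z') + fl r w A Z := by
  obtain ⟨X1, hX1, e1⟩ := exists_fl r w A' (insert y Z')
  obtain ⟨X2, hX2, e2⟩ := exists_fl r w A Z
  have h3 : fl r w A' Z' ≤ cut r w A' Z' (X1 ∪ (X2 ∩ A')) :=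
    fl_le (union_subset hX1 inter_subset_right)
  have h4 : fl r w A (insert y Z) ≤ cut r w A (insert y Z) ((X1 ∩ X2) ∪ (X2 \ A')) :=
    fl_le (union_subset (inter_subset_right.trans hX2) (sdiff_subset.trans hX2))
  have h5 : wt w (A \ ((X1 ∩ X2) ∪ (X2 \ A'))) + wt w (A' \ (X1 ∪ (X2 ∩ A')))
      ≤ wt w (A' \ X1) + wt w (A \ X2) := by
    apply wt_two hw
    · intro v hv
      have := @hX1 v
      have := @hX2 v
      simp only [mem_union, mem_inter, mem_sdiff] at hv ⊢
      tauto
    · intro v hv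
      have := @hX1 v
      have := @hX2 v
      simp only [mem_union, mem_inter, mem_sdiff] at hv ⊢
      tauto
  have h6 : wt w (nb r ((X1 ∩ X2) ∪ (X2 \ A')) ∩ insert y Z) + wt w (nb r (X1 ∪ (X2 ∩ A')) ∩ Z')
      ≤ wt w (nb r X1 ∩ insert y Z') + wt w (nb r X2 ∩ Z) := by
    apply wt_two hw
    · intro v hv
      simp only [mem_union, mem_inter, mem_nb, mem_insert, mem_sdiff] at hv ⊢
      rcases hv with ⟨⟨x, hx, hxv⟩, hv⟩ | ⟨⟨x, hx, hxv⟩, hv⟩
      · rcases hx with ⟨hx1, hx2⟩ | ⟨hx2, hxA⟩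
        · rcases hv with rfl | hv
          · exact Or.inl ⟨⟨x, hx1, hxv⟩, Or.inl rfl⟩
          · exact Or.inr ⟨⟨x, hx2, hxv⟩, hv⟩
        · rcases hv with rfl | hv
          · exact absurd (h x (hX2 hx2) v (mem_insert_self _ _) hxv).1 hxA
          · exact Or.inr ⟨⟨x, hx2, hxv⟩, hv⟩
      · rcases hx with hx1 | ⟨hx2, hxA⟩
        · exact Or.inl ⟨⟨x, hx1, hxv⟩, Or.inr hv⟩
        · have h7 := (h x (hX2 hx2) v (mem_insert_of_mem hv) hxv).2
          rcases mem_insert.1 h7 with rfl | h8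
          · exact absurd hv hy'
          · exact Or.inr ⟨⟨x, hx2, hxv⟩, h8⟩
    · intro v hv
      simp only [mem_union, mem_inter, mem_nb, mem_insert, mem_sdiff] at hv ⊢
      obtain ⟨⟨⟨x, hx, hxv⟩, hv1⟩, ⟨_, hv2⟩⟩ := hv
      rcases hx with ⟨hx1, hx2⟩ | ⟨hx2, hxA⟩
      · refine ⟨⟨⟨x, hx1, hxv⟩, Or.inr hv2⟩, ⟨x, hx2, hxv⟩, ?_⟩
        rcases hv1 with rfl | hv1
        · exact absurd hv2 hy'
        · exact hv1
      · exact absurd (h x (hX2 hx2) v (mem_insert_of_mem hv2) hxv).1 hxA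
  simp only [cut] at h3 h4 e1 e2
  linarith

/-- telescoping along an injective enumeration -/
lemma telescope (e : V → ℕ) (he : Function.Injective e) (g : Finset V → ℝ) (Z : Finset V) :
    ∑ y ∈ Z, (g (insert y (Z.filter fun z => e z < e y)) - g (Z.filter fun z => e z < e y))
      = g Z - g ∅ := by
  induction hn : Z.card generalizing Z with
  | zero =>
    have : Z = ∅ := Finset.card_eq_zero.mp hn
    subst this; simp
  | succ n ih =>
    have hne : Z.Nonempty := by
      rw [← Finset.card_pos]; omega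
    obtain ⟨a, ha, hmax⟩ := Finset.exists_max_image Z e hne
    have hlt : ∀ x ∈ Z.erase a, e x < e a := by
      intro x hx
      rw [mem_erase] at hx
      exact lt_of_le_of_ne (hmax x hx.2) (fun h => hx.1 (he h))
    have hZ : Z = insert a (Z.erase a) := (Finset.insert_erase ha).symm
    have h1 : Z.filter (fun z => e z < e a) = Z.erase a := by
      ext z
      simp only [mem_filter, mem_erase]
      constructor
      · rintro ⟨h1, h2⟩
        exact ⟨fun h => by subst h; exact lt_irrefl _ h2, h1⟩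
      · rintro ⟨h1, h2⟩
        exact ⟨h2, hlt z (mem_erase.2 ⟨h1, h2⟩)⟩
    have h2 : ∀ y ∈ Z.erase a, Z.filter (fun z => e z < e y)
        = (Z.erase a).filter (fun z => e z < e y) := by
      intro y hy
      ext z
      simp only [mem_filter, mem_erase]
      constructor
      · rintro ⟨h3, h4⟩
        refine ⟨⟨fun h => ?_, h3⟩, h4⟩
        subst h
        exact absurd (hlt y hy) (not_lt.2 h4.le)
      · rintro ⟨⟨_, h3⟩, h4⟩
        exact ⟨h3, h4⟩
    have h3 := ih (Z.erase a) (by rw [Finset.card_erase_of_mem ha, hn]; rfl)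
    rw [← Finset.add_sum_erase Z _ ha, h1, Finset.insert_erase ha]
    rw [Finset.sum_congr rfl (fun y hy => by rw [h2 y hy]), h3]
    ring

/-- **layer cake**: Hall + comparison of the densities. -/
lemma layer (hw : ∀ x, 0 ≤ w x) (B C : Finset V) (s σ : V → ℝ) (hs : ∀ b ∈ B, 0 ≤ s b)
    (hσ : ∀ c ∈ C, 0 ≤ σ c)
    (hall : ∀ X ⊆ B, wt w X ≤ wt w (nb r X ∩ C))
    (hle : ∀ b ∈ B, ∀ c ∈ C, r b c → s b ≤ σ c) :
    ∑ b ∈ B, w b * s b ≤ ∑ c ∈ C, w c * σ c := by
  induction hn : B.card using Nat.strong_induction_on generalizing B C s σ with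
  | _ n ih =>
    rcases B.eq_empty_or_nonempty with rfl | hne
    · simp only [sum_empty]
      exact Finset.sum_nonneg fun c hc => mul_nonneg (hw c) (hσ c hc)
    · obtain ⟨a, ha, hmin⟩ := Finset.exists_min_image B s hne
      set m := s a with hm
      have hm0 : 0 ≤ m := hs a ha
      let B' := B.erase a
      let C' := nb r B ∩ C
      have hC' : C' ⊆ C := inter_subset_right
      have hmC : ∀ c ∈ C', m ≤ σ c := by
        intro c hc
        obtain ⟨hc1, hc2⟩ := mem_inter.1 hc
        obtain ⟨b, hb, hbc⟩ := mem_nb.1 hc1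
        exact (hmin b hb).trans (hle b hb c hc2 hbc)
      have h1 := ih B'.card (by
        rw [← hn]; exact Finset.card_erase_lt_of_mem ha) B' C' (fun b => s b - m) (fun c => σ c - m)
        (fun b hb => sub_nonneg.2 (hmin b (mem_of_mem_erase hb)))
        (fun c hc => sub_nonneg.2 (hmC c hc))
        (by
          intro X hX
          have hXB : X ⊆ B := hX.trans (erase_subset _ _)
          refine (hall X hXB).trans (wt_mono hw ?_)
          intro c hc
          obtain ⟨hc1, hc2⟩ := mem_inter.1 hc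
          obtain ⟨b, hb, hbc⟩ := mem_nb.1 hc1
          exact mem_inter.2 ⟨hc1, mem_inter.2 ⟨mem_nb.2 ⟨b, hXB hb, hbc⟩, hc2⟩⟩)
        (fun b hb c hc hbc => sub_le_sub_right
          (hle b (mem_of_mem_erase hb) c (hC' hc) hbc) m) rfl
      have h2 : ∑ b ∈ B', w b * (s b - m) = ∑ b ∈ B, w b * (s b - m) := by
        rw [← Finset.add_sum_erase B _ ha]; simp [B', hm]
      have h3 : ∑ b ∈ B, w b * (s b - m) = ∑ b ∈ B, w b * s b - m * wt w B := by
        simp only [mul_sub, Finset.sum_sub_distrib, wt, Finset.mul_sum]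
        congr 1
        exact Finset.sum_congr rfl fun b _ => mul_comm _ _
      have h4 : ∑ c ∈ C', w c * (σ c - m) = ∑ c ∈ C', w c * σ c - m * wt w C' := by
        simp only [mul_sub, Finset.sum_sub_distrib, wt, Finset.mul_sum]
        congr 1
        exact Finset.sum_congr rfl fun b _ => mul_comm _ _
      have h5 : ∑ c ∈ C', w c * σ c ≤ ∑ c ∈ C, w c * σ c :=
        Finset.sum_le_sum_of_subset_of_nonneg hC' fun c hc _ => mul_nonneg (hw c) (hσ c hc)
      have h6 : wt w B ≤ wt w C' := hall B (le_refl _)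
      have h7 := mul_le_mul_of_nonneg_left h6 hm0
      rw [h2, h3, h4] at h1
      linarith

end Crest.Agent.R057.Star431
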