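import Crest.Agent.R057.Star1_202

/-!
# R057 (S0079): inequality (R) (helper202)
-/

set_option autoImplicit false
set_option linter.unusedSectionVars false

namespace Crest.Agent.R057.Star202

open Finset

open scoped Classical in
/-- measure of a set of cells -/
noncomputable def mu {V : Type*} [Fintype V] (w : V → ℝ) (p : V → V → Prop) : ℝ :=
  ∑ b, ∑ y, if p b y then w b * w y else 0

variable {V : Type*} [Fintype V]

open scoped Classical in
lemma mu_rows (w : V → ℝ) (p : V → V → Prop) :
    mu w p = ∑ b, w b * ∑ y ∈ Finset.univ.filter (fun y => p b y), w y := by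
  unfold mu
  refine Finset.sum_congr rfl fun b _ => ?_
  rw [Finset.mul_sum, Finset.sum_filter]

lemma Alloc.total {w : V → ℝ} {adj : V → V → Prop} {G R : Finset V} {a : V → V → ℝ}
    (hw : ∀ x, 0 < w x) (H : Alloc w adj G R a) :
    ∑ g ∈ G, w g = ∑ r ∈ R, w r * lam w a r := by
  classical
  calc ∑ g ∈ G, w g = ∑ g ∈ G, ∑ r, a r g := Finset.sum_congr rfl fun g hg => (H.tot g hg).symm
    _ = ∑ g, ∑ r, a r g := by
        apply Finset.sum_subset (Finset.subset_univ _)
        intro g _ hg
        apply Finset.sum_eq_zero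
        intro r _
        by_contra hne
        exact hg (H.supp r g hne).2.1
    _ = ∑ r, ∑ g, a r g := Finset.sum_comm
    _ = ∑ r ∈ R, ∑ g, a r g := by
        symm
        apply Finset.sum_subset (Finset.subset_univ _)
        intro r _ hr
        apply Finset.sum_eq_zero
        intro g _
        by_contra hne
        exact hr (H.supp r g hne).1
    _ = ∑ r ∈ R, w r * lam w a r := by
        refine Finset.sum_congr rfl fun r _ => ?_
        rw [mul_comm, lam_mul hw]

open scoped Classical in
theorem ineqR (w : V → ℝ) (hw : ∀ x, 0 < w x) (cl : V → V → Prop)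
    (X Y N En : V → V → Prop)
    (Hrow : ∀ b, ∀ Z : Finset V, (∀ z ∈ Z, N b z) → ∀ Γ : Finset V,
      (∀ g, g ∈ Γ ↔ X b g ∧ ∃ z ∈ Z, cl z g) → ∑ z ∈ Z, w z ≤ ∑ g ∈ Γ, w g)
    (Hcol : ∀ y, ∀ M : Finset V, (∀ m ∈ M, N m y) → ∀ Γ : Finset V,
      (∀ b, b ∈ Γ ↔ Y b y ∧ ∃ m ∈ M, cl m b) → ∑ m ∈ M, w m ≤ ∑ b ∈ Γ, w b)
    (H3 : ∀ b' b y' y, cl b' b → Y b y' → cl y' y → X b' y → N b' y')
    (H4 : ∀ b' y, X b' y → ∃ y', cl y' y ∧ N b' y')
    (H5 : ∀ b y', Y b y' → ∃ b', cl b' b ∧ N b' y')
    (hEn : ∀ b y b' y', cl b' b → X b' y → cl y' y → Y b y' → En b y) :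
    mu w X + mu w Y ≤ mu w N + mu w En := by
  -- rows
  have ha : ∀ b, ∃ a, Alloc w cl (univ.filter (fun y => X b y)) (univ.filter (fun y => N b y)) a := by
    intro b
    apply exists_alloc w hw
    intro g hg
    obtain ⟨y', h1, h2⟩ := H4 b g (by simpa using hg)
    exact ⟨y', by simpa using h2, h1⟩
  choose a ha using ha
  have ha1 : ∀ b y, N b y → 1 ≤ lam w (a b) y := by
    intro b y hy
    refine (ha b).one_le hw ?_ y (by simpa using hy)
    intro Z hZ Γ hΓ
    refine Hrow b Z (fun z hz => by simpa using hZ hz) Γ (fun g => ?_)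
    rw [hΓ g]; simp
  -- star rows
  let Gs : V → Finset V := fun b => univ.filter (fun y => ∃ b' y', cl b' b ∧ X b' y ∧ cl y' y ∧ Y b y')
  have hc : ∀ b, ∃ c, Alloc w cl (Gs b) (univ.filter (fun y => Y b y)) c := by
    intro b
    apply exists_alloc w hw
    intro g hg
    simp only [Gs, Finset.mem_filter, Finset.mem_univ, true_and] at hg
    obtain ⟨b', y', h1, h2, h3, h4⟩ := hg
    exact ⟨y', by simpa using h4, h3⟩
  choose c hc using hc
  -- columns
  have hβ : ∀ y, ∃ β, Alloc w cl (univ.filter (fun b => Y b y)) (univ.filter (fun b => N b y)) β := by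
    intro y
    apply exists_alloc w hw
    intro g hg
    obtain ⟨b', h1, h2⟩ := H5 g y (by simpa using hg)
    exact ⟨b', by simpa using h2, h1⟩
  choose β hβ using hβ
  have hβ1 : ∀ b y, N b y → 1 ≤ lam w (β y) b := by
    intro b y hy
    refine (hβ y).one_le hw ?_ b (by simpa using hy)
    intro Z hZ Γ hΓ
    refine Hcol y Z (fun z hz => by simpa using hZ hz) Γ (fun g => ?_)
    rw [hΓ g]; simp
  -- monotonicity
  have hmono : ∀ b' b y', cl b' b → N b' y' → Y b y' → lam w (a b') y' ≤ lam w (c b) y' := by
    intro b' b y' h1 h2 h3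
    refine Alloc.mono hw (ha b') (hc b) ?_ ?_ y' (by simpa using h2) (by simpa using h3)
    · intro g hg r hr hadj
      simp only [Finset.mem_filter, Finset.mem_univ, true_and] at hg hr
      simp only [Gs, Finset.mem_filter, Finset.mem_univ, true_and]
      exact ⟨b', r, h1, hg, hadj, hr⟩
    · intro r hr g hg hadj
      simp only [Finset.mem_filter, Finset.mem_univ, true_and] at hg hr ⊢
      exact H3 b' b r g h1 hr hadj hg
  -- column inequality
  have hcol : ∀ y, ∑ b ∈ univ.filter (fun b => N b y), w b * (lam w (a b) y - 1)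
      ≤ ∑ b ∈ univ.filter (fun b => Y b y), w b * (lam w (c b) y - 1) := by
    intro y
    calc ∑ b ∈ univ.filter (fun b => N b y), w b * (lam w (a b) y - 1)
        ≤ ∑ b ∈ univ.filter (fun b => N b y), ∑ d, β y b d * (lam w (a b) y - 1) := by
          refine Finset.sum_le_sum fun b hb => ?_
          simp only [Finset.mem_filter, Finset.mem_univ, true_and] at hb
          rw [← Finset.sum_mul, ← lam_mul hw]
          have h1 := ha1 b y hb
          have h2 := hβ1 b y hb
          apply mul_le_mul_of_nonneg_right _ (by linarith)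
          have := hw b
          nlinarith
      _ ≤ ∑ b ∈ univ.filter (fun b => N b y), ∑ d, β y b d * (lam w (c d) y - 1) := by
          refine Finset.sum_le_sum fun b hb => Finset.sum_le_sum fun d _ => ?_
          simp only [Finset.mem_filter, Finset.mem_univ, true_and] at hb
          by_cases h0 : β y b d = 0
          · rw [h0]; simp
          · obtain ⟨-, h2, h3⟩ := (hβ y).supp b d h0
            simp only [Finset.mem_filter, Finset.mem_univ, true_and] at h2
            have := hmono b d y h3 hb h2
            exact mul_le_mul_of_nonneg_left (by linarith) ((hβ y).nn b d)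
      _ = ∑ d, ∑ b ∈ univ.filter (fun b => N b y), β y b d * (lam w (c d) y - 1) := Finset.sum_comm
      _ = ∑ d, (∑ b, β y b d) * (lam w (c d) y - 1) := by
          refine Finset.sum_congr rfl fun d _ => ?_
          rw [← Finset.sum_mul]
          congr 1
          apply Finset.sum_subset (Finset.subset_univ _)
          intro b _ hb
          by_contra hne
          exact hb ((hβ y).supp b d hne).1
      _ = ∑ d ∈ univ.filter (fun b => Y b y), (∑ b, β y b d) * (lam w (c d) y - 1) := by
          symm
          apply Finset.sum_subset (Finset.subset_univ _)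
          intro d _ hd
          have : ∑ b, β y b d = 0 := by
            apply Finset.sum_eq_zero
            intro b _
            by_contra hne
            exact hd ((hβ y).supp b d hne).2.1
          rw [this, zero_mul]
      _ = ∑ b ∈ univ.filter (fun b => Y b y), w b * (lam w (c b) y - 1) := by
          refine Finset.sum_congr rfl fun d hd => ?_
          rw [(hβ y).tot d hd]
  -- assemble
  have e1 : mu w X - mu w N = ∑ y, w y * ∑ b ∈ univ.filter (fun b => N b y), w b * (lam w (a b) y - 1) := by
    have : ∀ b, ∑ y ∈ univ.filter (fun y => X b y), w y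
        = ∑ y ∈ univ.filter (fun y => N b y), w y * lam w (a b) y := fun b => (ha b).total hw
    rw [mu_rows, mu_rows, ← Finset.sum_sub_distrib]
    calc ∑ b, (w b * ∑ y ∈ univ.filter (fun y => X b y), w y
          - w b * ∑ y ∈ univ.filter (fun y => N b y), w y)
        = ∑ b, ∑ y, if N b y then w y * (w b * (lam w (a b) y - 1)) else 0 := by
          refine Finset.sum_congr rfl fun b _ => ?_
          rw [this b, ← mul_sub, ← Finset.sum_sub_distrib, Finset.mul_sum, Finset.sum_filter]
          refine Finset.sum_congr rfl fun y _ => ?_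
          split_ifs <;> ring
      _ = ∑ y, ∑ b, if N b y then w y * (w b * (lam w (a b) y - 1)) else 0 := Finset.sum_comm
      _ = _ := by
          refine Finset.sum_congr rfl fun y _ => ?_
          rw [Finset.mul_sum, Finset.sum_filter]
  have e2 : (∑ b, w b * ∑ y ∈ Gs b, w y) - mu w Y
      = ∑ y, w y * ∑ b ∈ univ.filter (fun b => Y b y), w b * (lam w (c b) y - 1) := by
    have : ∀ b, ∑ y ∈ Gs b, w y
        = ∑ y ∈ univ.filter (fun y => Y b y), w y * lam w (c b) y := fun b => (hc b).total hw
    rw [mu_rows, ← Finset.sum_sub_distrib]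
    calc ∑ b, (w b * ∑ y ∈ Gs b, w y
          - w b * ∑ y ∈ univ.filter (fun y => Y b y), w y)
        = ∑ b, ∑ y, if Y b y then w y * (w b * (lam w (c b) y - 1)) else 0 := by
          refine Finset.sum_congr rfl fun b _ => ?_
          rw [this b, ← mul_sub, ← Finset.sum_sub_distrib, Finset.mul_sum, Finset.sum_filter]
          refine Finset.sum_congr rfl fun y _ => ?_
          split_ifs <;> ring
      _ = ∑ y, ∑ b, if Y b y then w y * (w b * (lam w (c b) y - 1)) else 0 := Finset.sum_comm
      _ = _ := by
          refine Finset.sum_congr rfl fun y _ => ?_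
          rw [Finset.mul_sum, Finset.sum_filter]
  have e3 : (∑ b, w b * ∑ y ∈ Gs b, w y) ≤ mu w En := by
    rw [mu_rows]
    refine Finset.sum_le_sum fun b _ => ?_
    apply mul_le_mul_of_nonneg_left _ (hw b).le
    apply Finset.sum_le_sum_of_subset_of_nonneg
    · intro y hy
      simp only [Gs, Finset.mem_filter, Finset.mem_univ, true_and] at hy ⊢
      obtain ⟨b', y', h1, h2, h3, h4⟩ := hy
      exact hEn b y b' y' h1 h2 h3 h4
    · intro y _ _; exact (hw y).le
  have e4 : ∑ y, w y * ∑ b ∈ univ.filter (fun b => N b y), w b * (lam w (a b) y - 1)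
      ≤ ∑ y, w y * ∑ b ∈ univ.filter (fun b => Y b y), w b * (lam w (c b) y - 1) :=
    Finset.sum_le_sum fun y _ => mul_le_mul_of_nonneg_left (hcol y) (hw y).le
  linarith

end Crest.Agent.R057.Star202
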