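import Crest.Agent.R057.Star1_221

/-!
# R057 (S0079): the board, J0-minimiser, erosion, energy identity (280's STAR)
-/

set_option autoImplicit false
set_option linter.unusedSectionVars false

namespace Crest.Agent.R057.Star221

open Finset Crest.Agent.R057.Cg765

variable {V : Type*} [Fintype V] [DecidableEq V]

/-- horizontal dilation -/
def H (N : V → Finset V) (X : V → Finset V) : V → Finset V := fun b => (X b).biUnion N

lemma mem_H {N X : V → Finset V} {b y : V} : y ∈ H N X b ↔ ∃ y' ∈ X b, y ∈ N y' := by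
  simp [H]

/-- erosion in the other direction -/
def Er (N : V → Finset V) (X : V → Finset V) : V → Finset V :=
  fun b => univ.filter fun y => ∀ m, b ∈ N m → y ∈ X m

lemma mem_Er {N X : V → Finset V} {b y : V} : y ∈ Er N X b ↔ ∀ m, b ∈ N m → y ∈ X m := by
  simp [Er]

/-- admissible pairs -/
structure J0 (N : V → Finset V) (P S : V → Finset V) : Prop where
  hP : ∀ b, N b ⊆ P b
  hS : ∀ y, N y ⊆ S y
  ind : ∀ b y, y ∈ P b → b ∈ S y → b = y

lemma J0.symm {N P S : V → Finset V} (h : J0 N P S) : J0 N S P :=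
  ⟨h.hS, h.hP, fun b y h1 h2 => (h.ind y b h2 h1).symm⟩

/-- energy of one family -/
def en (w : V → ℝ) (N : V → Finset V) (X : V → Finset V) : ℝ :=
  ∑ b, w b * (wt w (H N X b) - wt w (X b))

/-- neutral cells -/
def Ntf (P S : V → Finset V) : V → Finset V := fun b => univ.filter fun y => y ∉ P b ∧ b ∉ S y

lemma mem_Ntf {P S : V → Finset V} {b y : V} : y ∈ Ntf P S b ↔ y ∉ P b ∧ b ∉ S y := by
  simp [Ntf]

lemma col_Ntf (P S : V → Finset V) (y : V) : col (Ntf P S) y = Ntf S P y := by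
  ext b; rw [mem_col, mem_Ntf, mem_Ntf, and_comm]

def TTf (N P S : V → Finset V) : V → Finset V :=
  fun b => univ.filter fun y => (∃ y', y ∈ N y' ∧ y' ∈ Ntf P S b) ∧ y ∉ H N P b

lemma mem_TTf {N P S : V → Finset V} {b y : V} :
    y ∈ TTf N P S b ↔ (∃ y', y ∈ N y' ∧ y' ∈ Ntf P S b) ∧ y ∉ H N P b := by
  simp [TTf]

def QQf (N P S : V → Finset V) : V → Finset V :=
  fun b => univ.filter fun y => (∃ b', b ∈ N b' ∧ y ∈ Ntf P S b') ∧ b ∉ H N S y

lemma mem_QQf {N P S : V → Finset V} {b y : V} :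
    y ∈ QQf N P S b ↔ (∃ b', b ∈ N b' ∧ y ∈ Ntf P S b') ∧ b ∉ H N S y := by
  simp [QQf]

def Omf (N P S : V → Finset V) : V → Finset V :=
  fun b => univ.filter fun y => y ∉ H N (Er N P) b ∧ b ∉ H N (Er N S) y

lemma mem_Omf {N P S : V → Finset V} {b y : V} :
    y ∈ Omf N P S b ↔ y ∉ H N (Er N P) b ∧ b ∉ H N (Er N S) y := by
  simp [Omf]

def Secf (N P S : V → Finset V) : V → Finset V :=
  fun b => univ.filter fun y =>
    (∃ y' ∈ QQf N P S b, y ∈ N y') ∧ ∃ b', b ∈ N b' ∧ y ∈ TTf N P S b'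

lemma mem_Secf {N P S : V → Finset V} {b y : V} :
    y ∈ Secf N P S b ↔ (∃ y' ∈ QQf N P S b, y ∈ N y') ∧ ∃ b', b ∈ N b' ∧ y ∈ TTf N P S b' := by
  simp [Secf]

/-! ### Hall condition from minimality -/

lemma hall_row {N P S : V → Finset V} {w : V → ℝ} (hw : ∀ x, 0 < w x)
    (hJ : J0 N P S) (hmin : ∀ P', J0 N P' S → en w N P ≤ en w N P') (b' : V) (U : Finset V)
    (hU : U ⊆ Ntf P S b') : wt w U ≤ wt w (U.biUnion N \ (P b').biUnion N) := by
  set P' : V → Finset V := Function.update P b' (P b' ∪ U) with hP'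
  have hne : ∀ b, b ≠ b' → P' b = P b := fun b hb => by rw [hP', Function.update_of_ne hb]
  have heq : P' b' = P b' ∪ U := by rw [hP', Function.update_self]
  have hJ' : J0 N P' S := by
    refine ⟨?_, hJ.hS, ?_⟩
    · intro b
      by_cases hb : b = b'
      · subst hb; rw [heq]; exact (hJ.hP b).trans Finset.subset_union_left
      · rw [hne b hb]; exact hJ.hP b
    · intro b y hy hb
      by_cases hbb : b = b'
      · subst hbb; rw [heq] at hy
        rcases Finset.mem_union.mp hy with h | h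
        · exact hJ.ind b y h hb
        · exact absurd hb (mem_Ntf.mp (hU h)).2
      · rw [hne b hbb] at hy; exact hJ.ind b y hy hb
  have h1 := hmin P' hJ'
  have hsplit : ∀ X : V → Finset V, en w N X = w b' * (wt w (H N X b') - wt w (X b'))
      + ∑ b ∈ univ.erase b', w b * (wt w (H N X b) - wt w (X b)) := by
    intro X
    exact (Finset.add_sum_erase univ (fun b => w b * (wt w (H N X b) - wt w (X b)))
      (Finset.mem_univ b')).symm
  rw [hsplit P, hsplit P'] at h1
  have h2 : ∑ b ∈ univ.erase b', w b * (wt w (H N P' b) - wt w (P' b))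
      = ∑ b ∈ univ.erase b', w b * (wt w (H N P b) - wt w (P b)) := by
    apply Finset.sum_congr rfl
    intro b hb
    have hb' := hne b (Finset.ne_of_mem_erase hb)
    rw [H, H, hb']
  rw [h2] at h1
  have h3 : wt w (H N P b') - wt w (P b') ≤ wt w (H N P' b') - wt w (P' b') := by
    have h4 : w b' * (wt w (H N P b') - wt w (P b')) ≤ w b' * (wt w (H N P' b') - wt w (P' b')) := by
      linarith
    exact le_of_mul_le_mul_left h4 (hw b')
  have h5 : Disjoint (P b') U := by
    rw [Finset.disjoint_left]; intro y hy hyU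
    exact (mem_Ntf.mp (hU hyU)).1 hy
  have h6 : wt w (P' b') = wt w (P b') + wt w U := by rw [heq, wt_union_disj h5]
  have h7 : H N P' b' = H N P b' ∪ U.biUnion N := by
    simp only [H, heq, Finset.union_biUnion]
  have h8 : wt w (H N P' b') = wt w (H N P b') + wt w (U.biUnion N \ H N P b') := by
    rw [h7, wt_union]
  rw [h6, h8] at h3
  simp only [H] at h3 ⊢
  linarith

/-! ### indicator form of the mass -/

lemma wt_ind (w : V → ℝ) (X : Finset V) : wt w X = ∑ y, w y * (if y ∈ X then 1 else 0) := by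
  simp only [mul_ite, mul_one, mul_zero]
  rw [wt, ← Finset.sum_filter]; congr 1; ext y; simp

lemma mass_ind (w : V → ℝ) (X : V → Finset V) :
    mass w X = ∑ b, ∑ y, w b * w y * (if y ∈ X b then 1 else 0) := by
  unfold mass
  apply Finset.sum_congr rfl; intro b _
  rw [wt_ind, Finset.mul_sum]
  apply Finset.sum_congr rfl; intro y _
  ring

lemma mass_ind' (w : V → ℝ) (X : V → Finset V) :
    mass w X = ∑ b, ∑ y, w b * w y * (if b ∈ X y then 1 else 0) := by
  rw [mass_ind, Finset.sum_comm]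
  apply Finset.sum_congr rfl; intro b _
  apply Finset.sum_congr rfl; intro y _
  ring

lemma en_eq (w : V → ℝ) (N X : V → Finset V) : en w N X = mass w (H N X) - mass w X := by
  unfold en mass
  rw [← Finset.sum_sub_distrib]
  apply Finset.sum_congr rfl; intro b _; ring

/-! ### erosion -/

section erosion

variable {N P S : V → Finset V} (hrefl : ∀ x, x ∈ N x)

include hrefl

lemma self_Er (hJ : J0 N P S) (b : V) : b ∈ Er N P b :=
  mem_Er.mpr fun m hm => hJ.hP m hm

/-- the eroded pair, dilated, is admissible -/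
lemma J0_dil (hJ : J0 N P S) : J0 N (H N (Er N P)) (H N (Er N S)) := by
  refine ⟨?_, ?_, ?_⟩
  · intro b y hy; exact mem_H.mpr ⟨b, self_Er hrefl hJ b, hy⟩
  · intro b y hy; exact mem_H.mpr ⟨b, self_Er hrefl hJ.symm b, hy⟩
  · intro b u hu hb
    obtain ⟨y, hy, huy⟩ := mem_H.mp hu
    obtain ⟨m, hm, hbm⟩ := mem_H.mp hb
    rw [mem_Er] at hy hm
    -- y ∈ P m, m ∈ S y
    have h1 : y ∈ P m := hy m hbm
    have h2 : m ∈ S y := hm y huy
    have h3 : m = y := hJ.ind m y h1 h2
    subst h3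
    -- m ∈ P b, b ∈ N m
    have h4 : b = m := hJ.ind b m (hy b (hrefl b)) (hJ.hS m hbm)
    have h5 : m = u := hJ.ind m u (hJ.hP m huy) (hm u (hrefl u))
    exact h4.trans h5

/-- (iii): pointwise formula for the erosion -/
lemma ind_Er (hJ : J0 N P S) (b y : V) :
    (if y ∈ Er N P b then (1 : ℝ) else 0) = 1 - (if b ∈ H N S y then 1 else 0)
      + (if b = y then 1 else 0) - (if y ∈ QQf N P S b then 1 else 0) := by
  by_cases hby : b = y
  · subst hby
    have h1 : b ∈ Er N P b := self_Er hrefl hJ b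
    have h2 : b ∈ H N S b := mem_H.mpr ⟨b, hJ.hS b (hrefl b), hrefl b⟩
    have h3 : b ∉ QQf N P S b := fun h => (mem_QQf.mp h).2 h2
    simp [h1, h2, h3]
  · by_cases h2 : b ∈ H N S y
    · have h3 : y ∉ QQf N P S b := fun h => (mem_QQf.mp h).2 h2
      have h1 : y ∉ Er N P b := by
        intro h
        rw [mem_Er] at h
        obtain ⟨m, hm, hbm⟩ := mem_H.mp h2
        have h4 : m = y := hJ.ind m y (h m hbm) hm
        subst h4
        exact hby (hJ.ind b m (h b (hrefl b)) (hJ.hS m hbm))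
      simp [h1, h2, h3, hby]
    · by_cases h1 : y ∈ Er N P b
      · have h3 : y ∉ QQf N P S b := by
          intro h
          obtain ⟨⟨m, hm, hym⟩, _⟩ := mem_QQf.mp h
          exact (mem_Ntf.mp hym).1 (mem_Er.mp h1 m hm)
        simp [h1, h2, h3, hby]
      · have h3 : y ∈ QQf N P S b := by
          rw [mem_QQf]
          refine ⟨?_, h2⟩
          rw [mem_Er] at h1
          push Not at h1
          obtain ⟨m, hm, hym⟩ := h1
          refine ⟨m, hm, mem_Ntf.mpr ⟨hym, fun hmS => h2 (mem_H.mpr ⟨m, hmS, hm⟩)⟩⟩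
        simp [h1, h2, h3, hby]

lemma mem_QQf_swap {b y : V} : b ∈ QQf N S P y ↔ y ∈ TTf N P S b := by
  rw [mem_QQf, mem_TTf]
  constructor
  · rintro ⟨⟨m, h1, h2⟩, h3⟩
    exact ⟨⟨m, h1, mem_Ntf.mpr (mem_Ntf.mp h2).symm⟩, h3⟩
  · rintro ⟨⟨m, h1, h2⟩, h3⟩
    exact ⟨⟨m, h1, mem_Ntf.mpr (mem_Ntf.mp h2).symm⟩, h3⟩

/-- (i) for an admissible pair -/
lemma ind_pair (hJ : J0 N P S) (b y : V) :
    (if y ∈ P b then (1 : ℝ) else 0) + (if b ∈ S y then 1 else 0)
      = 1 - (if y ∉ P b ∧ b ∉ S y then 1 else 0) + (if b = y then 1 else 0) := by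
  by_cases hby : b = y
  · subst hby
    have h1 : b ∈ P b := hJ.hP b (hrefl b)
    have h2 : b ∈ S b := hJ.hS b (hrefl b)
    simp [h1, h2]
  · by_cases h1 : y ∈ P b
    · have h2 : b ∉ S y := fun h => hby (hJ.ind b y h1 h)
      simp [h1, h2, hby]
    · by_cases h2 : b ∈ S y
      · simp [h1, h2, hby]
      · simp [h1, h2, hby]

/-- the energy identity of 280 -/
lemma energy (w : V → ℝ) (hJ : J0 N P S) :
    (en w N (Er N P) + en w N (Er N S)) - (en w N P + en w N S)
      = mass w (QQf N P S) + mass w (TTf N P S) - mass w (Ntf P S) - mass w (Omf N P S) := by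
  rw [en_eq, en_eq, en_eq, en_eq]
  rw [mass_ind w (H N (Er N P)), mass_ind' w (H N (Er N S)), mass_ind w (Er N P),
    mass_ind' w (Er N S), mass_ind w (H N P), mass_ind' w (H N S), mass_ind w P, mass_ind' w S,
    mass_ind w (QQf N P S), mass_ind w (TTf N P S), mass_ind w (Ntf P S), mass_ind w (Omf N P S)]
  simp only [← Finset.sum_sub_distrib, ← Finset.sum_add_distrib]
  apply Finset.sum_congr rfl; intro b _
  apply Finset.sum_congr rfl; intro y _
  have h1 := ind_pair hrefl hJ b y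
  have h2 := ind_pair hrefl (J0_dil hrefl hJ) b y
  have h3 := ind_Er hrefl hJ b y
  have h4 := ind_Er hrefl hJ.symm y b
  have e1 : (if y ∈ Ntf P S b then (1 : ℝ) else 0) = if y ∉ P b ∧ b ∉ S y then 1 else 0 := by
    simp only [mem_Ntf]
  have e2 : (if y ∈ Omf N P S b then (1 : ℝ) else 0)
      = if y ∉ H N (Er N P) b ∧ b ∉ H N (Er N S) y then 1 else 0 := by
    simp only [mem_Omf]
  have e3 : (if b ∈ QQf N S P y then (1 : ℝ) else 0) = if y ∈ TTf N P S b then 1 else 0 := by
    simp only [mem_QQf_swap hrefl]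
  have e4 : (if y = b then (1 : ℝ) else 0) = if b = y then 1 else 0 := by
    simp only [eq_comm]
  rw [e3, e4] at h4
  rw [e1, e2]
  rw [h3, h4]
  linear_combination (w b * w y) * h2 + (w b * w y) * h1

end erosion

/-! ### STAR -/

theorem star (N : V → Finset V) (hrefl : ∀ x, x ∈ N x) (w : V → ℝ) (hw : ∀ x, 0 < w x)
    (P S : V → Finset V) (hJ : J0 N P S)
    (hmin : ∀ P' S', J0 N P' S' → en w N P + en w N S ≤ en w N P' + en w N S') :
    en w N (Er N P) + en w N (Er N S) ≤ en w N P + en w N S := by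
  have hw0 : ∀ x, 0 ≤ w x := fun x => (hw x).le
  have hcross : ∀ b y' b' y, y' ∈ QQf N P S b → y ∈ TTf N P S b' → b ∈ N b' → y ∈ N y' →
      y' ∈ Ntf P S b' := by
    intro b y' b' y h1 h2 h3 h4
    rw [mem_Ntf]
    refine ⟨fun h => (mem_TTf.mp h2).2 (mem_H.mpr ⟨y', h, h4⟩),
      fun h => (mem_QQf.mp h1).2 (mem_H.mpr ⟨b', h, h3⟩)⟩
  have hT0 := theorem0 N w hw0 (Ntf P S) (QQf N P S) (TTf N P S) (Secf N P S)
    (by
      intro b' U hU
      refine (hall_row hw hJ (fun P' hP' => by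
        have := hmin P' S hP'; linarith) b' U hU).trans (wt_mono hw0 ?_)
      intro y hy
      obtain ⟨h1, h2⟩ := Finset.mem_sdiff.mp hy
      refine Finset.mem_inter.mpr ⟨mem_TTf.mpr ⟨?_, h2⟩, h1⟩
      obtain ⟨y', h3, h4⟩ := Finset.mem_biUnion.mp h1
      exact ⟨y', h4, hU h3⟩)
    (by
      intro y' U hU
      rw [col_Ntf] at hU
      refine (hall_row hw hJ.symm (fun S' hS' => by
        have := hmin P S' hS'.symm; linarith) y' U hU).trans (wt_mono hw0 ?_)
      intro b hb
      obtain ⟨h1, h2⟩ := Finset.mem_sdiff.mp hb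
      refine Finset.mem_inter.mpr ⟨mem_col.mpr (mem_QQf.mpr ⟨?_, h2⟩), h1⟩
      obtain ⟨b', h3, h4⟩ := Finset.mem_biUnion.mp h1
      exact ⟨b', h4, mem_Ntf.mpr (mem_Ntf.mp (hU h3)).symm⟩)
    hcross
    (fun b y' h => (mem_QQf.mp h).1)
    (fun b' y h => (mem_TTf.mp h).1)
    (fun b y => mem_Secf)
  have hSO : mass w (Secf N P S) ≤ mass w (Omf N P S) := by
    unfold mass
    apply Finset.sum_le_sum; intro b _
    apply mul_le_mul_of_nonneg_left _ (hw0 b)
    apply wt_mono hw0
    intro y hy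
    obtain ⟨⟨y', h1, h2⟩, b', h3, h4⟩ := mem_Secf.mp hy
    rw [mem_Omf]
    constructor
    · intro h
      obtain ⟨z, hz, hyz⟩ := mem_H.mp h
      exact (mem_TTf.mp h4).2 (mem_H.mpr ⟨z, mem_Er.mp hz b' h3, hyz⟩)
    · intro h
      obtain ⟨z, hz, hbz⟩ := mem_H.mp h
      exact (mem_QQf.mp h1).2 (mem_H.mpr ⟨z, mem_Er.mp hz y' h2, hbz⟩)
  have hE := energy hrefl w hJ
  linarith

/-- **final contradiction**: there is no oriented graph with positive weights, all in-degrees
positive, satisfying CG. -/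
theorem star_false [Nonempty V] (N : V → Finset V) (hrefl : ∀ x, x ∈ N x)
    (hanti : ∀ x y, y ∈ N x → x ∈ N y → x = y) (w : V → ℝ) (hw : ∀ x, 0 < w x)
    (hin : ∀ b, ∃ u, u ≠ b ∧ b ∈ N u)
    (hcg : ∀ Q : Finset V, Q.Nonempty → Q ≠ univ →
      wt w ((Q.biUnion N).biUnion N) - wt w (Q.biUnion N) < wt w (Q.biUnion N) - wt w Q) :
    False := by
  classical
  -- the minimiser
  let F : Finset ((V → Finset V) × (V → Finset V)) := univ.filter fun p => J0 N p.1 p.2
  have hNN : J0 N N N := ⟨fun _ => le_refl _, fun _ => le_refl _, fun b y h1 h2 => hanti b y h1 h2⟩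
  have hF : F.Nonempty := ⟨(N, N), by simp [F, hNN]⟩
  obtain ⟨⟨P, S⟩, hPS, hmin⟩ := F.exists_min_image (fun p => en w N p.1 + en w N p.2) hF
  have hJ : J0 N P S := (Finset.mem_filter.mp hPS).2
  have hmin' : ∀ P' S', J0 N P' S' → en w N P + en w N S ≤ en w N P' + en w N S' :=
    fun P' S' h => hmin (P', S') (by simp [F, h])
  have h1 := star N hrefl w hw P S hJ hmin'
  have h2 := hmin' _ _ (J0_dil hrefl hJ)
  have key : ∀ {P S : V → Finset V}, J0 N P S →
      en w N (H N (Er N P)) < en w N (Er N P) := by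
    intro P S hJ
    unfold en
    obtain ⟨v⟩ := (inferInstance : Nonempty V)
    apply Finset.sum_lt_sum_of_nonempty ⟨v, Finset.mem_univ v⟩
    intro b _
    apply mul_lt_mul_of_pos_left _ (hw b)
    apply hcg (Er N P b) ⟨b, self_Er hrefl hJ b⟩
    intro huniv
    obtain ⟨u, hub, hbu⟩ := hin b
    have hu : u ∈ Er N P b := by rw [huniv]; exact Finset.mem_univ u
    exact hub (hJ.ind b u (mem_Er.mp hu b (hrefl b)) (hJ.hS u hbu)).symm
  have h3 := key hJ
  have h4 := key hJ.symm
  linarith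

end Crest.Agent.R057.Star221
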