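import Crest.Agent.R057.Star1_431

/-!
# R057 (S0079): the inequality `(R)` on the board `V × V` with product measure (helper431)
-/

set_option autoImplicit false
set_option linter.unusedSectionVars false

noncomputable section

namespace Crest.Agent.R057.Star431

open Finset Crest.Agent.R057.Cg765
open scoped Classical

variable {V : Type} [Fintype V] [DecidableEq V]

/-- row slice of a board set -/
def sl (K : V → V → Prop) (b : V) : Finset V := univ.filter fun y => K b y

lemma mem_sl {K : V → V → Prop} {b y : V} : y ∈ sl K b ↔ K b y := by simp [sl]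

/-- transposition -/
def tp (K : V → V → Prop) : V → V → Prop := fun y b => K b y

/-- product measure of a board set -/
def M (w : V → ℝ) (K : V → V → Prop) : ℝ := ∑ b, w b * wt w (sl K b)

variable {r : V → V → Prop} {w : V → ℝ}

lemma swap_sl (K : V → V → Prop) (F : V → V → ℝ) :
    ∑ y, ∑ b ∈ sl (tp K) y, F b y = ∑ b, ∑ y ∈ sl K b, F b y := by
  apply Finset.sum_comm'
  intro y b
  simp [mem_sl, tp]

lemma M_tp (K : V → V → Prop) : M w (tp K) = M w K := by
  have h := swap_sl K (fun b y => w b * w y)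
  simp only [M, wt]
  calc ∑ y, w y * ∑ b ∈ sl (tp K) y, w b = ∑ y, ∑ b ∈ sl (tp K) y, w b * w y := by
        refine Finset.sum_congr rfl fun y _ => ?_
        rw [Finset.mul_sum]
        exact Finset.sum_congr rfl fun b _ => mul_comm _ _
    _ = ∑ b, ∑ y ∈ sl K b, w b * w y := h
    _ = _ := by
        refine Finset.sum_congr rfl fun y _ => ?_
        rw [Finset.mul_sum]

lemma hall1_aux (hw : ∀ x, 0 ≤ w x) {Nt TT QQ : V → V → Prop}
    (hrow : ∀ b (X : Finset V), (∀ x ∈ X, Nt b x) → wt w X ≤ wt w (nb r X ∩ sl TT b))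
    (cross : ∀ b b' y y', TT b' y → QQ b y' → r b' b → r y' y → Nt b' y')
    (b : V) (I : Finset V) (hI : ∀ a ∈ I, r a b) (X : Finset V) (hX : ∀ x ∈ X, QQ b x)
    (hc : ∀ x ∈ X, ∃ a ∈ I, Nt a x) : wt w X ≤ wt w (nb r X ∩ I.biUnion (sl TT)) := by
  induction I using Finset.induction_on generalizing X with
  | empty =>
    have : X = ∅ := by
      rw [Finset.eq_empty_iff_forall_notMem]
      intro x hx
      obtain ⟨a, ha, _⟩ := hc x hx
      exact absurd ha (notMem_empty a)
    subst this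
    simp only [wt_empty]
    exact wt_nonneg hw _
  | insert a I _ ih =>
    set X1 := X.filter (fun x => Nt a x) with hX1
    set X2 := X.filter (fun x => ¬ Nt a x) with hX2
    have h1 : wt w X = wt w X1 + wt w X2 :=
      (Finset.sum_filter_add_sum_filter_not X (fun x => Nt a x) w).symm
    have h2 : wt w X1 ≤ wt w (nb r X1 ∩ sl TT a) :=
      hrow a X1 (fun x hx => (mem_filter.1 hx).2)
    have h3 : wt w X2 ≤ wt w (nb r X2 ∩ I.biUnion (sl TT)) := by
      apply ih (fun a' ha' => hI a' (mem_insert_of_mem ha')) X2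
        (fun x hx => hX x (mem_filter.1 hx).1)
      intro x hx
      obtain ⟨hx1, hx2⟩ := mem_filter.1 hx
      obtain ⟨a', ha', h⟩ := hc x hx1
      rcases mem_insert.1 ha' with rfl | ha'
      · exact absurd h hx2
      · exact ⟨a', ha', h⟩
    have hdis : Disjoint (nb r X1 ∩ sl TT a) (nb r X2 ∩ I.biUnion (sl TT)) := by
      rw [Finset.disjoint_left]
      intro y hy hy'
      obtain ⟨_, hy2⟩ := mem_inter.1 hy
      obtain ⟨x, hx, hxy⟩ := mem_nb.1 (mem_inter.1 hy').1
      obtain ⟨hx1, hx2⟩ := mem_filter.1 hx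
      exact hx2 (cross b a y x (mem_sl.1 hy2) (hX x hx1) (hI a (mem_insert_self _ _)) hxy)
    have h4 := wt_union_disj (w := w) hdis
    have h5 : wt w ((nb r X1 ∩ sl TT a) ∪ (nb r X2 ∩ I.biUnion (sl TT)))
        ≤ wt w (nb r X ∩ (insert a I).biUnion (sl TT)) := by
      apply wt_mono hw
      intro y hy
      rcases mem_union.1 hy with hy | hy
      · obtain ⟨hy1, hy2⟩ := mem_inter.1 hy
        obtain ⟨x, hx, hxy⟩ := mem_nb.1 hy1
        exact mem_inter.2 ⟨mem_nb.2 ⟨x, (mem_filter.1 hx).1, hxy⟩,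
          mem_biUnion.2 ⟨a, mem_insert_self _ _, hy2⟩⟩
      · obtain ⟨hy1, hy2⟩ := mem_inter.1 hy
        obtain ⟨x, hx, hxy⟩ := mem_nb.1 hy1
        obtain ⟨a', ha', h⟩ := mem_biUnion.1 hy2
        exact mem_inter.2 ⟨mem_nb.2 ⟨x, (mem_filter.1 hx).1, hxy⟩,
          mem_biUnion.2 ⟨a', mem_insert_of_mem ha', h⟩⟩
    linarith

/-- Hall condition from `QQ` to the corners. -/
lemma hall1 (hw : ∀ x, 0 ≤ w x) {Nt TT QQ : V → V → Prop}
    (hrow : ∀ b (X : Finset V), (∀ x ∈ X, Nt b x) → wt w X ≤ wt w (nb r X ∩ sl TT b))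
    (hQQ : ∀ b y, QQ b y → ∃ m, r m b ∧ Nt m y)
    (cross : ∀ b b' y y', TT b' y → QQ b y' → r b' b → r y' y → Nt b' y')
    (b : V) (X : Finset V) (hX : ∀ x ∈ X, QQ b x) :
    wt w X ≤ wt w (nb r X ∩ sl (fun b y => (∃ b', r b' b ∧ TT b' y) ∧ ∃ y', r y' y ∧ QQ b y') b) := by
  have h := hall1_aux (r := r) hw hrow cross b (univ.filter fun a => r a b)
    (fun a ha => (mem_filter.1 ha).2) X hX (by
      intro x hx
      obtain ⟨m, hm1, hm2⟩ := hQQ b x (hX x hx)
      exact ⟨m, by simp [hm1], hm2⟩)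
  refine h.trans (wt_mono hw ?_)
  intro y hy
  obtain ⟨hy1, hy2⟩ := mem_inter.1 hy
  obtain ⟨x, hx, hxy⟩ := mem_nb.1 hy1
  obtain ⟨a, ha, h⟩ := mem_biUnion.1 hy2
  exact mem_inter.2 ⟨hy1, mem_sl.2 ⟨⟨a, (mem_filter.1 ha).2, mem_sl.1 h⟩, ⟨x, hxy, hX x hx⟩⟩⟩

/-- **the inequality (R)**. -/
theorem R_ineq (hw : ∀ x, 0 ≤ w x) {Nt TT QQ : V → V → Prop}
    (hrow : ∀ b (X : Finset V), (∀ x ∈ X, Nt b x) → wt w X ≤ wt w (nb r X ∩ sl TT b))
    (hcol : ∀ y (X : Finset V), (∀ x ∈ X, Nt x y) → wt w X ≤ wt w (nb r X ∩ sl (tp QQ) y))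
    (hTT : ∀ b y, TT b y → ∃ z, r z y ∧ Nt b z)
    (hQQ : ∀ b y, QQ b y → ∃ m, r m b ∧ Nt m y)
    (cross : ∀ b b' y y', TT b' y → QQ b y' → r b' b → r y' y → Nt b' y') :
    M w QQ + M w TT ≤ M w Nt +
      M w (fun b y => (∃ b', r b' b ∧ TT b' y) ∧ ∃ y', r y' y ∧ QQ b y') := by
  set Om : V → V → Prop := fun b y => (∃ b', r b' b ∧ TT b' y) ∧ ∃ y', r y' y ∧ QQ b y' with hOm
  let e : V → ℕ := fun x => (Fintype.equivFin V x).val
  have he : Function.Injective e := fun x y h => (Fintype.equivFin V).injective (Fin.ext h)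
  let rm : V → V → ℝ := fun b y =>
    fl r w (sl Nt b) (insert y ((sl TT b).filter fun z => e z < e y))
      - fl r w (sl Nt b) ((sl TT b).filter fun z => e z < e y)
  let rho : V → V → ℝ := fun b y =>
    fl r w (sl QQ b) (insert y ((sl Om b).filter fun z => e z < e y))
      - fl r w (sl QQ b) ((sl Om b).filter fun z => e z < e y)
  have h1 : ∀ b, ∑ y ∈ sl TT b, rm b y = wt w (sl Nt b) := by
    intro b
    rw [telescope e he (fl r w (sl Nt b)) (sl TT b), fl_empty hw, sub_zero]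
    exact fl_hall fun X hX => hrow b X fun x hx => mem_sl.1 (hX hx)
  have h2 : ∀ b, ∑ y ∈ sl Om b, rho b y = wt w (sl QQ b) := by
    intro b
    rw [telescope e he (fl r w (sl QQ b)) (sl Om b), fl_empty hw, sub_zero]
    exact fl_hall fun X hX => hall1 hw hrow hQQ cross b X fun x hx => mem_sl.1 (hX hx)
  have h3 : ∀ b y, Om b y → ∀ b', r b' b → TT b' y → rho b y ≤ rm b' y := by
    intro b y hby b' hb' hT
    have hnot : y ∉ (sl TT b').filter (fun z => e z < e y) := by
      intro h; exact lt_irrefl _ (mem_filter.1 h).2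
    have h := marg_le (r := r) hw (A := sl QQ b) (A' := sl Nt b')
      (Z := (sl Om b).filter fun z => e z < e y) (Z' := (sl TT b').filter fun z => e z < e y)
      (y := y) hnot (by
        intro a ha y' hy' hay
        have hTy' : TT b' y' := by
          rcases mem_insert.1 hy' with rfl | h
          · exact hT
          · exact mem_sl.1 (mem_filter.1 h).1
        refine ⟨mem_sl.2 (cross b b' y' a hTy' (mem_sl.1 ha) hb' hay), ?_⟩
        rcases mem_insert.1 hy' with rfl | h
        · exact mem_insert_self _ _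
        · refine mem_insert_of_mem (mem_filter.2 ⟨mem_sl.2 ?_, (mem_filter.1 h).2⟩)
          exact ⟨⟨b', hb', hTy'⟩, ⟨a, hay, mem_sl.1 ha⟩⟩)
    simp only [rm, rho]
    linarith
  have h4 : ∀ y, ∑ b ∈ sl (tp TT) y, w b * (w y - rm b y)
      ≤ ∑ b ∈ sl (tp Om) y, w b * (w y - rho b y) := by
    intro y
    apply layer (r := r) hw
    · intro b _
      have := fl_insert_le (r := r) hw (sl Nt b) ((sl TT b).filter fun z => e z < e y) y
      simp only [rm]; linarith
    · intro b _
      have := fl_insert_le (r := r) hw (sl QQ b) ((sl Om b).filter fun z => e z < e y) y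
      simp only [rho]; linarith
    · intro X hX
      have h := hall1 (r := r) (w := w) hw (Nt := tp Nt) (TT := tp QQ) (QQ := tp TT)
        (fun y X hX => hcol y X hX) (fun y b h => hTT b y h)
        (fun y y' b b' h5 h6 h7 h8 => cross b b' y y' h6 h5 h8 h7) y X
        (fun x hx => mem_sl.1 (hX hx))
      refine h.trans (wt_mono hw ?_)
      intro b hb
      obtain ⟨hb1, hb2⟩ := mem_inter.1 hb
      obtain ⟨hb3, hb4⟩ := mem_sl.1 hb2
      exact mem_inter.2 ⟨hb1, mem_sl.2 ⟨hb4, hb3⟩⟩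
    · intro b hb c hc hbc
      have hc' : tp Om y c := mem_sl.1 hc
      have hb' : tp TT y b := mem_sl.1 hb
      have := h3 c y hc' b hbc hb'
      linarith
  have h5 : ∑ y, ∑ b ∈ sl (tp TT) y, w b * (w y - rm b y) = M w TT - M w Nt := by
    rw [swap_sl TT (fun b y => w b * (w y - rm b y)), M, M, ← Finset.sum_sub_distrib]
    refine Finset.sum_congr rfl fun b _ => ?_
    rw [← Finset.mul_sum, Finset.sum_sub_distrib, h1 b, wt, wt]
    ring
  have h6 : ∑ y, ∑ b ∈ sl (tp Om) y, w b * (w y - rho b y) = M w Om - M w QQ := by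
    rw [swap_sl Om (fun b y => w b * (w y - rho b y)), M, M, ← Finset.sum_sub_distrib]
    refine Finset.sum_congr rfl fun b _ => ?_
    rw [← Finset.mul_sum, Finset.sum_sub_distrib, h2 b, wt, wt]
    ring
  have h7 := Finset.sum_le_sum (fun y (_ : y ∈ (univ : Finset V)) => h4 y)
  rw [h5, h6] at h7
  linarith

end Crest.Agent.R057.Star431
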