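import Crest.Agent.R057.Star2_202
import Crest.Agent.R057.Cg5_765

/-!
# R057 (S0079): the board argument (helper202; board and erosion map: helper280, 427, 170)
-/

set_option autoImplicit false
set_option linter.unusedSectionVars false

namespace Crest.Agent.R057.Star202

open Finset Crest.Agent.R057.Cg765

variable {V : Type} [Fintype V] [DecidableEq V]

/-- closed adjacency `y ∈ N[x]` -/
def cl (A : V → Finset V) (x y : V) : Prop := y = x ∨ y ∈ A x

structure J0 (A : V → Finset V) (P S : V → Finset V) : Prop where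
  p : ∀ b y, cl A b y → y ∈ P b
  s : ∀ b y, cl A b y → y ∈ S b
  d : ∀ b y, b ≠ y → y ∈ P b → b ∈ S y → False

lemma J0.symm {A : V → Finset V} {P S : V → Finset V} (h : J0 A P S) : J0 A S P :=
  ⟨h.s, h.p, fun b y hne h1 h2 => h.d y b hne.symm h2 h1⟩

/-- horizontal energy -/
def rowE (A : V → Finset V) (w : V → ℝ) (P : V → Finset V) : ℝ :=
  ∑ b, w b * ((∑ y ∈ Nb A (P b), w y) - ∑ y ∈ P b, w y)

lemma exists_min {A : V → Finset V} (w : V → ℝ) (hA : ∀ x y, y ∈ A x → x ∉ A y) :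
    ∃ P S, J0 A P S ∧ ∀ P' S', J0 A P' S' → rowE A w P + rowE A w S ≤ rowE A w P' + rowE A w S' := by
  classical
  let s : Set ((V → Finset V) × (V → Finset V)) := {q | J0 A q.1 q.2}
  have hne : s.Nonempty := by
    refine ⟨(fun b => Nb A {b}, fun b => Nb A {b}), ?_⟩
    have hmem : ∀ b y, y ∈ Nb A {b} ↔ cl A b y := by
      intro b y; rw [mem_Nb]; simp [cl]
    refine ⟨fun b y h => (hmem b y).2 h, fun b y h => (hmem b y).2 h, ?_⟩
    intro b y hne h1 h2
    rcases (hmem b y).1 h1 with h1 | h1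
    · exact hne h1.symm
    · rcases (hmem y b).1 h2 with h2 | h2
      · exact hne h2
      · exact hA _ _ h1 h2
  obtain ⟨q, hq, hmin⟩ := Set.exists_min_image s (fun q => rowE A w q.1 + rowE A w q.2)
    (Set.toFinite s) hne
  exact ⟨q.1, q.2, hq, fun P' S' h => hmin (P', S') h⟩

lemma Nb_union (A : V → Finset V) (S T : Finset V) : Nb A (S ∪ T) = Nb A S ∪ Nb A T := by
  ext y
  simp only [mem_Nb, Finset.mem_union]
  constructor
  · rintro ⟨x, hx | hx, hy⟩
    · exact Or.inl ⟨x, hx, hy⟩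
    · exact Or.inr ⟨x, hx, hy⟩
  · rintro (⟨x, hx, hy⟩ | ⟨x, hx, hy⟩)
    · exact ⟨x, Or.inl hx, hy⟩
    · exact ⟨x, Or.inr hx, hy⟩

/-- Hall condition in a row from minimality -/
lemma hall_row {A : V → Finset V} {w : V → ℝ} {P S : V → Finset V} (hw : ∀ x, 0 < w x)
    (hJ : J0 A P S) (hmin : ∀ P', J0 A P' S → rowE A w P ≤ rowE A w P')
    (b : V) (Z : Finset V) (hZ : ∀ z ∈ Z, z ∉ P b ∧ b ∉ S z) :
    ∑ z ∈ Z, w z ≤ ∑ y ∈ Nb A Z \ Nb A (P b), w y := by
  classical
  let P' : V → Finset V := Function.update P b (P b ∪ Z)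
  have hPb : P' b = P b ∪ Z := by simp [P']
  have hPne : ∀ c, c ≠ b → P' c = P c := fun c hc => by simp [P', hc]
  have hJ' : J0 A P' S := by
    refine ⟨?_, hJ.s, ?_⟩
    · intro c y hc
      by_cases h : c = b
      · subst h; rw [hPb]; exact Finset.mem_union_left _ (hJ.p _ _ hc)
      · rw [hPne c h]; exact hJ.p _ _ hc
    · intro c y hne h1 h2
      by_cases h : c = b
      · subst h; rw [hPb, Finset.mem_union] at h1
        rcases h1 with h1 | h1
        · exact hJ.d _ _ hne h1 h2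
        · exact (hZ y h1).2 h2
      · rw [hPne c h] at h1; exact hJ.d _ _ hne h1 h2
  have hle := hmin P' hJ'
  have hdiff : rowE A w P' - rowE A w P = w b * (((∑ y ∈ Nb A (P b ∪ Z), w y) - ∑ y ∈ P b ∪ Z, w y)
      - ((∑ y ∈ Nb A (P b), w y) - ∑ y ∈ P b, w y)) := by
    unfold rowE
    rw [← Finset.sum_sub_distrib, Finset.sum_eq_single b]
    · rw [hPb]; ring
    · intro c _ hc; rw [hPne c hc]; ring
    · intro h; exact absurd (Finset.mem_univ b) h
  have h1 : ∑ y ∈ Nb A (P b ∪ Z), w y = ∑ y ∈ Nb A (P b), w y + ∑ y ∈ Nb A Z \ Nb A (P b), w y := by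
    rw [Nb_union, ← Finset.union_sdiff_self_eq_union, Finset.sum_union Finset.disjoint_sdiff]
  have h2 : ∑ y ∈ P b ∪ Z, w y = ∑ y ∈ P b, w y + ∑ y ∈ Z, w y := by
    rw [Finset.sum_union]
    rw [Finset.disjoint_left]
    intro z hz hz'
    exact (hZ z hz').1 hz
  rw [h1, h2] at hdiff
  have hwb := hw b
  by_contra hlt
  push Not at hlt
  have : w b * (∑ y ∈ Nb A Z \ Nb A (P b), w y - ∑ z ∈ Z, w z) < 0 :=
    mul_neg_of_pos_of_neg hwb (by linarith)
  nlinarith

open scoped Classical in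
/-- erosion -/
noncomputable def er (A : V → Finset V) (P : V → Finset V) (b : V) : Finset V :=
  univ.filter (fun y => ∀ m, cl A m b → y ∈ P m)

lemma mem_er {A P : V → Finset V} {b y : V} : y ∈ er A P b ↔ ∀ m, cl A m b → y ∈ P m := by
  simp [er]

lemma cl_refl (A : V → Finset V) (x : V) : cl A x x := Or.inl rfl

lemma mem_Nb_cl {A : V → Finset V} {Q : Finset V} {y : V} : y ∈ Nb A Q ↔ ∃ x ∈ Q, cl A x y :=
  mem_Nb

/-- the eroded pair is in J1 -/
lemma J0.er_indep {A P S : V → Finset V} (hJ : J0 A P S) {b y : V}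
    (h1 : y ∈ Nb A (er A P b)) (h2 : b ∈ Nb A (er A S y)) : b = y := by
  obtain ⟨z, hz, hzy⟩ := mem_Nb_cl.1 h1
  obtain ⟨m, hm, hmb⟩ := mem_Nb_cl.1 h2
  rw [mem_er] at hz hm
  have hzm : m = z := by
    by_contra hne
    exact hJ.d m z hne (hz m hmb) (hm z hzy)
  subst hzm
  have e1 : b = m := by
    by_contra hne
    exact hJ.d b m hne (hz b (cl_refl A b)) (hJ.s m b hmb)
  have e2 : m = y := by
    by_contra hne
    exact hJ.d m y hne (hJ.p m y hzy) (hm y (cl_refl A y))
  rw [e1, e2]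

lemma rowE_eq_mu (A : V → Finset V) (w : V → ℝ) (P : V → Finset V) :
    rowE A w P = mu w (fun b y => y ∈ Nb A (P b)) - mu w (fun b y => y ∈ P b) := by
  classical
  rw [mu_rows, mu_rows, ← Finset.sum_sub_distrib]
  unfold rowE
  refine Finset.sum_congr rfl fun b _ => ?_
  rw [mul_sub]
  congr 2
  · refine Finset.sum_congr ?_ fun _ _ => rfl
    ext y; simp
  · refine Finset.sum_congr ?_ fun _ _ => rfl
    ext y; simp

lemma mu_swap (w : V → ℝ) (p : V → V → Prop) : mu w p = mu w (fun b y => p y b) := by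
  classical
  unfold mu
  rw [Finset.sum_comm]
  refine Finset.sum_congr rfl fun b _ => Finset.sum_congr rfl fun y _ => ?_
  rw [mul_comm]

lemma rowE_eq_mu' (A : V → Finset V) (w : V → ℝ) (S : V → Finset V) :
    rowE A w S = mu w (fun b y => b ∈ Nb A (S y)) - mu w (fun b y => b ∈ S y) := by
  rw [rowE_eq_mu, mu_swap w (fun b y => y ∈ Nb A (S b)), mu_swap w (fun b y => y ∈ S b)]

lemma ite3_le (p q r : Prop) [Decidable p] [Decidable q] [Decidable r] {c : ℝ} (hc : 0 < c)
    (h1 : ¬ (p ∧ q)) (h2 : ¬ (p ∧ r)) (h3 : ¬ (q ∧ r)) :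
    (if p then c else 0) + (if q then c else 0) + (if r then c else 0) ≤ c := by
  by_cases hp : p
  · have hq : ¬ q := fun h => h1 ⟨hp, h⟩
    have hr : ¬ r := fun h => h2 ⟨hp, h⟩
    simp [hp, hq, hr]
  · by_cases hq : q
    · have hr : ¬ r := fun h => h3 ⟨hq, h⟩
      simp [hp, hq, hr]
    · by_cases hr : r
      · simp [hp, hq, hr]
      · simp [hp, hq, hr]; exact hc.le

lemma le_ite3 (p q r : Prop) [Decidable p] [Decidable q] [Decidable r] {c : ℝ} (hc : 0 < c)
    (h : ¬ p → q ∨ r) :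
    c ≤ (if p then c else 0) + (if q then c else 0) + (if r then c else 0) := by
  have e : ∀ (x : Prop) [Decidable x], 0 ≤ (if x then c else 0) := by
    intro x _; split_ifs
    · exact hc.le
    · exact le_rfl
  have e1 := e p
  have e2 := e q
  have e3 := e r
  by_cases hp : p
  · rw [if_pos hp]; linarith
  · rcases h hp with hq | hr
    · rw [if_pos hq]; linarith
    · rw [if_pos hr]; linarith

/-- classical indicator -/
noncomputable def ic (p : Prop) (c : ℝ) : ℝ := @ite ℝ p (Classical.propDecidable p) c 0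

lemma ic3_le (p q r : Prop) {c : ℝ} (hc : 0 < c)
    (h1 : ¬ (p ∧ q)) (h2 : ¬ (p ∧ r)) (h3 : ¬ (q ∧ r)) : ic p c + ic q c + ic r c ≤ c := by
  classical
  unfold ic; exact @ite3_le p q r (Classical.propDecidable p) (Classical.propDecidable q)
    (Classical.propDecidable r) c hc h1 h2 h3

lemma le_ic3 (p q r : Prop) {c : ℝ} (hc : 0 < c) (h : ¬ p → q ∨ r) :
    c ≤ ic p c + ic q c + ic r c := by
  classical
  unfold ic; exact @le_ite3 p q r (Classical.propDecidable p) (Classical.propDecidable q)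
    (Classical.propDecidable r) c hc h

lemma ic_pos {p : Prop} (h : p) (c : ℝ) : ic p c = c := by unfold ic; exact if_pos h

lemma ic_neg {p : Prop} (h : ¬ p) (c : ℝ) : ic p c = 0 := by unfold ic; exact if_neg h

theorem core {A : V → Finset V} {w : V → ℝ} (H : CoreData A w) : False := by
  classical
  have hw := H.pos
  obtain ⟨P, S, hJ, hmin⟩ := exists_min (A := A) w H.ori
  -- predicates
  let Nt : V → V → Prop := fun b y => y ∉ P b ∧ b ∉ S y
  let X : V → V → Prop := fun b y => y ∉ Nb A (P b) ∧ ∃ z, cl A z y ∧ Nt b z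
  let Y : V → V → Prop := fun b y => b ∉ Nb A (S y) ∧ ∃ m, cl A m b ∧ Nt m y
  let En : V → V → Prop := fun b y => ∃ b' y', cl A b' b ∧ X b' y ∧ cl A y' y ∧ Y b y'
  -- inequality (R)
  have hR : mu w X + mu w Y ≤ mu w Nt + mu w En := by
    refine ineqR w hw (cl A) X Y Nt En ?_ ?_ ?_ ?_ ?_ ?_
    · intro b Z hZ Γ hΓ
      refine (hall_row hw hJ (fun P' h => by linarith [hmin P' S h]) b Z hZ).trans ?_
      apply Finset.sum_le_sum_of_subset_of_nonneg
      · intro y hy
        rw [Finset.mem_sdiff] at hy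
        obtain ⟨z, hz, hzy⟩ := mem_Nb_cl.1 hy.1
        rw [hΓ]
        exact ⟨⟨hy.2, z, hzy, hZ z hz⟩, z, hz, hzy⟩
      · intro y _ _; exact (hw y).le
    · intro y M hM Γ hΓ
      refine (hall_row hw hJ.symm (fun S' h => by linarith [hmin P S' h.symm]) y M
        (fun m hm => ⟨(hM m hm).2, (hM m hm).1⟩)).trans ?_
      apply Finset.sum_le_sum_of_subset_of_nonneg
      · intro b hb
        rw [Finset.mem_sdiff] at hb
        obtain ⟨m, hm, hmb⟩ := mem_Nb_cl.1 hb.1
        rw [hΓ]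
        exact ⟨⟨hb.2, m, hmb, hM m hm⟩, m, hm, hmb⟩
      · intro y _ _; exact (hw y).le
    · intro b' b y' y h1 h2 h3 h4
      refine ⟨fun h => h4.1 (mem_Nb_cl.2 ⟨y', h, h3⟩), fun h => h2.1 (mem_Nb_cl.2 ⟨b', h, h1⟩)⟩
    · intro b' y h
      obtain ⟨z, h1, h2⟩ := h.2
      exact ⟨z, h1, h2⟩
    · intro b y' h
      obtain ⟨m, h1, h2⟩ := h.2
      exact ⟨m, h1, h2⟩
    · intro b y b' y' h1 h2 h3 h4
      exact ⟨b', y', h1, h2, h3, h4⟩
  -- energy of the eroded pair
  have hE : rowE A w (er A P) + rowE A w (er A S) ≤ rowE A w P + rowE A w S := by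
    rw [rowE_eq_mu A w (er A P), rowE_eq_mu' A w (er A S), rowE_eq_mu A w P, rowE_eq_mu' A w S]
    have key : mu w (fun b y => y ∈ Nb A (er A P b)) + mu w (fun b y => b ∈ Nb A (er A S y))
        + mu w En + mu w (fun b y => y ∈ P b) + mu w (fun b y => b ∈ S y) + mu w Nt
        ≤ mu w (fun b y => y ∈ Nb A (P b)) + mu w (fun b y => b ∈ Nb A (S y))
        + mu w (fun b y => b ∈ er A S y) + mu w X + mu w (fun b y => y ∈ er A P b) + mu w Y := by
      unfold mu
      simp only [← Finset.sum_add_distrib]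
      refine Finset.sum_le_sum fun b _ => Finset.sum_le_sum fun y _ => ?_
      have hc : 0 < w b * w y := mul_pos (hw b) (hw y)
      set c := w b * w y with hcdef
      have g3 : y ∉ Nb A (P b) → b ∈ er A S y ∨ X b y := by
        intro h
        by_contra hcon
        push Not at hcon
        obtain ⟨h1, h2⟩ := hcon
        rw [mem_er] at h1
        push Not at h1
        obtain ⟨z, hz, hbz⟩ := h1
        exact h2 ⟨h, z, hz, fun hh => h (mem_Nb_cl.2 ⟨z, hh, hz⟩), hbz⟩
      have g4 : b ∉ Nb A (S y) → y ∈ er A P b ∨ Y b y := by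
        intro h
        by_contra hcon
        push Not at hcon
        obtain ⟨h1, h2⟩ := hcon
        rw [mem_er] at h1
        push Not at h1
        obtain ⟨m, hm, hym⟩ := h1
        exact h2 ⟨h, m, hm, hym, fun hh => h (mem_Nb_cl.2 ⟨m, hh, hm⟩)⟩
      have g1 : ¬ (y ∈ Nb A (er A P b) ∧ En b y) := by
        rintro ⟨h1, b', y', h2, h3, h4, h5⟩
        obtain ⟨z, hz, hzy⟩ := mem_Nb_cl.1 h1
        rw [mem_er] at hz
        exact h3.1 (mem_Nb_cl.2 ⟨z, hz b' h2, hzy⟩)
      have g2 : ¬ (b ∈ Nb A (er A S y) ∧ En b y) := by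
        rintro ⟨h1, b', y', h2, h3, h4, h5⟩
        obtain ⟨m, hm, hmb⟩ := mem_Nb_cl.1 h1
        rw [mem_er] at hm
        exact h5.1 (mem_Nb_cl.2 ⟨m, hm y' h4, hmb⟩)
      change ic (y ∈ Nb A (er A P b)) c + ic (b ∈ Nb A (er A S y)) c + ic (En b y) c
        + ic (y ∈ P b) c + ic (b ∈ S y) c + ic (Nt b y) c
        ≤ ic (y ∈ Nb A (P b)) c + ic (b ∈ Nb A (S y)) c + ic (b ∈ er A S y) c + ic (X b y) c
          + ic (y ∈ er A P b) c + ic (Y b y) c
      by_cases hby : b = y
      · subst hby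
        have k1 : ¬ En b b := by
          rintro ⟨b', y', h2, h3, h4, h5⟩
          exact h3.1 (mem_Nb_cl.2 ⟨b, hJ.p b' b h2, cl_refl A b⟩)
        have k2 : ¬ Nt b b := fun h => h.1 (hJ.p b b (cl_refl A b))
        have k3 : b ∈ Nb A (P b) := mem_Nb_cl.2 ⟨b, hJ.p b b (cl_refl A b), cl_refl A b⟩
        have k4 : b ∈ Nb A (S b) := mem_Nb_cl.2 ⟨b, hJ.s b b (cl_refl A b), cl_refl A b⟩
        have k5 : b ∈ er A S b := mem_er.2 fun z hz => hJ.s z b hz
        have k6 : b ∈ er A P b := mem_er.2 fun z hz => hJ.p z b hz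
        have k7 : b ∈ Nb A (er A P b) := mem_Nb_cl.2 ⟨b, k6, cl_refl A b⟩
        have k8 : b ∈ Nb A (er A S b) := mem_Nb_cl.2 ⟨b, k5, cl_refl A b⟩
        have k9 : b ∈ P b := hJ.p b b (cl_refl A b)
        have k10 : b ∈ S b := hJ.s b b (cl_refl A b)
        have k11 : ¬ X b b := fun h => h.1 k3
        have k12 : ¬ Y b b := fun h => h.1 k4
        rw [ic_pos k7, ic_pos k8, ic_neg k1, ic_pos k9, ic_pos k10, ic_neg k2, ic_pos k3,
          ic_pos k4, ic_pos k5, ic_neg k11, ic_pos k6, ic_neg k12]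
        linarith
      · have f1 : ¬ (y ∈ Nb A (er A P b) ∧ b ∈ Nb A (er A S y)) := fun h => hby (hJ.er_indep h.1 h.2)
        have f2 : ¬ (y ∈ P b ∧ b ∈ S y) := fun h => hJ.d b y hby h.1 h.2
        have f3 : ¬ (y ∈ P b ∧ Nt b y) := fun h => h.2.1 h.1
        have f4 : ¬ (b ∈ S y ∧ Nt b y) := fun h => h.2.2 h.1
        have i1 := ic3_le _ _ _ hc f1 g1 g2
        have i2 := ic3_le _ _ _ hc f2 f3 f4
        have i3 := le_ic3 _ _ _ hc g3
        have i4 := le_ic3 _ _ _ hc g4
        linarith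
    linarith
  -- the dilated pair
  have hbQ : ∀ b, b ∈ er A P b := fun b => mem_er.2 fun z hz => hJ.p z b hz
  have hbT : ∀ b, b ∈ er A S b := fun b => mem_er.2 fun z hz => hJ.s z b hz
  have hJ2 : J0 A (fun b => Nb A (er A P b)) (fun b => Nb A (er A S b)) := by
    refine ⟨fun b y h => mem_Nb_cl.2 ⟨b, hbQ b, h⟩, fun b y h => mem_Nb_cl.2 ⟨b, hbT b, h⟩, ?_⟩
    intro b y hne h1 h2
    exact hne (hJ.er_indep h1 h2)
  have hdec : ∀ P S : V → Finset V, J0 A P S →
      rowE A w (fun b => Nb A (er A P b)) < rowE A w (er A P) := by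
    intro P S hJ
    have := H.ne
    unfold rowE
    apply Finset.sum_lt_sum_of_nonempty Finset.univ_nonempty
    intro b _
    apply mul_lt_mul_of_pos_left _ (hw b)
    have hne : (er A P b).Nonempty := ⟨b, mem_er.2 fun z hz => hJ.p z b hz⟩
    have hne' : er A P b ≠ Finset.univ := by
      intro h
      obtain ⟨m, hm⟩ := H.inn b
      have h1 : m ∈ er A P b := by rw [h]; exact Finset.mem_univ m
      have h2 : m ∈ P b := mem_er.1 h1 b (cl_refl A b)
      have h3 : b ∈ S m := hJ.s m b (Or.inr hm)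
      refine hJ.d b m ?_ h2 h3
      rintro rfl
      exact H.ori _ _ hm hm
    have := H.cg _ hne hne'
    linarith
  have h1 := hdec P S hJ
  have h2 := hdec S P hJ.symm
  have h3 := hmin _ _ hJ2
  linarith

end Crest.Agent.R057.Star202
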