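import Crest.Agent.R057.Star2_221
import Crest.Agent.R057.Cg3_765

/-!
# R057 (S0079): assembly
-/

set_option autoImplicit false

namespace Crest.Agent.R057.Star221

open Finset Crest.Agent.R057.Cg765

theorem world_false {V : Type} [Fintype V] [DecidableEq V] {A : V → Finset V} (W : World A) :
    False := by
  classical
  obtain ⟨w, hg⟩ := W.exists_good
  have hw : ∀ x, 0 < w x := W.pos hg
  haveI := W.ne
  let N : V → Finset V := fun x => insert x (A x)
  have hN : ∀ Q : Finset V, Q.biUnion N = Q ∪ An A Q := by
    intro Q; ext y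
    simp only [N, Finset.mem_biUnion, Finset.mem_insert, Finset.mem_union, mem_An]
    constructor
    · rintro ⟨x, hx, rfl | h⟩
      · exact Or.inl hx
      · exact Or.inr ⟨x, hx, h⟩
    · rintro (h | ⟨x, hx, h⟩)
      · exact ⟨y, h, Or.inl rfl⟩
      · exact ⟨x, hx, Or.inr h⟩
  refine star_false N (fun x => Finset.mem_insert_self _ _) ?_ w hw ?_ ?_
  · intro x y hy hx
    rcases Finset.mem_insert.mp hy with h | h
    · exact h.symm
    · rcases Finset.mem_insert.mp hx with h' | h'
      · exact h'
      · exact absurd h' (W.ori x y h)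
  · intro b
    obtain ⟨u, hu⟩ := W.nonempty_in b
    refine ⟨u, ?_, Finset.mem_insert_of_mem hu⟩
    rintro rfl
    exact W.ori.irrefl _ hu
  · intro Q hQ hQ'
    have h := W.cg hg Q (W.not_sub hQ hQ')
    rw [hN, hN]
    have h1 := wt_union (w := w) Q (An A Q)
    have h2 := wt_union (w := w) (Q ∪ An A Q) (An A (Q ∪ An A Q))
    linarith

end Crest.Agent.R057.Star221
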