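import Crest.Agent.R057.Star2_431

/-!
# R057 (S0079): the board argument (helper280's STAR) and the final contradiction (helper431)
-/

set_option autoImplicit false
set_option linter.unusedSectionVars false

noncomputable section

namespace Crest.Agent.R057.Star431

open Finset Crest.Agent.R057.Cg765
open scoped Classical

variable {V : Type} [Fintype V] [DecidableEq V]

/-- horizontal closed dilation -/
def Hd (r : V → V → Prop) (K : V → V → Prop) : V → V → Prop := fun b y => ∃ z, r z y ∧ K b z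

/-- vertical closed dilation -/
def Vd (r : V → V → Prop) (K : V → V → Prop) : V → V → Prop := fun b y => ∃ m, r m b ∧ K m y

/-- energy -/
def En (r : V → V → Prop) (w : V → ℝ) (P S : V → V → Prop) : ℝ :=
  (M w (Hd r P) - M w P) + (M w (Vd r S) - M w S)

structure J0 (r : V → V → Prop) (P S : V → V → Prop) : Prop where
  ind : ∀ b y, P b y → S b y → b = y
  hP : ∀ b y, r b y → P b y
  hS : ∀ b y, r y b → S b y

structure J1 (r : V → V → Prop) (Q T : V → V → Prop) : Prop where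
  dQ : ∀ b, Q b b
  dT : ∀ b, T b b
  ind : ∀ b y, Hd r Q b y → Vd r T b y → b = y

variable {r : V → V → Prop} {w : V → ℝ}

lemma J1.toJ0 {Q T : V → V → Prop} (h : J1 r Q T) : J0 r (Hd r Q) (Vd r T) :=
  ⟨h.ind, fun b _ hb => ⟨b, hb, h.dQ b⟩, fun _ y hy => ⟨y, hy, h.dT y⟩⟩

lemma J0.tp {P S : V → V → Prop} (h : J0 r P S) : J0 r (tp S) (tp P) :=
  ⟨fun b y h1 h2 => (h.ind y b h2 h1).symm, fun b y hb => h.hS y b hb,
    fun b y hb => h.hP y b hb⟩

lemma tp_Hd (K : V → V → Prop) : tp (Hd r K) = Vd r (tp K) := rfl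

lemma tp_Vd (K : V → V → Prop) : tp (Vd r K) = Hd r (tp K) := rfl

lemma En_tp (P S : V → V → Prop) : En r w (tp S) (tp P) = En r w P S := by
  unfold En
  rw [← tp_Vd, ← tp_Hd, M_tp, M_tp, M_tp, M_tp]
  ring

lemma sl_Hd (K : V → V → Prop) (b : V) : sl (Hd r K) b = nb r (sl K b) := by
  ext y
  simp only [mem_sl, mem_nb, Hd]
  constructor
  · rintro ⟨z, h1, h2⟩; exact ⟨z, h2, h1⟩
  · rintro ⟨z, h1, h2⟩; exact ⟨z, h2, h1⟩

/-- one CG step, row by row -/
lemma cg_step [Nonempty V] (hw : ∀ x, 0 < w x)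
    (hcg : ∀ X : Finset V, X.Nonempty → X ≠ univ →
      wt w X + wt w (nb r (nb r X)) < 2 * wt w (nb r X))
    (Q : V → V → Prop) (h1 : ∀ b, (sl Q b).Nonempty) (h2 : ∀ b, sl Q b ≠ univ) :
    M w (Hd r (Hd r Q)) - M w (Hd r Q) < M w (Hd r Q) - M w Q := by
  have h : ∑ b, (w b * (wt w (sl Q b) + wt w (nb r (nb r (sl Q b)))))
      < ∑ b, w b * (2 * wt w (nb r (sl Q b))) := by
    apply Finset.sum_lt_sum_of_nonempty univ_nonempty
    intro b _
    exact mul_lt_mul_of_pos_left (hcg _ (h1 b) (h2 b)) (hw b)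
  have e1 : M w (Hd r (Hd r Q)) = ∑ b, w b * wt w (nb r (nb r (sl Q b))) := by
    unfold M; exact Finset.sum_congr rfl fun b _ => by rw [sl_Hd, sl_Hd]
  have e2 : M w (Hd r Q) = ∑ b, w b * wt w (nb r (sl Q b)) := by
    unfold M; exact Finset.sum_congr rfl fun b _ => by rw [sl_Hd]
  have e3 : ∑ b, w b * (2 * wt w (nb r (sl Q b))) = 2 * M w (Hd r Q) := by
    rw [e2, Finset.mul_sum]; exact Finset.sum_congr rfl fun b _ => by ring
  have e4 : ∑ b, (w b * (wt w (sl Q b) + wt w (nb r (nb r (sl Q b)))))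
      = M w Q + M w (Hd r (Hd r Q)) := by
    rw [e1, M, ← Finset.sum_add_distrib]; exact Finset.sum_congr rfl fun b _ => by ring
  rw [e3, e4] at h
  linarith

/-- row Hall condition from minimality -/
lemma rowHall (hw : ∀ x, 0 < w x) {P S : V → V → Prop} (hJ : J0 r P S)
    (hmin : ∀ P', J0 r P' S → M w (Hd r P) - M w P ≤ M w (Hd r P') - M w P')
    (b : V) (X : Finset V) (hX : ∀ x ∈ X, ¬ P b x ∧ ¬ S b x) :
    wt w X ≤ wt w (nb r X \ nb r (sl P b)) := by
  let P' : V → V → Prop := fun b' y => P b' y ∨ (b' = b ∧ y ∈ X)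
  have hJ' : J0 r P' S := by
    refine ⟨?_, fun b y h => Or.inl (hJ.hP b y h), hJ.hS⟩
    rintro b' y (h | ⟨rfl, h⟩) hS
    · exact hJ.ind b' y h hS
    · exact absurd hS (hX y h).2
  have h := hmin P' hJ'
  have hslP' : sl P' b = sl P b ∪ X := by
    ext y; simp [mem_sl, P']
  have hslP'' : ∀ b', b' ≠ b → sl P' b' = sl P b' := by
    intro b' hb'
    ext y; simp [mem_sl, P', hb']
  have hrow : ∀ K : V → V → Prop, M w (Hd r K) - M w K
      = ∑ b', w b' * (wt w (nb r (sl K b')) - wt w (sl K b')) := by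
    intro K
    rw [M, M, ← Finset.sum_sub_distrib]
    exact Finset.sum_congr rfl fun b' _ => by rw [sl_Hd]; ring
  rw [hrow, hrow, ← Finset.add_sum_erase univ _ (mem_univ b),
    ← Finset.add_sum_erase univ (fun b' => w b' * (wt w (nb r (sl P' b')) - wt w (sl P' b')))
      (mem_univ b)] at h
  have h1 : ∑ b' ∈ univ.erase b, w b' * (wt w (nb r (sl P' b')) - wt w (sl P' b'))
      = ∑ b' ∈ univ.erase b, w b' * (wt w (nb r (sl P b')) - wt w (sl P b')) :=
    Finset.sum_congr rfl fun b' hb' => by rw [hslP'' b' (mem_erase.1 hb').1]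
  rw [h1] at h
  have h2 : w b * (wt w (nb r (sl P b)) - wt w (sl P b))
      ≤ w b * (wt w (nb r (sl P' b)) - wt w (sl P' b)) := by linarith
  have h3 := le_of_mul_le_mul_left h2 (hw b)
  rw [hslP'] at h3
  have hdis : Disjoint (sl P b) X := by
    rw [Finset.disjoint_left]
    intro y hy hy'
    exact (hX y hy').1 (mem_sl.1 hy)
  have h4 : nb r (sl P b ∪ X) = nb r (sl P b) ∪ nb r X := by
    ext y
    simp only [mem_nb, mem_union]
    constructor
    · rintro ⟨x, hx | hx, h⟩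
      · exact Or.inl ⟨x, hx, h⟩
      · exact Or.inr ⟨x, hx, h⟩
    · rintro (⟨x, hx, h⟩ | ⟨x, hx, h⟩)
      · exact ⟨x, Or.inl hx, h⟩
      · exact ⟨x, Or.inr hx, h⟩
  rw [wt_union_disj hdis, h4, wt_union] at h3
  linarith

/-- indicator -/
def ι (p : Prop) : ℝ := if p then 1 else 0

lemma ι_ge {a b c : Prop} (h : a ∨ b ∨ c) : 1 ≤ ι a + ι b + ι c := by
  unfold ι
  by_cases ha : a <;> by_cases hb : b <;> by_cases hc : c <;> simp_all <;> norm_num

lemma ι_le {a b c : Prop} (h1 : ¬ (a ∧ b)) (h2 : ¬ (a ∧ c)) (h3 : ¬ (b ∧ c)) :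
    ι a + ι b + ι c ≤ 1 := by
  unfold ι
  by_cases ha : a <;> by_cases hb : b <;> by_cases hc : c <;> simp_all

lemma M_eq (K : V → V → Prop) : M w K = ∑ b, ∑ y, w b * w y * ι (K b y) := by
  unfold M wt sl
  refine Finset.sum_congr rfl fun b _ => ?_
  rw [Finset.mul_sum, Finset.sum_filter]
  exact Finset.sum_congr rfl fun y _ => by unfold ι; split_ifs <;> ring

/-- **STAR**: the erosion of a minimiser. -/
theorem star (hw : ∀ x, 0 < w x) (hrefl : ∀ x, r x x) {P S : V → V → Prop} (hJ : J0 r P S)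
    (hmin : ∀ P' S', J0 r P' S' → En r w P S ≤ En r w P' S') :
    ∃ Q T, J1 r Q T ∧ En r w Q T ≤ En r w P S := by
  let Q : V → V → Prop := fun b y => ∀ m, r m b → P m y
  let T : V → V → Prop := fun b y => ∀ z, r z y → S b z
  have hJ1 : J1 r Q T := by
    refine ⟨fun b m hm => hJ.hP m b hm, fun b z hz => hJ.hS b z hz, ?_⟩
    rintro b u ⟨y, hyu, hQ⟩ ⟨m, hmb, hT⟩
    have hmy : m = y := hJ.ind m y (hQ m hmb) (hT y hyu)
    subst hmy
    have h1 : b = m := hJ.ind b m (hQ b (hrefl b)) (hJ.hS b m hmb)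
    have h2 : m = u := hJ.ind m u (hJ.hP m u hyu) (hT u (hrefl u))
    exact h1.trans h2
  refine ⟨Q, T, hJ1, ?_⟩
  let Nt : V → V → Prop := fun b y => ¬ P b y ∧ ¬ S b y
  let TT : V → V → Prop := fun b y => Hd r Nt b y ∧ ¬ Hd r P b y
  let QQ : V → V → Prop := fun b y => Vd r Nt b y ∧ ¬ Vd r S b y
  have hw0 : ∀ x, 0 ≤ w x := fun x => (hw x).le
  have hrow : ∀ b (X : Finset V), (∀ x ∈ X, Nt b x) → wt w X ≤ wt w (nb r X ∩ sl TT b) := by
    intro b X hX
    have h := rowHall (r := r) hw hJ (fun P' hP' => by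
      have := hmin P' S hP'
      unfold En at this; linarith) b X hX
    refine h.trans (wt_mono hw0 ?_)
    intro y hy
    obtain ⟨hy1, hy2⟩ := mem_sdiff.1 hy
    obtain ⟨x, hx, hxy⟩ := mem_nb.1 hy1
    refine mem_inter.2 ⟨hy1, mem_sl.2 ⟨⟨x, hxy, hX x hx⟩, ?_⟩⟩
    rintro ⟨z, hz1, hz2⟩
    exact hy2 (mem_nb.2 ⟨z, mem_sl.2 hz2, hz1⟩)
  have hcol : ∀ y (X : Finset V), (∀ x ∈ X, Nt x y) → wt w X ≤ wt w (nb r X ∩ sl (tp QQ) y) := by
    intro y X hX
    have h := rowHall (r := r) hw hJ.tp (fun P' hP' => by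
      have h1 := hmin (tp (tp P)) (tp P') hP'.tp
      have h2 : En r w (tp (tp P)) (tp P') = En r w P' (tp P) := En_tp P' (tp P)
      have h3 : En r w P S = En r w (tp S) (tp P) := (En_tp P S).symm
      rw [h2, h3] at h1
      unfold En at h1; linarith) y X (fun x hx => ⟨(hX x hx).2, (hX x hx).1⟩)
    refine h.trans (wt_mono hw0 ?_)
    intro b hb
    obtain ⟨hb1, hb2⟩ := mem_sdiff.1 hb
    obtain ⟨x, hx, hxb⟩ := mem_nb.1 hb1
    refine mem_inter.2 ⟨hb1, mem_sl.2 ⟨⟨x, hxb, hX x hx⟩, ?_⟩⟩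
    rintro ⟨z, hz1, hz2⟩
    exact hb2 (mem_nb.2 ⟨z, mem_sl.2 hz2, hz1⟩)
  have hR := R_ineq (r := r) hw0 (Nt := Nt) (TT := TT) (QQ := QQ) hrow hcol
    (fun b y h => h.1) (fun b y h => h.1) (by
      rintro b b' y y' ⟨_, hT⟩ ⟨_, hQ⟩ hb hy
      exact ⟨fun h => hT ⟨y', hy, h⟩, fun h => hQ ⟨b', hb, h⟩⟩)
  set Om : V → V → Prop := fun b y => (∃ b', r b' b ∧ TT b' y) ∧ ∃ y', r y' y ∧ QQ b y' with hOm
  -- pointwise inequality
  have key : ∀ b y, ι (Hd r Q b y) + ι (Vd r T b y) + ι (P b y) + ι (S b y) + ι (Nt b y)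
      + ι (Om b y) ≤ ι (QQ b y) + ι (TT b y) + ι (Q b y) + ι (T b y) + ι (Hd r P b y)
      + ι (Vd r S b y) := by
    intro b y
    by_cases hby : b = y
    · subst hby
      have a1 : P b b := hJ.hP b b (hrefl b)
      have a2 : S b b := hJ.hS b b (hrefl b)
      have a3 : Hd r P b b := ⟨b, hrefl b, a1⟩
      have a4 : Vd r S b b := ⟨b, hrefl b, a2⟩
      have a5 : Q b b := hJ1.dQ b
      have a6 : T b b := hJ1.dT b
      have a7 : ¬ Nt b b := fun h => h.1 a1
      have a8 : Hd r Q b b := ⟨b, hrefl b, a5⟩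
      have a9 : Vd r T b b := ⟨b, hrefl b, a6⟩
      have a10 : ¬ Om b b := by
        rintro ⟨⟨b', hb', hT⟩, _⟩
        apply hT.2
        exact ⟨b', hrefl b' |> fun _ => hb', hJ.hP b' b' (hrefl b')⟩
      have a11 : ¬ TT b b := fun h => h.2 a3
      have a12 : ¬ QQ b b := fun h => h.2 a4
      simp only [ι, a1, a2, a3, a4, a5, a6, a7, a8, a9, a10, a11, a12, if_true, if_false]
      norm_num
    · have b1 : ¬ (Hd r Q b y ∧ Vd r T b y) := fun h => hby (hJ1.ind b y h.1 h.2)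
      have b2 : ¬ (P b y ∧ S b y) := fun h => hby (hJ.ind b y h.1 h.2)
      have b3 : Om b y → ¬ Hd r Q b y ∧ ¬ Vd r T b y := by
        rintro ⟨⟨b', hb', hT⟩, ⟨y', hy', hQ⟩⟩
        refine ⟨?_, ?_⟩
        · rintro ⟨z, hz, h⟩
          exact hT.2 ⟨z, hz, h b' hb'⟩
        · rintro ⟨m, hm, h⟩
          exact hQ.2 ⟨m, hm, h y' hy'⟩
      have b4 : Q b y ∨ QQ b y ∨ Vd r S b y := by
        by_contra hc
        push Not at hc
        obtain ⟨c1, c2, c3⟩ := hc
        apply c1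
        intro m hm
        by_contra hPm
        by_cases hSm : S m y
        · exact c3 ⟨m, hm, hSm⟩
        · exact c2 ⟨⟨m, hm, hPm, hSm⟩, c3⟩
      have b5 : T b y ∨ TT b y ∨ Hd r P b y := by
        by_contra hc
        push Not at hc
        obtain ⟨c1, c2, c3⟩ := hc
        apply c1
        intro z hz
        by_contra hSz
        by_cases hPz : P b z
        · exact c3 ⟨z, hz, hPz⟩
        · exact c2 ⟨⟨z, hz, hPz, hSz⟩, c3⟩
      have c1 : ι (Hd r Q b y) + ι (Vd r T b y) + ι (Om b y) ≤ 1 :=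
        ι_le b1 (fun h => (b3 h.2).1 h.1) (fun h => (b3 h.2).2 h.1)
      have c2 : ι (P b y) + ι (S b y) + ι (Nt b y) ≤ 1 :=
        ι_le b2 (fun h => h.2.1 h.1) (fun h => h.2.2 h.1)
      have c3 : 1 ≤ ι (Q b y) + ι (QQ b y) + ι (Vd r S b y) := ι_ge b4
      have c4 : 1 ≤ ι (T b y) + ι (TT b y) + ι (Hd r P b y) := ι_ge b5
      linarith
  have hsum : ∑ b, ∑ y, w b * w y * (ι (Hd r Q b y) + ι (Vd r T b y) + ι (P b y) + ι (S b y)
      + ι (Nt b y) + ι (Om b y)) ≤ ∑ b, ∑ y, w b * w y * (ι (QQ b y) + ι (TT b y) + ι (Q b y)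
      + ι (T b y) + ι (Hd r P b y) + ι (Vd r S b y)) := by
    refine Finset.sum_le_sum fun b _ => Finset.sum_le_sum fun y _ => ?_
    exact mul_le_mul_of_nonneg_left (key b y) (mul_nonneg (hw0 b) (hw0 y))
  simp only [mul_add, Finset.sum_add_distrib, ← M_eq] at hsum
  unfold En
  linarith

/-- **the final contradiction**. -/
theorem false_of [Nonempty V] (hw : ∀ x, 0 < w x) (hrefl : ∀ x, r x x)
    (hanti : ∀ x y, r x y → r y x → x = y) (hin : ∀ b, ∃ a, a ≠ b ∧ r a b)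
    (hcg : ∀ X : Finset V, X.Nonempty → X ≠ univ →
      wt w X + wt w (nb r (nb r X)) < 2 * wt w (nb r X)) : False := by
  let s : Set ((V → V → Prop) × (V → V → Prop)) := {p | J0 r p.1 p.2}
  have hs : s.Nonempty :=
    ⟨(fun b y => r b y, fun b y => r y b), ⟨fun b y h1 h2 => hanti b y h1 h2,
      fun _ _ h => h, fun _ _ h => h⟩⟩
  obtain ⟨⟨P, S⟩, hJ, hmin⟩ := Set.exists_min_image s (fun p => En r w p.1 p.2) s.toFinite hs
  obtain ⟨Q, T, hJ1, hle⟩ := star (r := r) hw hrefl (P := P) (S := S) hJ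
    (fun P' S' h' => hmin (P', S') h')
  have hJ0 := hJ1.toJ0
  have hge := hmin (Hd r Q, Vd r T) hJ0
  have h1 : M w (Hd r (Hd r Q)) - M w (Hd r Q) < M w (Hd r Q) - M w Q := by
    apply cg_step hw hcg
    · intro b; exact ⟨b, mem_sl.2 (hJ1.dQ b)⟩
    · intro b hb
      obtain ⟨a, hab, ha⟩ := hin b
      have h2 : Q b a := mem_sl.1 (by rw [hb]; exact mem_univ a)
      exact hab (hJ1.ind b a ⟨a, hrefl a, h2⟩ ⟨a, ha, hJ1.dT a⟩).symm
  have h2 : M w (Hd r (Hd r (tp T))) - M w (Hd r (tp T)) < M w (Hd r (tp T)) - M w (tp T) := by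
    apply cg_step hw hcg
    · intro b; exact ⟨b, mem_sl.2 (hJ1.dT b)⟩
    · intro b hb
      obtain ⟨a, hab, ha⟩ := hin b
      have h2 : tp T b a := mem_sl.1 (by rw [hb]; exact mem_univ a)
      exact hab (hJ1.ind a b ⟨a, ha, hJ1.dQ a⟩ ⟨a, hrefl a, h2⟩)
  rw [← tp_Vd, ← tp_Vd, M_tp, M_tp, M_tp] at h2
  simp only [En] at hge hle
  linarith

/-- no minimal counterexample exists -/
theorem world_false {A : V → Finset V} (H : World A) : False := by
  obtain ⟨w, hw⟩ := H.exists_good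
  haveI := H.ne
  have hnb : ∀ X : Finset V, nb (fun x y => y = x ∨ y ∈ A x) X = X ∪ An A X := by
    intro X
    ext y
    simp only [mem_nb, mem_union, mem_An]
    constructor
    · rintro ⟨x, hx, rfl | h⟩
      · exact Or.inl hx
      · exact Or.inr ⟨x, hx, h⟩
    · rintro (h | ⟨x, hx, h⟩)
      · exact ⟨y, h, Or.inl rfl⟩
      · exact ⟨x, hx, Or.inr h⟩
  refine false_of (r := fun x y => y = x ∨ y ∈ A x) (w := w) (fun x => H.pos hw x)
    (fun x => Or.inl rfl) ?_ ?_ ?_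
  · rintro x y (h | h) (h' | h')
    · exact h.symm
    · exact h.symm
    · exact h'
    · exact absurd h' (H.ori x y h)
  · intro b
    obtain ⟨a, ha⟩ := H.nonempty_in b
    exact ⟨a, fun h => H.ori.irrefl b (h ▸ ha), Or.inr ha⟩
  · intro X hX hX'
    have h := H.cg hw X (H.not_sub hX hX')
    rw [hnb, hnb]
    have e1 := wt_union (w := w) X (An A X)
    have e2 := wt_union (w := w) (X ∪ An A X) (An A (X ∪ An A X))
    linarith

end Crest.Agent.R057.Star431
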