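import Mathlib

/-!
# R057 (Seymour second neighbourhood): abstract counting theorem ("Theorem 0" of helper221)

No flows: only min-formulas over subsets.  See doc 1992, section 4.
-/

namespace Crest.Agent.R057.Th0587

open Finset

/-- Layer-cake form of Hall's inequality. -/
theorem layer {P C : Type} [DecidableEq P] [DecidableEq C]
    (al : P → ℝ) (ga : C → ℝ) (Xc : Finset P) (Bc : Finset C) (I : C → Finset P)
    (hga : ∀ c, 0 ≤ ga c)
    (hall : ∀ U ⊆ Xc, ∑ x ∈ U, al x ≤ ∑ b ∈ Bc with (I b ∩ U).Nonempty, ga b) :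
    ∀ (n : ℕ) (s : P → ℝ) (t : C → ℝ), (Xc.filter (fun a => 0 < s a)).card = n →
      (∀ a ∈ Xc, 0 ≤ s a) → (∀ b ∈ Bc, 0 ≤ t b) →
      (∀ a ∈ Xc, ∀ b ∈ Bc, a ∈ I b → s a ≤ t b) →
      ∑ a ∈ Xc, al a * s a ≤ ∑ b ∈ Bc, ga b * t b := by
  intro n
  induction n using Nat.strong_induction_on with
  | _ n ih =>
    intro s t hn hs ht hst
    set U : Finset P := Xc.filter (fun a => 0 < s a) with hU
    by_cases hne : U.Nonempty
    · obtain ⟨a0, ha0, hmin⟩ := Finset.exists_min_image U s hne
      have ha0' : a0 ∈ Xc ∧ 0 < s a0 := by simpa [hU] using ha0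
      set m : ℝ := s a0 with hm
      set N : Finset C := Bc.filter (fun b => (I b ∩ U).Nonempty) with hN
      let s' : P → ℝ := fun a => if a ∈ U then s a - m else s a
      let t' : C → ℝ := fun b => if b ∈ N then t b - m else t b
      have hNt : ∀ b ∈ N, m ≤ t b := by
        intro b hb
        have hb' : b ∈ Bc ∧ (I b ∩ U).Nonempty := by simpa [hN] using hb
        obtain ⟨a, ha⟩ := hb'.2
        rw [Finset.mem_inter] at ha
        have haU := ha.2
        have haX : a ∈ Xc := (Finset.mem_filter.mp haU).1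
        exact le_trans (hmin a haU) (hst a haX b hb'.1 ha.1)
      have hs' : ∀ a ∈ Xc, 0 ≤ s' a := by
        intro a ha
        by_cases h : a ∈ U
        · simp only [s', h, if_true]
          linarith [hmin a h]
        · simp only [s', h, if_false]
          exact hs a ha
      have ht' : ∀ b ∈ Bc, 0 ≤ t' b := by
        intro b hb
        by_cases h : b ∈ N
        · simp only [t', h, if_true]
          linarith [hNt b h]
        · simp only [t', h, if_false]
          exact ht b hb
      have hst' : ∀ a ∈ Xc, ∀ b ∈ Bc, a ∈ I b → s' a ≤ t' b := by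
        intro a ha b hb hab
        by_cases h : a ∈ U
        · have hbN : b ∈ N := by
            rw [hN, Finset.mem_filter]
            exact ⟨hb, ⟨a, Finset.mem_inter.mpr ⟨hab, h⟩⟩⟩
          simp only [s', t', h, hbN, if_true]
          linarith [hst a ha b hb hab]
        · have h0 : s a ≤ 0 := by
            by_contra hc
            exact h (Finset.mem_filter.mpr ⟨ha, lt_of_not_ge hc⟩)
          have : s' a ≤ 0 := by simp only [s', h, if_false]; exact h0
          exact le_trans this (ht' b hb)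
      have hcard : (Xc.filter (fun a => 0 < s' a)).card < n := by
        rw [← hn]
        apply Finset.card_lt_card
        refine ⟨?_, ?_⟩
        · intro a ha
          rw [Finset.mem_filter] at ha
          by_cases h : a ∈ U
          · exact h
          · exfalso
            have h2 := ha.2
            simp only [s', h, if_false] at h2
            exact h (Finset.mem_filter.mpr ⟨ha.1, h2⟩)
        · intro hsub
          have := hsub ha0
          rw [Finset.mem_filter] at this
          have h2 := this.2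
          simp only [s', ha0, if_true] at h2
          linarith
      have key := ih _ hcard s' t' rfl hs' ht' hst'
      have e1 : ∑ a ∈ Xc, al a * s a = m * ∑ a ∈ U, al a + ∑ a ∈ Xc, al a * s' a := by
        have : ∑ a ∈ U, al a = ∑ a ∈ Xc, if 0 < s a then al a else 0 := by
          rw [hU, Finset.sum_filter]
        rw [this, Finset.mul_sum, ← Finset.sum_add_distrib]
        apply Finset.sum_congr rfl
        intro a ha
        by_cases h : 0 < s a
        · have haU : a ∈ U := Finset.mem_filter.mpr ⟨ha, h⟩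
          simp only [s', haU, h, if_true]
          ring
        · have haU : a ∉ U := fun hh => h (Finset.mem_filter.mp hh).2
          simp only [s', haU, h, if_false]
          ring
      have e2 : ∑ b ∈ Bc, ga b * t b = m * ∑ b ∈ N, ga b + ∑ b ∈ Bc, ga b * t' b := by
        have : ∑ b ∈ N, ga b = ∑ b ∈ Bc, if (I b ∩ U).Nonempty then ga b else 0 := by
          rw [hN, Finset.sum_filter]
        rw [this, Finset.mul_sum, ← Finset.sum_add_distrib]
        apply Finset.sum_congr rfl
        intro b hb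
        by_cases h : (I b ∩ U).Nonempty
        · have hbN : b ∈ N := Finset.mem_filter.mpr ⟨hb, h⟩
          simp only [t', hbN, h, if_true]
          ring
        · have hbN : b ∉ N := fun hh => h (Finset.mem_filter.mp hh).2
          simp only [t', hbN, h, if_false]
          ring
      have hhall := hall U (Finset.filter_subset _ _)
      have hm0 : 0 ≤ m := le_of_lt ha0'.2
      have : m * ∑ a ∈ U, al a ≤ m * ∑ b ∈ N, ga b :=
        mul_le_mul_of_nonneg_left hhall hm0
      rw [e1, e2]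
      linarith
    · have hUe : U = ∅ := Finset.not_nonempty_iff_eq_empty.mp hne
      have e1 : ∑ a ∈ Xc, al a * s a = 0 := by
        apply Finset.sum_eq_zero
        intro a ha
        have : ¬ 0 < s a := by
          intro h
          have : a ∈ U := Finset.mem_filter.mpr ⟨ha, h⟩
          rw [hUe] at this
          exact absurd this (Finset.notMem_empty a)
        have h0 : s a = 0 := le_antisymm (not_lt.mp this) (hs a ha)
        rw [h0, mul_zero]
      rw [e1]
      exact Finset.sum_nonneg (fun b hb => mul_nonneg (hga b) (ht b hb))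

/-- four-proposition indicator inequality. -/
theorem ind4 (g : ℝ) (hg : 0 ≤ g) (p q r s : Prop) [Decidable p] [Decidable q] [Decidable r]
    [Decidable s] (f1 : p → r ∨ s) (f2 : q → s) (f3 : p → q → r) :
    (if p then g else 0) + (if q then g else 0) ≤ (if r then g else 0) + (if s then g else 0) := by
  by_cases hp : p
  · by_cases hq : q
    · have hr := f3 hp hq
      have hs := f2 hq
      simp [hp, hq, hr, hs]
    · rcases f1 hp with h | h
      · simp only [hp, hq, h, if_true, if_false]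
        split_ifs <;> linarith
      · simp only [hp, hq, h, if_true, if_false]
        split_ifs <;> linarith
  · by_cases hq : q
    · have hs := f2 hq
      simp only [hp, hq, hs, if_true, if_false]
      split_ifs <;> linarith
    · simp only [hp, hq, if_false]
      split_ifs <;> linarith

section MinF

variable {P C : Type} [DecidableEq P] [DecidableEq C]
variable (al : P → ℝ) (ga : C → ℝ) (I : C → Finset P)

/-- cost of the source set `U` in the transport problem with sources `B`, allowed sinks `R`,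
present sinks `Y`. -/
def cost (B : Finset P) (R Y : Finset C) (U : Finset P) : ℝ :=
  ∑ x ∈ B \ U, al x + ∑ c ∈ Y with (c ∈ R ∧ (I c ∩ U).Nonempty), ga c

/-- the min formula. -/
noncomputable def F (B : Finset P) (R Y : Finset C) : ℝ :=
  B.powerset.inf' ⟨∅, Finset.empty_mem_powerset B⟩ (cost al ga I B R Y)

variable {al ga I}

theorem F_le {B : Finset P} {R Y : Finset C} {U : Finset P} (hU : U ⊆ B) :
    F al ga I B R Y ≤ cost al ga I B R Y U :=
  Finset.inf'_le _ (Finset.mem_powerset.mpr hU)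

theorem F_exists (B : Finset P) (R Y : Finset C) :
    ∃ U ⊆ B, F al ga I B R Y = cost al ga I B R Y U := by
  obtain ⟨U, hU, h⟩ := Finset.exists_mem_eq_inf' (s := B.powerset)
    ⟨∅, Finset.empty_mem_powerset B⟩ (cost al ga I B R Y)
  exact ⟨U, Finset.mem_powerset.mp hU, h⟩

theorem F_empty (hal : ∀ a, 0 ≤ al a) (B : Finset P) (R : Finset C) :
    F al ga I B R ∅ = 0 := by
  apply le_antisymm
  · refine le_trans (F_le (U := B) (Finset.Subset.refl _)) ?_
    simp [cost]
  · obtain ⟨U, _, h⟩ := F_exists (al := al) (ga := ga) (I := I) B R ∅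
    rw [h]
    simp only [cost, Finset.filter_empty, Finset.sum_empty, add_zero]
    exact Finset.sum_nonneg (fun x _ => hal x)

theorem F_full [Fintype C] (B : Finset P) (R : Finset C)
    (hall : ∀ U ⊆ B, ∑ x ∈ U, al x ≤ ∑ b with (b ∈ R ∧ (I b ∩ U).Nonempty), ga b) :
    F al ga I B R Finset.univ = ∑ x ∈ B, al x := by
  apply le_antisymm
  · refine le_trans (F_le (U := ∅) (Finset.empty_subset _)) ?_
    simp [cost]
  · obtain ⟨U, hUB, h⟩ := F_exists (al := al) (ga := ga) (I := I) B R Finset.univ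
    rw [h]
    have := hall U hUB
    unfold cost
    have hs : ∑ x ∈ B \ U, al x + ∑ x ∈ U, al x = ∑ x ∈ B, al x :=
      Finset.sum_sdiff hUB
    linarith

theorem F_mono_insert (hga : ∀ c, 0 ≤ ga c) (B : Finset P) (R Y : Finset C) (c : C) :
    F al ga I B R Y ≤ F al ga I B R (insert c Y) := by
  obtain ⟨U, hUB, h⟩ := F_exists (al := al) (ga := ga) (I := I) B R (insert c Y)
  rw [h]
  refine le_trans (F_le hUB) ?_
  unfold cost
  have : ∑ c ∈ Y with (c ∈ R ∧ (I c ∩ U).Nonempty), ga c ≤
      ∑ c ∈ insert c Y with (c ∈ R ∧ (I c ∩ U).Nonempty), ga c := by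
    apply Finset.sum_le_sum_of_subset_of_nonneg
    · exact Finset.filter_subset_filter _ (Finset.subset_insert _ _)
    · intro i _ _
      exact hga i
  linarith

theorem F_insert_le (hga : ∀ c, 0 ≤ ga c) (B : Finset P) (R Y : Finset C) (c : C) (hc : c ∉ Y) :
    F al ga I B R (insert c Y) ≤ F al ga I B R Y + ga c := by
  obtain ⟨U, hUB, h⟩ := F_exists (al := al) (ga := ga) (I := I) B R Y
  rw [h]
  refine le_trans (F_le hUB) ?_
  unfold cost
  rw [Finset.filter_insert]
  split_ifs with hh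
  · rw [Finset.sum_insert (fun hmem => hc (Finset.mem_filter.mp hmem).1)]
    linarith
  · linarith [hga c]

theorem F_insert_notMem (B : Finset P) (R Y : Finset C) (c : C) (hc : c ∉ R) :
    F al ga I B R (insert c Y) = F al ga I B R Y := by
  have hcost : cost al ga I B R (insert c Y) = cost al ga I B R Y := by
    funext U
    unfold cost
    rw [Finset.filter_insert]
    simp [hc]
  unfold F
  rw [hcost]

end MinF

section Main

variable {P C : Type} [Fintype P] [DecidableEq P] [Fintype C] [DecidableEq C]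

/-- secondary columns of `b`. -/
def Sec (I X : C → Finset P) (b : C) : Finset C :=
  Finset.univ.filter (fun b' => (I b' ∩ X b).Nonempty ∧ (I b ∩ X b').Nonempty)

omit [Fintype P] [DecidableEq C] in
theorem mem_Sec {I X : C → Finset P} {b b' : C} :
    b' ∈ Sec I X b ↔ (I b' ∩ X b).Nonempty ∧ (I b ∩ X b').Nonempty := by
  simp [Sec]

omit [Fintype P] [DecidableEq C] in
theorem Sec_symm {I X : C → Finset P} {b b' : C} : b' ∈ Sec I X b ↔ b ∈ Sec I X b' := by
  rw [mem_Sec, mem_Sec]
  exact and_comm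

/-- 4.1: Hall inequality for the sets `X b`. -/
theorem hallX (al : P → ℝ) (ga : C → ℝ) (hga : ∀ c, 0 ≤ ga c)
    (E : P → Finset P) (I X : C → Finset P)
    (h1 : ∀ b, ∀ x ∈ X b, ∃ a ∈ I b, x ∈ E a)
    (h2 : ∀ b b' x a, x ∈ I b' → x ∈ X b → a ∈ I b → a ∈ X b' → x ∈ E a)
    (h3 : ∀ a, ∀ U ⊆ E a, ∑ x ∈ U, al x ≤ ∑ b with (a ∈ X b ∧ (I b ∩ U).Nonempty), ga b)
    (b : C) (U : Finset P) (hU : U ⊆ X b) :
    ∑ x ∈ U, al x ≤ ∑ b' ∈ Sec I X b with (I b' ∩ U).Nonempty, ga b' := by
  classical
  let rk : P → ℕ := fun p => (Fintype.equivFin P p : ℕ)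
  have rk_inj : Function.Injective rk := by
    intro p q h
    exact (Fintype.equivFin P).injective (Fin.ext h)
  have hex : ∀ x ∈ X b, ∃ a, a ∈ I b ∧ x ∈ E a ∧ ∀ a' ∈ I b, x ∈ E a' → rk a ≤ rk a' := by
    intro x hx
    obtain ⟨a1, ha1, hxa1⟩ := h1 b x hx
    obtain ⟨a, ha, hmin⟩ := Finset.exists_min_image ((I b).filter (fun a => x ∈ E a)) rk
      ⟨a1, Finset.mem_filter.mpr ⟨ha1, hxa1⟩⟩
    rw [Finset.mem_filter] at ha
    exact ⟨a, ha.1, ha.2, fun a' ha' hxa' => hmin a' (Finset.mem_filter.mpr ⟨ha', hxa'⟩)⟩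
  choose! φ hφ1 hφ2 hφ3 using hex
  let Ua : P → Finset P := fun a => U.filter (fun x => φ x = a)
  let Ca : P → Finset C := fun a => Finset.univ.filter (fun b' => a ∈ X b' ∧ (I b' ∩ Ua a).Nonempty)
  have e1 : ∑ x ∈ U, al x = ∑ a ∈ I b, ∑ x ∈ Ua a, al x := by
    symm
    exact Finset.sum_fiberwise_of_maps_to (fun x hx => hφ1 x (hU hx)) al
  have e2 : ∀ a ∈ I b, ∑ x ∈ Ua a, al x ≤ ∑ c ∈ Ca a, ga c := by
    intro a _
    apply h3 a (Ua a)
    intro x hx
    have hx' : x ∈ U ∧ φ x = a := by simpa [Ua] using hx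
    have := hφ2 x (hU hx'.1)
    rwa [hx'.2] at this
  have hdis : ∀ a ∈ I b, ∀ a' ∈ I b, rk a < rk a' → Disjoint (Ca a) (Ca a') := by
    intro a ha a' _ hlt
    rw [Finset.disjoint_left]
    intro c hc hc'
    have hc1 : a ∈ X c ∧ (I c ∩ Ua a).Nonempty := by simpa [Ca] using hc
    have hc2 : a' ∈ X c ∧ (I c ∩ Ua a').Nonempty := by simpa [Ca] using hc'
    obtain ⟨x, hx⟩ := hc2.2
    rw [Finset.mem_inter] at hx
    have hxU : x ∈ U ∧ φ x = a' := by simpa [Ua] using hx.2
    have hxX := hU hxU.1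
    have hxE : x ∈ E a := h2 b c x a hx.1 hxX ha hc1.1
    have := hφ3 x hxX a ha hxE
    rw [hxU.2] at this
    omega
  have hpd : ((I b : Finset P) : Set P).PairwiseDisjoint Ca := by
    intro a ha a' ha' hne
    have hne' : rk a ≠ rk a' := fun h => hne (rk_inj h)
    rcases lt_or_gt_of_ne hne' with h | h
    · exact hdis a ha a' ha' h
    · exact (hdis a' ha' a ha h).symm
  calc ∑ x ∈ U, al x = ∑ a ∈ I b, ∑ x ∈ Ua a, al x := e1
    _ ≤ ∑ a ∈ I b, ∑ c ∈ Ca a, ga c := Finset.sum_le_sum e2
    _ = ∑ c ∈ (I b).biUnion Ca, ga c := (Finset.sum_biUnion hpd).symm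
    _ ≤ ∑ b' ∈ Sec I X b with (I b' ∩ U).Nonempty, ga b' := by
      apply Finset.sum_le_sum_of_subset_of_nonneg
      · intro c hc
        rw [Finset.mem_biUnion] at hc
        obtain ⟨a, ha, hca⟩ := hc
        have hc1 : a ∈ X c ∧ (I c ∩ Ua a).Nonempty := by simpa [Ca] using hca
        obtain ⟨x, hx⟩ := hc1.2
        rw [Finset.mem_inter] at hx
        have hxU : x ∈ U ∧ φ x = a := by simpa [Ua] using hx.2
        rw [Finset.mem_filter, mem_Sec]
        refine ⟨⟨⟨x, Finset.mem_inter.mpr ⟨hx.1, hU hxU.1⟩⟩,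
          ⟨a, Finset.mem_inter.mpr ⟨ha, hc1.1⟩⟩⟩, ⟨x, Finset.mem_inter.mpr ⟨hx.1, hxU.1⟩⟩⟩
      · intro c _ _
        exact hga c

/-- 4.3: the key marginal comparison. -/
theorem key43 (al : P → ℝ) (ga : C → ℝ) (hga : ∀ c, 0 ≤ ga c)
    (E : P → Finset P) (I X : C → Finset P)
    (h2 : ∀ b b' x a, x ∈ I b' → x ∈ X b → a ∈ I b → a ∈ X b' → x ∈ E a)
    (b c : C) (a : P) (Y : Finset C) (hcY : c ∉ Y) (hab : a ∈ I b) (hac : a ∈ X c) :
    F al ga I (X b) (Sec I X b) (insert c Y) - F al ga I (X b) (Sec I X b) Y ≤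
      F al ga I (E a) (Finset.univ.filter (fun c => a ∈ X c)) (insert c Y)
        - F al ga I (E a) (Finset.univ.filter (fun c => a ∈ X c)) Y := by
  classical
  set R : Finset C := Finset.univ.filter (fun c => a ∈ X c) with hR
  obtain ⟨U1, hU1, e1⟩ := F_exists (al := al) (ga := ga) (I := I) (E a) R (insert c Y)
  obtain ⟨U2, hU2, e2⟩ := F_exists (al := al) (ga := ga) (I := I) (X b) (Sec I X b) Y
  let V1 : Finset P := U1 ∪ (U2 ∩ E a)
  let V2 : Finset P := U2.filter (fun x => x ∈ E a → x ∈ U1)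
  have hV1 : V1 ⊆ E a := by
    intro x hx
    simp only [V1, Finset.mem_union, Finset.mem_inter] at hx
    rcases hx with h | h
    · exact hU1 h
    · exact h.2
  have hV2 : V2 ⊆ X b := by
    intro x hx
    exact hU2 (Finset.mem_filter.mp hx).1
  have l1 := F_le (al := al) (ga := ga) (I := I) (R := R) (Y := Y) hV1
  have l2 := F_le (al := al) (ga := ga) (I := I) (R := Sec I X b) (Y := insert c Y) hV2
  have hcost : cost al ga I (E a) R Y V1 + cost al ga I (X b) (Sec I X b) (insert c Y) V2 ≤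
      cost al ga I (E a) R (insert c Y) U1 + cost al ga I (X b) (Sec I X b) Y U2 := by
    unfold cost
    -- alpha part
    have A : ∑ x ∈ E a \ V1, al x + ∑ x ∈ X b \ V2, al x =
        ∑ x ∈ E a \ U1, al x + ∑ x ∈ X b \ U2, al x := by
      have s1 : ∑ x ∈ E a \ V1, al x + ∑ x ∈ V1, al x = ∑ x ∈ E a, al x := Finset.sum_sdiff hV1
      have s2 : ∑ x ∈ X b \ V2, al x + ∑ x ∈ V2, al x = ∑ x ∈ X b, al x := Finset.sum_sdiff hV2
      have s3 : ∑ x ∈ E a \ U1, al x + ∑ x ∈ U1, al x = ∑ x ∈ E a, al x := Finset.sum_sdiff hU1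
      have s4 : ∑ x ∈ X b \ U2, al x + ∑ x ∈ U2, al x = ∑ x ∈ X b, al x := Finset.sum_sdiff hU2
      let Z : Finset P := U2.filter (fun x => ¬ (x ∈ E a → x ∈ U1))
      have s5 : ∑ x ∈ V2, al x + ∑ x ∈ Z, al x = ∑ x ∈ U2, al x :=
        Finset.sum_filter_add_sum_filter_not U2 _ al
      have s6 : ∑ x ∈ V1, al x = ∑ x ∈ U1, al x + ∑ x ∈ Z, al x := by
        have hV : V1 = U1 ∪ Z := by
          ext x
          simp only [V1, Z, Finset.mem_union, Finset.mem_inter, Finset.mem_filter]
          tauto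
        rw [hV, Finset.sum_union]
        rw [Finset.disjoint_left]
        intro x hx hxZ
        simp only [Z, Finset.mem_filter] at hxZ
        exact hxZ.2 (fun _ => hx)
      linarith
    -- gamma part
    have B : ∑ d ∈ Y with (d ∈ R ∧ (I d ∩ V1).Nonempty), ga d +
        ∑ d ∈ insert c Y with (d ∈ Sec I X b ∧ (I d ∩ V2).Nonempty), ga d ≤
        ∑ d ∈ insert c Y with (d ∈ R ∧ (I d ∩ U1).Nonempty), ga d +
        ∑ d ∈ Y with (d ∈ Sec I X b ∧ (I d ∩ U2).Nonempty), ga d := by
      simp only [Finset.sum_filter, Finset.sum_insert hcY]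
      have hc : (if (c ∈ Sec I X b ∧ (I c ∩ V2).Nonempty) then ga c else 0) ≤
          (if (c ∈ R ∧ (I c ∩ U1).Nonempty) then ga c else 0) := by
        split_ifs with p q q
        · exact le_refl _
        · exfalso
          apply q
          obtain ⟨x, hx⟩ := p.2
          simp only [V2, Finset.mem_inter, Finset.mem_filter] at hx
          have hxE : x ∈ E a := h2 b c x a hx.1 (hU2 hx.2.1) hab hac
          refine ⟨by simp [hR, hac], ⟨x, Finset.mem_inter.mpr ⟨hx.1, hx.2.2 hxE⟩⟩⟩
        · exact hga c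
        · exact le_refl _
      have hY : ∑ d ∈ Y, (if (d ∈ R ∧ (I d ∩ V1).Nonempty) then ga d else 0) +
          ∑ d ∈ Y, (if (d ∈ Sec I X b ∧ (I d ∩ V2).Nonempty) then ga d else 0) ≤
          ∑ d ∈ Y, (if (d ∈ R ∧ (I d ∩ U1).Nonempty) then ga d else 0) +
          ∑ d ∈ Y, (if (d ∈ Sec I X b ∧ (I d ∩ U2).Nonempty) then ga d else 0) := by
        rw [← Finset.sum_add_distrib, ← Finset.sum_add_distrib]
        apply Finset.sum_le_sum
        intro d _
        have hgd := hga d
        -- logical facts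
        have f1 : (d ∈ R ∧ (I d ∩ V1).Nonempty) →
            (d ∈ R ∧ (I d ∩ U1).Nonempty) ∨ (d ∈ Sec I X b ∧ (I d ∩ U2).Nonempty) := by
          rintro ⟨hdR, x, hx⟩
          have had : a ∈ X d := by simpa [hR] using hdR
          simp only [V1, Finset.mem_inter, Finset.mem_union] at hx
          rcases hx.2 with h | h
          · exact Or.inl ⟨hdR, ⟨x, Finset.mem_inter.mpr ⟨hx.1, h⟩⟩⟩
          · right
            refine ⟨mem_Sec.mpr ⟨⟨x, Finset.mem_inter.mpr ⟨hx.1, hU2 h.1⟩⟩,
              ⟨a, Finset.mem_inter.mpr ⟨hab, had⟩⟩⟩, ⟨x, Finset.mem_inter.mpr ⟨hx.1, h.1⟩⟩⟩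
        have f2 : (d ∈ Sec I X b ∧ (I d ∩ V2).Nonempty) →
            (d ∈ Sec I X b ∧ (I d ∩ U2).Nonempty) := by
          rintro ⟨hdS, x, hx⟩
          simp only [V2, Finset.mem_inter, Finset.mem_filter] at hx
          exact ⟨hdS, ⟨x, Finset.mem_inter.mpr ⟨hx.1, hx.2.1⟩⟩⟩
        have f3 : (d ∈ R ∧ (I d ∩ V1).Nonempty) → (d ∈ Sec I X b ∧ (I d ∩ V2).Nonempty) →
            (d ∈ R ∧ (I d ∩ U1).Nonempty) := by
          rintro ⟨hdR, _⟩ ⟨_, x, hx⟩
          have had : a ∈ X d := by simpa [hR] using hdR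
          simp only [V2, Finset.mem_inter, Finset.mem_filter] at hx
          have hxE : x ∈ E a := h2 b d x a hx.1 (hU2 hx.2.1) hab had
          exact ⟨hdR, ⟨x, Finset.mem_inter.mpr ⟨hx.1, hx.2.2 hxE⟩⟩⟩
        exact ind4 (ga d) hgd _ _ _ _ f1 f2 f3
      linarith
    linarith
  rw [e1, e2]
  linarith

/-- one column step. -/
theorem step (al : P → ℝ) (ga : C → ℝ) (hal : ∀ a, 0 ≤ al a) (hga : ∀ c, 0 ≤ ga c)
    (E : P → Finset P) (I X : C → Finset P)
    (h1 : ∀ b, ∀ x ∈ X b, ∃ a ∈ I b, x ∈ E a)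
    (h2 : ∀ b b' x a, x ∈ I b' → x ∈ X b → a ∈ I b → a ∈ X b' → x ∈ E a)
    (h3 : ∀ a, ∀ U ⊆ E a, ∑ x ∈ U, al x ≤ ∑ b with (a ∈ X b ∧ (I b ∩ U).Nonempty), ga b)
    (c : C) (Y : Finset C) (hcY : c ∉ Y) :
    ga c * ∑ x ∈ X c, al x
      - ∑ a, al a * (F al ga I (E a) (Finset.univ.filter (fun c => a ∈ X c)) (insert c Y)
        - F al ga I (E a) (Finset.univ.filter (fun c => a ∈ X c)) Y) ≤
    ∑ b, ga b * ((if c ∈ Sec I X b then ga c else 0)
      - (F al ga I (X b) (Sec I X b) (insert c Y) - F al ga I (X b) (Sec I X b) Y)) := by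
  classical
  set r : P → ℝ := fun a => F al ga I (E a) (Finset.univ.filter (fun c => a ∈ X c)) (insert c Y)
        - F al ga I (E a) (Finset.univ.filter (fun c => a ∈ X c)) Y with hr
  set ρ : C → ℝ := fun b => F al ga I (X b) (Sec I X b) (insert c Y)
        - F al ga I (X b) (Sec I X b) Y with hρ
  have hr0 : ∀ a, a ∉ X c → r a = 0 := by
    intro a ha
    simp only [hr]
    rw [F_insert_notMem]
    · ring
    · simpa using ha
  have hρ0 : ∀ b, c ∉ Sec I X b → ρ b = 0 := by
    intro b hb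
    simp only [hρ]
    rw [F_insert_notMem _ _ _ _ hb]
    ring
  have hr1 : ∀ a, r a ≤ ga c := by
    intro a
    simp only [hr]
    linarith [F_insert_le (al := al) (ga := ga) (I := I) hga (E a)
      (Finset.univ.filter (fun c => a ∈ X c)) Y c hcY]
  have hρ1 : ∀ b, ρ b ≤ ga c := by
    intro b
    simp only [hρ]
    linarith [F_insert_le (al := al) (ga := ga) (I := I) hga (X b) (Sec I X b) Y c hcY]
  have hl := layer al ga (X c) (Sec I X c) I hga
    (fun U hU => hallX al ga hga E I X h1 h2 h3 c U hU) _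
    (fun a => ga c - r a) (fun b => ga c - ρ b) rfl
    (fun a _ => by linarith [hr1 a]) (fun b _ => by linarith [hρ1 b])
    (by
      intro a ha b hb hab
      have := key43 al ga hga E I X h2 b c a Y hcY hab ha
      simp only [hr, hρ]
      linarith)
  have e1 : ga c * ∑ x ∈ X c, al x - ∑ a, al a * r a = ∑ a ∈ X c, al a * (ga c - r a) := by
    have : ∑ a, al a * r a = ∑ a ∈ X c, al a * r a := by
      symm
      apply Finset.sum_subset (Finset.subset_univ _)
      intro a _ ha
      rw [hr0 a ha, mul_zero]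
    rw [this, Finset.mul_sum, ← Finset.sum_sub_distrib]
    apply Finset.sum_congr rfl
    intro a _
    ring
  have e2 : ∑ b, ga b * ((if c ∈ Sec I X b then ga c else 0) - ρ b) =
      ∑ b ∈ Sec I X c, ga b * (ga c - ρ b) := by
    symm
    rw [← Finset.sum_subset (Finset.subset_univ (Sec I X c))]
    · apply Finset.sum_congr rfl
      intro b hb
      have : c ∈ Sec I X b := Sec_symm.mp hb
      simp only [this, if_true]
    · intro b _ hb
      have hb' : c ∉ Sec I X b := fun h => hb (Sec_symm.mp h)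
      rw [hρ0 b hb']
      simp [hb']
  rw [e1, e2]
  exact hl

/-- **Theorem 0** (helper221). -/
theorem theorem0 (al : P → ℝ) (ga : C → ℝ) (hal : ∀ a, 0 ≤ al a) (hga : ∀ c, 0 ≤ ga c)
    (E : P → Finset P) (_hE : ∀ a x, x ∈ E a → a ∈ E x) (I X : C → Finset P)
    (h1 : ∀ b, ∀ x ∈ X b, ∃ a ∈ I b, x ∈ E a)
    (h2 : ∀ b b' x a, x ∈ I b' → x ∈ X b → a ∈ I b → a ∈ X b' → x ∈ E a)
    (h3 : ∀ a, ∀ U ⊆ E a, ∑ x ∈ U, al x ≤ ∑ b with (a ∈ X b ∧ (I b ∩ U).Nonempty), ga b) :
    2 * ∑ b, ga b * ∑ x ∈ X b, al x ≤ ∑ a, al a * ∑ x ∈ E a, al x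
      + ∑ b, ga b * ∑ b' with ((I b' ∩ X b).Nonempty ∧ (I b ∩ X b').Nonempty), ga b' := by
  classical
  have main : ∀ Y : Finset C,
      ∑ c ∈ Y, ga c * ∑ x ∈ X c, al x
        - ∑ a, al a * F al ga I (E a) (Finset.univ.filter (fun c => a ∈ X c)) Y ≤
      ∑ b, ga b * ((∑ c ∈ Y, if c ∈ Sec I X b then ga c else 0)
        - F al ga I (X b) (Sec I X b) Y) := by
    intro Y
    induction Y using Finset.induction_on with
    | empty =>
      have t1 : ∀ a, F al ga I (E a) (Finset.univ.filter (fun c => a ∈ X c)) ∅ = 0 :=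
        fun a => F_empty hal _ _
      have t2 : ∀ b, F al ga I (X b) (Sec I X b) ∅ = 0 := fun b => F_empty hal _ _
      simp [t1, t2]
    | insert c Y hcY ih =>
      have hs := step al ga hal hga E I X h1 h2 h3 c Y hcY
      rw [Finset.sum_insert hcY]
      have e1 : ∑ a, al a * (F al ga I (E a) (Finset.univ.filter (fun c => a ∈ X c)) (insert c Y)
          - F al ga I (E a) (Finset.univ.filter (fun c => a ∈ X c)) Y) =
          ∑ a, al a * F al ga I (E a) (Finset.univ.filter (fun c => a ∈ X c)) (insert c Y)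
          - ∑ a, al a * F al ga I (E a) (Finset.univ.filter (fun c => a ∈ X c)) Y := by
        rw [← Finset.sum_sub_distrib]
        exact Finset.sum_congr rfl (fun a _ => by ring)
      have e2 : ∑ b, ga b * ((∑ c ∈ insert c Y, if c ∈ Sec I X b then ga c else 0)
          - F al ga I (X b) (Sec I X b) (insert c Y)) =
          ∑ b, ga b * ((if c ∈ Sec I X b then ga c else 0)
            - (F al ga I (X b) (Sec I X b) (insert c Y) - F al ga I (X b) (Sec I X b) Y)) +
          ∑ b, ga b * ((∑ c ∈ Y, if c ∈ Sec I X b then ga c else 0)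
            - F al ga I (X b) (Sec I X b) Y) := by
        rw [← Finset.sum_add_distrib]
        apply Finset.sum_congr rfl
        intro b _
        rw [Finset.sum_insert hcY]
        ring
      rw [e1] at hs
      rw [e2]
      linarith
  have hfin := main Finset.univ
  have t1 : ∀ a, F al ga I (E a) (Finset.univ.filter (fun c => a ∈ X c)) Finset.univ
      = ∑ x ∈ E a, al x := by
    intro a
    apply F_full
    intro U hU
    have := h3 a U hU
    simpa using this
  have t2 : ∀ b, F al ga I (X b) (Sec I X b) Finset.univ = ∑ x ∈ X b, al x := by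
    intro b
    apply F_full
    intro U hU
    have := hallX al ga hga E I X h1 h2 h3 b U hU
    have e : (Finset.univ.filter (fun b' => b' ∈ Sec I X b ∧ (I b' ∩ U).Nonempty)) =
        (Sec I X b).filter (fun b' => (I b' ∩ U).Nonempty) := by
      ext b'
      simp
    rw [e]
    exact this
  have t3 : ∀ b, (∑ c, if c ∈ Sec I X b then ga c else 0) =
      ∑ b' with ((I b' ∩ X b).Nonempty ∧ (I b ∩ X b').Nonempty), ga b' := by
    intro b
    rw [← Finset.sum_filter]
    apply Finset.sum_congr _ (fun _ _ => rfl)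
    ext b'
    simp [mem_Sec]
  simp only [t1, t2, t3] at hfin
  have e3 : ∑ b, ga b * (∑ b' with ((I b' ∩ X b).Nonempty ∧ (I b ∩ X b').Nonempty), ga b'
      - ∑ x ∈ X b, al x) =
      ∑ b, ga b * ∑ b' with ((I b' ∩ X b).Nonempty ∧ (I b ∩ X b').Nonempty), ga b'
      - ∑ b, ga b * ∑ x ∈ X b, al x := by
    rw [← Finset.sum_sub_distrib]
    exact Finset.sum_congr rfl (fun b _ => by ring)
  rw [e3] at hfin
  linarith

end Main

end Crest.Agent.R057.Th0587
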